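import Mathlib

/-! Interfaces for P193 (Boone-Higman). -/

namespace Vale.Agent.P193

open scoped commutatorElement

/-- Free associative algebra over the field with two elements. -/
abbrev FA (X : Type) : Type := MonoidAlgebra (ZMod 2) (FreeMonoid X)

/-- The monomial of a word. -/
noncomputable def wd {X : Type} (l : List X) : FA X :=
  MonoidAlgebra.of (ZMod 2) (FreeMonoid X) (FreeMonoid.ofList l)

theorem wd_nil {X : Type} : wd ([] : List X) = 1 := by simp [wd, MonoidAlgebra.one_def]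

theorem wd_append {X : Type} (l l' : List X) : wd (l ++ l') = wd l * wd l' := by
  unfold wd; rw [← map_mul]; rfl

theorem wd_cons {X : Type} (x : X) (l : List X) : wd (x :: l) = wd [x] * wd l :=
  wd_append [x] l

/-- A finitely presented algebra over the field with two elements. -/
def FP (R : Type) [Ring R] : Prop :=
  ∃ (X : Type) (_ : Finite X) (Rel : Set (FA X)) (π : FA X →+* R),
    Rel.Finite ∧ Function.Surjective π ∧ ∀ w, π w = 0 ↔ w ∈ TwoSidedIdeal.span Rel

/-- Purely infinite simple ring of characteristic two with a Leavitt pair, an infinite-sum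
endomorphism and trivial centre. -/
structure Good (R : Type) [Ring R] where
  two : ∀ r : R, r + r = 0
  nontriv : (1 : R) ≠ 0
  p2 : ∀ y : R, y ≠ 0 → ∃ α β : R, α * y * β = 1
  s1 : R
  s2 : R
  t1 : R
  t2 : R
  h11 : t1 * s1 = 1
  h22 : t2 * s2 = 1
  h12 : t1 * s2 = 0
  h21 : t2 * s1 = 0
  hsum : s1 * t1 + s2 * t2 = 1
  φ : R →+* R
  hφ : ∀ r, φ r = s1 * r * t1 + s2 * φ r * t2
  center : ∀ z : R, (∀ r, z * r = r * z) → z = 0 ∨ z = 1

section St
variable (ι : Type) (R : Type) [Ring R]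

/-- Generators of the Steinberg group. -/
abbrev StGen : Type := {p : ι × ι // p.1 ≠ p.2} × R

/-- The free generator `x i j r`. -/
def fx {ι R : Type} {i j : ι} (h : i ≠ j) (r : R) : FreeGroup (StGen ι R) :=
  FreeGroup.of (⟨(i, j), h⟩, r)

/-- Steinberg relators. -/
def StRel : Set (FreeGroup (StGen ι R)) :=
  {w | (∃ (i j : ι) (h : i ≠ j) (r s : R), w = fx h r * fx h s * (fx h (r + s))⁻¹) ∨
    (∃ (i j k : ι) (hij : i ≠ j) (hjk : j ≠ k) (hik : i ≠ k) (r s : R),
      w = ⁅fx hij r, fx hjk s⁆ * (fx hik (r * s))⁻¹) ∨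
    (∃ (i j k l : ι) (hij : i ≠ j) (hkl : k ≠ l) (_ : j ≠ k) (_ : i ≠ l) (r s : R),
      w = ⁅fx hij r, fx hkl s⁆)}

/-- The Steinberg group. -/
abbrev St : Type := PresentedGroup (StRel ι R)

variable {ι R}

/-- The Steinberg generator. -/
def sx {i j : ι} (h : i ≠ j) (r : R) : St ι R := PresentedGroup.of (⟨(i, j), h⟩, r)

theorem sx_eq {i j : ι} (h : i ≠ j) (r : R) :
    sx h r = PresentedGroup.mk (StRel ι R) (fx h r) := rfl

theorem sx_add {i j : ι} (h : i ≠ j) (r s : R) : sx h r * sx h s = sx h (r + s) := by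
  simp only [sx_eq]; rw [← map_mul]
  exact PresentedGroup.mk_eq_mk_of_mul_inv_mem (Or.inl ⟨i, j, h, r, s, rfl⟩)

theorem sx_comm_mul {i j k : ι} (hij : i ≠ j) (hjk : j ≠ k) (hik : i ≠ k) (r s : R) :
    ⁅sx hij r, sx hjk s⁆ = sx hik (r * s) := by
  simp only [sx_eq]; rw [← map_commutatorElement]
  exact PresentedGroup.mk_eq_mk_of_mul_inv_mem
    (Or.inr (Or.inl ⟨i, j, k, hij, hjk, hik, r, s, rfl⟩))

theorem sx_commute {i j k l : ι} (hij : i ≠ j) (hkl : k ≠ l) (hjk : j ≠ k) (hil : i ≠ l)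
    (r s : R) : Commute (sx hij r) (sx hkl s) := by
  rw [← commutatorElement_eq_one_iff_commute]
  simp only [sx_eq]; rw [← map_commutatorElement]
  exact PresentedGroup.one_of_mem (Or.inr (Or.inr ⟨i, j, k, l, hij, hkl, hjk, hil, r, s, rfl⟩))

theorem sx_zero {i j : ι} (h : i ≠ j) : sx h (0 : R) = 1 := by
  have := sx_add h (0 : R) 0
  rw [add_zero] at this
  exact mul_eq_left.mp this

theorem sx_inv {i j : ι} (h : i ≠ j) (r : R) : (sx h r)⁻¹ = sx h (-r) := by
  rw [inv_eq_iff_mul_eq_one, sx_add, add_neg_cancel, sx_zero]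

/-- Universal property of the Steinberg group. -/
def St.lift {Γ : Type*} [Group Γ] (f : ∀ i j : ι, i ≠ j → R → Γ)
    (h1 : ∀ i j h r s, f i j h r * f i j h s = f i j h (r + s))
    (h2 : ∀ i j k hij hjk hik r s, ⁅f i j hij r, f j k hjk s⁆ = f i k hik (r * s))
    (h3 : ∀ i j k l hij hkl, j ≠ k → i ≠ l → ∀ r s, Commute (f i j hij r) (f k l hkl s)) :
    St ι R →* Γ :=
  PresentedGroup.toGroup (f := fun g : StGen ι R => f g.1.1.1 g.1.1.2 g.1.2 g.2) (by
    rintro w (⟨i, j, h, r, s, rfl⟩ | ⟨i, j, k, hij, hjk, hik, r, s, rfl⟩ |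
      ⟨i, j, k, l, hij, hkl, hjk, hil, r, s, rfl⟩)
    · simp [fx, h1]
    · simp only [fx, map_mul, map_inv, map_commutatorElement, FreeGroup.lift_apply_of]
      rw [h2 i j k hij hjk hik, mul_inv_cancel]
    · simp only [fx, map_commutatorElement, FreeGroup.lift_apply_of]
      exact commutatorElement_eq_one_iff_commute.mpr (h3 i j k l hij hkl hjk hil r s))

theorem St.lift_sx {Γ : Type*} [Group Γ] (f : ∀ i j : ι, i ≠ j → R → Γ) (h1 h2 h3)
    {i j : ι} (h : i ≠ j) (r : R) : St.lift f h1 h2 h3 (sx h r) = f i j h r :=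
  PresentedGroup.toGroup.of _

theorem St.hom_ext {Γ : Type*} [Group Γ] {f g : St ι R →* Γ}
    (h : ∀ (i j : ι) (hij : i ≠ j) (r : R), f (sx hij r) = g (sx hij r)) : f = g :=
  PresentedGroup.ext fun x => h x.1.1.1 x.1.1.2 x.1.2 x.2

theorem St.mem_of (S : Subgroup (St ι R))
    (h : ∀ (i j : ι) (hij : i ≠ j) (r : R), sx hij r ∈ S) (g : St ι R) : g ∈ S :=
  PresentedGroup.generated_by _ S (fun x => h x.1.1.1 x.1.1.2 x.1.2 x.2) g

variable [Fintype ι] [DecidableEq ι]

/-- Elementary matrix as a unit. -/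
def el {i j : ι} (h : i ≠ j) (r : R) : (Matrix ι ι R)ˣ where
  val := 1 + Matrix.single i j r
  inv := 1 + Matrix.single i j (-r)
  val_inv := by
    simp [add_mul, mul_add, h.symm, add_assoc, ← Matrix.single_add]
  inv_val := by
    simp [add_mul, mul_add, h.symm, add_assoc, ← Matrix.single_add]

theorem el_val {i j : ι} (h : i ≠ j) (r : R) :
    ((el h r : (Matrix ι ι R)ˣ) : Matrix ι ι R) = 1 + Matrix.single i j r := rfl

theorem el_inv_val {i j : ι} (h : i ≠ j) (r : R) :
    (((el h r)⁻¹ : (Matrix ι ι R)ˣ) : Matrix ι ι R) = 1 + Matrix.single i j (-r) := rfl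

theorem el_add {i j : ι} (h : i ≠ j) (r s : R) : el h r * el h s = el h (r + s) := by
  ext1; simp [el_val, add_mul, mul_add, h.symm, add_assoc, Matrix.single_add]

theorem el_comm_mul {i j k : ι} (hij : i ≠ j) (hjk : j ≠ k) (hik : i ≠ k) (r s : R) :
    ⁅el hij r, el hjk s⁆ = el hik (r * s) := by
  have : el hij r * el hjk s = el hik (r * s) * el hjk s * el hij r := by
    ext1
    simp [el_val, add_mul, mul_add, hij.symm, hjk.symm, hik.symm]
    abel
  rw [commutatorElement_def, this]; group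

theorem el_commute {i j k l : ι} (hij : i ≠ j) (hkl : k ≠ l) (hjk : j ≠ k) (hil : i ≠ l)
    (r s : R) : Commute (el hij r) (el hkl s) := by
  ext1
  simp [el_val, add_mul, mul_add, hjk, hil.symm]
  abel

/-- The canonical map from the Steinberg group to the general linear group. -/
def piSt : St ι R →* (Matrix ι ι R)ˣ :=
  St.lift (fun _ _ h r => el h r) (fun _ _ h r s => el_add h r s)
    (fun _ _ _ hij hjk hik r s => el_comm_mul hij hjk hik r s)
    (fun _ _ _ _ hij hkl hjk hil r s => el_commute hij hkl hjk hil r s)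

theorem piSt_sx {i j : ι} (h : i ≠ j) (r : R) : piSt (sx h r) = el h r :=
  St.lift_sx _ _ _ _ h r

end St

/-- Houghton type data: a finitely presented permutation group with a shift. -/
structure Hough where
  I : Type
  dec : DecidableEq I
  e : Option I ≃ I
  H : Subgroup (Equiv.Perm I)
  fp : Group.IsFinitelyPresented H
  h1 : ∀ g ∈ H, e.permCongr (Equiv.optionCongr g) ∈ H
  h2 : ∀ g ∈ H, g (e none) = e none → ∃ h ∈ H, g = e.permCongr (Equiv.optionCongr h)
  h3 : ∀ p : I, ∃ g ∈ H, g (e none) = p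
  h4 : Equiv.swap (e none) (e (some (e none))) ∈ H

/-- The self-referential machine algebra. -/
structure Core (G : Type*) [Group G] {k : ℕ} (s : Fin k → G) where
  X : Type
  fin : Finite X
  Rel : Set (FA X)
  relfin : Rel.Finite
  io : FA X →+* FA X
  a : FA X
  D : TwoSidedIdeal (FA X)
  d0 : (1 : FA X) ∉ D
  d1 : ∀ r ∈ Rel, r ∈ D
  d2 : ∀ b ∈ D, io b ∈ TwoSidedIdeal.span Rel
  d3 : ∀ b, b ∉ D → ∃ α β, α * io b * β - 1 ∈ D
  d4 : ∀ q, a * io q - io q * a ∈ D → q ∈ D ∨ q - 1 ∈ D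
  gl : Fin k × Bool → X
  d5 : ∀ w : List (Fin k × Bool),
    wd (w.map gl) - 1 ∈ D ↔ FreeGroup.lift s (FreeGroup.mk w) = 1

end Vale.Agent.P193
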