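import Vale.Agent.P193.Rew

/-! Completeness: every word is equivalent to the lift of its normal form. -/

namespace Vale.Agent.P193

open Classical

namespace Ctx
variable {k : ℕ} {Z : Ctx k}

/-- Word of the frozen items. -/
noncomputable def iw : List (Hd × Tape Z.S.M × Z.R.B) → List Z.S.X
  | [] => []
  | i :: r => Lt.hd i.1 :: (Z.S.tw i.2.1 ++ Z.S.barw (Z.R.mon i.2.2) ++ iw r)

/-- Word of a state. -/
noncomputable def lw (x : Z.Stt) : List Z.S.X := Z.S.tw x.t ++ Z.S.barw (Z.R.mon x.b) ++ iw x.it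

theorem iw_len (it : List (Hd × Tape Z.S.M × Z.R.B)) : (iw it).length ≤ wit it := by
  induction it with
  | nil => simp [iw]
  | cons i r ih =>
    have := U0_le i.2.1 i.2.2
    simp only [iw, wit, List.length_cons, List.length_append, Setup.tw_len, Setup.barw_len]
    split_ifs <;> simp only [U0] at * <;> omega

theorem lw_len (x : Z.Stt) : (lw x).length ≤ Th x := by
  have h1 := iw_len x.it
  have := U0_le x.t x.b
  simp only [lw, Th, List.length_append, Setup.tw_len, Setup.barw_len, U0] at *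
  omega

theorem tw_nil : Z.S.tw (Tape.nil _) = [] := by simp [Setup.tw, Tape.nil, mword_nil]

/-- The linear lift. -/
noncomputable def Lf : Z.V →ₗ[ZMod 2] FA Z.S.X :=
  Finsupp.linearCombination (ZMod 2) fun x => wd (lw x)

theorem Lf_sg (x : Z.Stt) : Lf (sg x) = wd (lw x) := by simp [Lf, sg]

theorem Lf_fz (h : Hd) (x : Z.Stt) : Lf (fz h x) = wd (Lt.hd h :: lw x) := by
  rw [fz, Lf_sg]
  simp [lw, iw, tw_nil, Z.R.mon_one, Setup.barw]

variable {G : Type*} [Group G] (s : Fin k → G)

theorem hF0 : ∀ r, Z.S.R0 r → Z.FamL s r := fun _ h => Or.inl h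

theorem cm_setc (x : Z.Stt) (c' c : List (Option Z.S.M.Rl)) :
    Cm (Z.FamL s) (lw (setc x (c' ++ c))) (c'.map Lt.c ++ lw (setc x c)) := by
  have := ((Setup.cm_c (hF0 s) x.t.m c' c x.t.h).right
    (Z.S.barw (Z.R.mon x.b) ++ iw x.it)).symm
  simpa only [lw, setc, List.append_assoc] using this

theorem ev_lin {n N : ℕ} {v : Z.V} (hv : Bd Th n v) (A : FA Z.S.X) (Φ : Z.V →ₗ[ZMod 2] Z.V)
    (h : ∀ x, Th x ≤ n → Ev (Z.FamL s) N (A * wd (lw x)) (Lf (Φ (sg x)))) :
    Ev (Z.FamL s) N (A * Lf v) (Lf (Φ v)) := by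
  rw [eq_sum v]
  simp only [map_sum, map_smul, Finset.mul_sum, mul_smul_comm, Lf_sg]
  exact Ev.sum _ fun x hx => (h x (hv x hx)).smul _

theorem toW_toList (f : Z.R.B →₀ ZMod 2) (φ : Z.R.B → List Z.S.X) :
    toW (f.support.toList.map φ) = ∑ β ∈ f.support, wd (φ β) := by
  rw [toW, List.map_map, Finset.sum_map_toList]; rfl

theorem inc_eq (f : Z.R.B →₀ ZMod 2) : Z.R.inc f = ∑ β ∈ f.support, wd (Z.R.mon β) := by
  rw [Red.inc, Finsupp.linearCombination_apply, Finsupp.sum]
  exact Finset.sum_congr rfl fun β hβ => by rw [coeff_one hβ, one_smul]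

theorem deg_append {X : Type} (p q : Pl X) : deg (p ++ q) = max (deg p) (deg q) := by
  induction p with
  | nil => simp [deg]
  | cons a p ih => rw [List.cons_append, deg_cons, ih, deg_cons, max_assoc]

theorem deg_iop_le (p : Pl Z.S.X) : deg (Z.S.iop p) ≤ (Z.S.l + 3) * deg p := by
  refine deg_le fun m hm => ?_
  obtain ⟨m', hm', rfl⟩ := List.mem_map.1 hm
  rw [Setup.barw_len]
  exact Nat.mul_le_mul_left _ (len_le_deg hm')

theorem ev_red (p : Pl Z.S.X) : Ev (Z.FamL s) ((Z.S.l + 3) * deg p) (toW (Z.S.iop p))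
    (∑ β ∈ (Z.R.red (toW p)).support, wd (Z.S.barw (Z.R.mon β))) := by
  let q := p ++ (Z.R.red (toW p)).support.toList.map Z.R.mon
  have hq : toW q ∈ Z.L := by
    have := Z.R.sub_inc_mem (toW p)
    rw [sub_eq_add_neg, neg_eq_of_add_eq_zero_left (FA.two _)] at this
    rwa [toW_append, toW_toList, ← inc_eq]
  have hd : deg q ≤ deg p := by
    rw [deg_append]
    refine max_le le_rfl (deg_le fun m hm => ?_)
    obtain ⟨β, hβ, rfl⟩ := List.mem_map.1 hm
    exact Z.R.red_len' (toW_mem_Wle le_rfl) β (Finset.mem_toList.1 hβ)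
  have h1 : Z.FamL s (Z.S.iop q) := Or.inr (Or.inr (Or.inl ⟨q, hq, rfl⟩))
  have h2 := Sp_mono ((deg_iop_le q).trans (Nat.mul_le_mul_left _ hd)) (Sp_base h1)
  have e : toW (Z.S.iop q) = toW (Z.S.iop p) +
      ∑ β ∈ (Z.R.red (toW p)).support, wd (Z.S.barw (Z.R.mon β)) := by
    rw [← toW_toList _ fun β => Z.S.barw (Z.R.mon β), ← toW_append]
    simp [q, Setup.iop, Function.comp_def]
  rw [e] at h2
  exact h2

theorem Lf_slot (x : Z.Stt) (f : Z.R.B →₀ ZMod 2) : Lf (slot x f) =
    wd (Z.S.tw x.t) * (∑ β ∈ f.support, wd (Z.S.barw (Z.R.mon β))) * wd (iw x.it) := by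
  rw [slot_eq, map_sum, Finset.mul_sum, Finset.sum_mul]
  refine Finset.sum_congr rfl fun β hβ => ?_
  rw [coeff_one hβ, one_smul, Lf_sg, lw, wd_append, wd_append]

theorem ev_Bop {n : ℕ} {v : Z.V} (hv : Bd Th n v) (y : Z.S.X) :
    Ev (Z.FamL s) (n + (Z.S.l + 3)) (wd (Z.S.bar y) * Lf v) (Lf (Bop (wd [y]) v)) := by
  refine ev_lin s hv _ _ fun x hx => ?_
  have hl := lw_len x
  have h1 := (Setup.cm_bar (hF0 s) y x.t).right (Z.S.barw (Z.R.mon x.b) ++ iw x.it)
  have h2 := ((ev_red s [y :: Z.R.mon x.b]).left (Z.S.tw x.t)).right (iw x.it)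
  rw [Bop_sg, Lf_slot, ← wd_cons, ← wd_append]
  simp only [lw, List.length_append, Setup.barw_len] at hl
  refine Ev.trans ?_ ((toW_single (y :: Z.R.mon x.b)) ▸ h2.mono ?_)
  · simp only [Setup.iop, List.map_cons, List.map_nil, toW_single, ← wd_append]
    have := h1.ev (N := n + (Z.S.l + 3))
      (by simp only [List.length_append, Setup.bar_len, Setup.barw_len]; omega)
    simpa only [lw, List.append_assoc, Setup.barw, List.flatMap_cons] using this
  · simp only [deg, List.map_cons, List.map_nil, List.foldr, List.length_cons, Nat.max_zero]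
    nlinarith

theorem ev_Cl (x : Z.Stt) (c : List (Option Z.S.M.Rl)) :
    Ev (Z.FamL s) (Th (setc x c) + 1) (wd (Lt.hd .Cl :: lw (setc x c))) (Lf (vCl x c)) := by
  induction c with
  | nil => exact Ev.of_eq (Lf_fz _ _).symm
  | cons o c ih =>
    have h0 := Th_setc x [o] c
    have h1 := ((cm_setc s x [o] c).cons (Lt.hd .Cl)).ev (N := Th (setc x (o :: c)) + 1)
      (by simpa using lw_len _)
    have hl := lw_len (setc x c)
    simp only [List.singleton_append, List.length_singleton] at h0 h1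
    refine h1.trans ?_
    cases o with
    | none =>
      rw [vCl, Lf_sg]
      exact Ev.rule2 (hF0 s _ .Clend) (lw (setc x c)) (by simp; omega) (by simp; omega)
    | some ρ =>
      exact (Ev.rule2 (hF0 s _ (.Clid ρ)) (lw (setc x c)) (by simp; omega)
        (by simp; omega)).trans (ih.mono (by omega))

theorem ev_T (x : Z.Stt) (c : List (Option Z.S.M.Rl)) :
    Ev (Z.FamL s) (Th (setc x c) + 1) (wd (Lt.hd .T :: lw (setc x c))) (Lf (vT x c)) := by
  induction c using Z.S.clock_ind with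
  | h1 o c ih =>
    have h0 := Th_setc x (Z.S.cl (Z.S.bl o)) c
    rw [Setup.cl_len, Z.S.bl_len] at h0
    have h1 := ((cm_setc s x (Z.S.cl (Z.S.bl o)) c).cons (Lt.hd .T)).ev
      (N := Th (setc x (Z.S.cl (Z.S.bl o) ++ c)) + 1) (by simpa using lw_len _)
    have hl := lw_len (setc x c)
    have h3 := Z.S.three_le
    refine h1.trans ?_
    rw [vT_blk]
    cases o with
    | none =>
      exact (Ev.rule2 (hF0 s _ .Topn) (lw (setc x c)) (by simp [Setup.blk_len]; omega)
        (by simp; omega)).trans ((ev_Cl s x c).mono (by omega))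
    | some y =>
      refine (Ev.rule2 (hF0 s _ (.Tblk y)) (lw (setc x c)) (by simp [Setup.blk_len]; omega)
        (by simp [Setup.bar_len]; omega)).trans ?_
      rw [List.append_assoc, wd_append]
      exact ((ih.left _).mono (by rw [Setup.bar_len]; omega)).trans
        ((ev_Bop s (Bd_vT x c) y).mono (by omega))
  | h2 c =>
    have h0 := Th_setc x [some Z.S.M.go] c
    have h1 := ((cm_setc s x [some Z.S.M.go] c).cons (Lt.hd .T)).ev
      (N := Th (setc x (some Z.S.M.go :: c)) + 1) (by simpa using lw_len _)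
    have hl := lw_len (setc x c)
    simp only [List.singleton_append, List.length_singleton] at h0 h1
    rw [vT_go]
    exact h1.trans ((Ev.rule2 (hF0 s _ .Tgo) (lw (setc x c)) (by simp; omega)
        (by simp; omega)).trans ((ev_Cl s x c).mono (by omega)))
  | h3 c h1 h2 => rw [vT_else x h1 h2]; exact Ev.of_eq (Lf_fz _ _).symm

theorem ev_K (x : Z.Stt) (c : List (Option Z.S.M.Rl)) :
    Ev (Z.FamL s) (Th (setc x c) + 1) (wd (Lt.hd .K :: lw (setc x c))) (Lf (vK x c)) := by
  induction c using Z.S.clock_ind with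
  | h1 o c ih =>
    have h0 := Th_setc x (Z.S.cl (Z.S.bl o)) c
    rw [Setup.cl_len, Z.S.bl_len] at h0
    have h1 := ((cm_setc s x (Z.S.cl (Z.S.bl o)) c).cons (Lt.hd .K)).ev
      (N := Th (setc x (Z.S.cl (Z.S.bl o) ++ c)) + 1) (by simpa using lw_len _)
    have hl := lw_len (setc x c)
    have h3 := Z.S.three_le
    refine h1.trans ?_
    rw [vK_blk]
    cases o with
    | none =>
      refine (Ev.rule (hF0 s _ .Kopn) (lw (setc x c))
        (by simp [deg, Setup.blk_len]; omega)).trans ?_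
      rw [toW_cons, toW_single, add_mul, ← wd_append, ← wd_append, map_add]
      exact ((ev_T s x c).mono (by omega)).add (ih.mono (by omega))
    | some y =>
      rw [Option.elim, zero_add]
      exact (Ev.rule2 (hF0 s _ (.Kblk y)) (lw (setc x c)) (by simp [Setup.blk_len]; omega)
        (by simp; omega)).trans (ih.mono (by omega))
  | h2 c =>
    have h0 := Th_setc x [some Z.S.M.go] c
    have h1 := ((cm_setc s x [some Z.S.M.go] c).cons (Lt.hd .K)).ev
      (N := Th (setc x (some Z.S.M.go :: c)) + 1) (by simpa using lw_len _)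
    have hl := lw_len (setc x c)
    simp only [List.singleton_append, List.length_singleton] at h0 h1
    rw [vK_go, map_zero]
    have h2 := Ev.rule (hF0 s _ .Kgo) (lw (setc x c)) (N := Th (setc x (some Z.S.M.go :: c)) + 1)
      (by simp [deg]; omega)
    rw [toW_nil, zero_mul] at h2
    exact h1.trans h2
  | h3 c h1 h2 => rw [vK_else x h1 h2]; exact Ev.of_eq (Lf_fz _ _).symm

theorem ev_R (x : Z.Stt) (r : Tape Z.S.M) :
    Ev (Z.FamL s) ((Z.S.d + 2) * (Th (Z := Z) ⟨r, x.b, x.it⟩ + 1))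
      (wd (Lt.hd .Y :: lw ⟨r, x.b, x.it⟩)) (Lf (vR x r)) := by
  have hl := lw_len (Z := Z) ⟨r, x.b, x.it⟩
  have hi := iw_len x.it
  obtain ⟨m, c, h⟩ := r
  unfold vR
  split_ifs with h1 h2
  · obtain ⟨h3, h4⟩ := h1.choose_spec
    generalize h1.choose = q at h3 h4
    simp only at h3 h4
    subst h3 h4
    have e1 := ((((Setup.cm_m (hF0 s) (Z.S.M.start Z.e) q.1 c q.2).cons (Lt.h none)).cons
      (Lt.hd .Y)).right (Z.S.barw (Z.R.mon x.b) ++ iw x.it)).symm
    have e2 := Ev.rule2 (F := Z.FamL s) (Or.inr (Or.inl rfl))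
      (lw (setc ⟨⟨q.1, [], q.2⟩, x.b, x.it⟩ c))
      (N := Th (Z := Z) ⟨⟨app (Z.S.M.start Z.e) q.1, c, none :: q.2⟩, x.b, x.it⟩ + 1)
      (by simp [lw, setc, Setup.tw_len, mword_app_len] at hl ⊢; omega)
      (by simp [lw, setc, Setup.tw_len, mword_app_len] at hl ⊢; omega)
    have e3 := ev_K s ⟨⟨q.1, [], q.2⟩, x.b, x.it⟩ c
    refine Ev.mono (N := Th (Z := Z) ⟨⟨app (Z.S.M.start Z.e) q.1, c, none :: q.2⟩, x.b, x.it⟩ + 1)
      ?_ (by nlinarith)
    refine Ev.trans ?_ (e2.trans (e3.mono ?_))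
    · have := e1.ev (N := Th (Z := Z) ⟨⟨app (Z.S.M.start Z.e) q.1, c, none :: q.2⟩, x.b, x.it⟩ + 1)
        (by simp [lw, Setup.tw_len] at hl ⊢; omega)
      simpa [lw, setc, Setup.tw] using this
    · simp only [Th, setc, U, mword_app_len, List.length_cons]; nlinarith
  · obtain ⟨ρs, c', rest, h3, h4⟩ := h2
    simp only at h3 h4
    subst h3
    have hr := (Z.S.run_len h4).2
    rw [mword_app_len] at hr
    have e1 := (Setup.ev_run (hF0 s) h4 c' h le_rfl).right (Z.S.barw (Z.R.mon x.b) ++ iw x.it)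
    have e2 := (((Setup.cm_m (hF0 s) Z.S.M.acc rest c' (ρs.reverse.map some ++ h)).cons
      (Lt.hd .Y)).right (Z.S.barw (Z.R.mon x.b) ++ iw x.it)).symm
    have e3 := Ev.rule (hF0 s _ .term) (Z.S.tw ⟨rest, c', ρs.reverse.map some ++ h⟩ ++
      (Z.S.barw (Z.R.mon x.b) ++ iw x.it)) le_rfl
    rw [toW_nil, zero_mul] at e3
    rw [← wd_append, ← wd_append] at e1
    rw [map_zero]
    refine Ev.trans ?_ (Ev.trans (e2.ev' ?_) ?_)
    · simp only [lw, List.append_assoc, List.cons_append] at e1 ⊢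
      refine e1.mono ?_
      simp only [Th, U, List.length_append, List.length_map, Setup.barw_len]
      nlinarith [Nat.zero_le (Z.S.d * (mword (k := k) m).length),
        Nat.zero_le (Z.S.d * c'.length), Nat.zero_le (Z.S.d * h.length),
        Nat.zero_le (Z.S.d * Z.S.d * h.length), Nat.zero_le (Z.S.d * wit x.it),
        Nat.zero_le (Z.S.d * ((Z.S.l + 3) * (Z.R.mon x.b).length))]
    · simp only [Th, U, List.length_append, List.length_map, Setup.barw_len, List.length_cons,
        Setup.tw_len, List.length_reverse]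
      nlinarith [Nat.zero_le (Z.S.d * (mword (k := k) m).length),
        Nat.zero_le (Z.S.d * c'.length), Nat.zero_le (Z.S.d * h.length),
        Nat.zero_le (Z.S.d * Z.S.d * h.length), Nat.zero_le (Z.S.d * wit x.it),
        Nat.zero_le (Z.S.d * ((Z.S.l + 3) * (Z.R.mon x.b).length))]
    · simp only [List.append_assoc, List.cons_append] at e3 ⊢
      refine e3.mono ?_
      simp only [Th, U, List.length_append, List.length_map, Setup.barw_len, List.length_cons,
        Setup.tw_len, List.length_reverse, deg, List.map, List.foldr, Nat.max_zero]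
      nlinarith [Nat.zero_le (Z.S.d * (mword (k := k) m).length),
        Nat.zero_le (Z.S.d * c'.length), Nat.zero_le (Z.S.d * h.length),
        Nat.zero_le (Z.S.d * Z.S.d * h.length), Nat.zero_le (Z.S.d * wit x.it),
        Nat.zero_le (Z.S.d * ((Z.S.l + 3) * (Z.R.mon x.b).length))]
  · exact Ev.of_eq (Lf_fz .Y ⟨⟨m, c, h⟩, x.b, x.it⟩).symm

theorem ev_Y (x : Z.Stt) : Ev (Z.FamL s) ((Z.S.d + 2) * (Th x + 1))
    (wd (Lt.hd .Y :: lw x)) (Lf (vR x (root x.t.h x.t.m x.t.c))) := by
  have hU := U_root x.t x.b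
  have hi := iw_len x.it
  obtain ⟨ρs, h1, h2, h3⟩ := root_spec x.t.h x.t.m x.t.c
  have e2 := ev_R s x (root x.t.h x.t.m x.t.c)
  generalize root x.t.h x.t.m x.t.c = r at *
  obtain ⟨m, c, h⟩ := r
  simp only at h1 h2 h3
  have e1 := ((Setup.ev_run (hF0 s) h3 x.t.c h le_rfl).right
    (Z.S.barw (Z.R.mon x.b) ++ iw x.it)).symm
  rw [← wd_append, ← wd_append, ← h1, ← h2] at e1
  refine Ev.trans ?_ (e2.mono (Nat.mul_le_mul_left _ (by simp only [Th]; omega)))
  simp only [lw, List.append_assoc, List.cons_append] at e1 ⊢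
  refine e1.mono ?_
  have h5 := congrArg List.length h2
  simp only [List.length_append, List.length_map] at h5
  simp only [Th, List.length_append, Setup.barw_len]
  generalize U x.t x.b = u at *
  simp only [U] at hU
  nlinarith [Nat.zero_le (Z.S.d * (mword (k := k) m).length),
    Nat.zero_le (Z.S.d * x.t.c.length), Nat.zero_le (Z.S.d * h.length),
    Nat.zero_le (Z.S.d * Z.S.d * h.length), Nat.zero_le (Z.S.d * wit x.it),
    Nat.zero_le (Z.S.d * ((Z.S.l + 3) * (Z.R.mon x.b).length)),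
    Nat.mul_le_mul_left (Z.S.d + 2) hU]

theorem toW_arel (p : Pl Z.S.X) : toW (Z.S.arel p) =
    1 + wd (Lt.hd .A :: Z.S.cw (Z.S.enc p)) * toW (Z.S.iop p) * wd [Lt.hd .a] := by
  rw [Setup.arel, toW_cons, wd_nil]
  congr 1
  generalize Lt.hd .A :: Z.S.cw (Z.S.enc p) = P
  induction p with
  | nil => simp [Setup.iop, toW_nil]
  | cons m p ih =>
    rw [List.map_cons, toW_cons, ih, Setup.iop, Setup.iop, List.map_cons, toW_cons, mul_add,
      add_mul, wd_append, wd_append]

theorem deg_arel (p : Pl Z.S.X) :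
    deg (Z.S.arel p) ≤ 2 + (Z.S.enc p).length + (Z.S.l + 3) * deg p := by
  refine deg_le fun m hm => ?_
  rcases List.mem_cons.1 hm with rfl | hm
  · simp
  · obtain ⟨m', hm', rfl⟩ := List.mem_map.1 hm
    have := Nat.mul_le_mul_left (Z.S.l + 3) (len_le_deg hm')
    simp [Setup.cw, Setup.cl_len, Setup.barw_len]
    omega

theorem ev_A (x : Z.Stt) : Ev (Z.FamL s) (Th x + 1) (wd (Lt.hd .A :: lw x)) (Lf (vA x)) := by
  unfold vA
  split
  · rename_i t' β' it' hit
    split_ifs with h
    · obtain ⟨h1, h2, h3⟩ := h.choose_spec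
      generalize h.choose = p at h1 h2 h3
      have hpiv := piv_mem h2
      rw [← h3] at hpiv
      have htw : Z.S.tw x.t = Z.S.cw (Z.S.enc p) := by
        simp [h1, Setup.tw, mword_nil, Setup.cw]
      have hiw : iw x.it = Lt.hd .a :: lw ⟨t', β', it'⟩ := by rw [hit]; rfl
      have hw : ∀ β, wd (Lt.hd .A :: lw ⟨x.t, β, x.it⟩) = wd (Lt.hd .A :: Z.S.cw (Z.S.enc p)) *
          wd (Z.S.barw (Z.R.mon β)) * wd [Lt.hd .a] * wd (lw ⟨t', β', it'⟩) := by
        intro β
        simp only [← wd_append, lw, htw, hiw, List.append_assoc, List.cons_append, List.nil_append]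
      have hl := lw_len (Z := Z) ⟨t', β', it'⟩
      have he := Z.S.enc_len p
      have h3' := Z.S.three_le
      have hN : 2 + (Z.S.enc p).length + (Z.S.l + 3) * deg p + (lw (Z := Z) ⟨t', β', it'⟩).length ≤
          Th x + 1 := by
        simp only [Th, hit, wit, if_true] at hl ⊢
        have : 3 * (Z.S.enc p).length ≤ U x.t x.b := by
          simp only [U, h1, Setup.cl_len]; omega
        nlinarith
      have e1 := (((ev_red s p).left (Lt.hd .A :: Z.S.cw (Z.S.enc p))).right [Lt.hd .a]).right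
        (lw ⟨t', β', it'⟩)
      have e2 : Ev (Z.FamL s) (deg (Z.S.arel p)) 1
          (wd (Lt.hd .A :: Z.S.cw (Z.S.enc p)) * toW (Z.S.iop p) * wd [Lt.hd .a]) := by
        unfold Ev
        rw [← toW_arel]
        exact Sp_base (Or.inr (Or.inr (Or.inr (Or.inl ⟨p, h2, rfl⟩))))
      have e3 := ((e2.right (lw ⟨t', β', it'⟩)).mono
        (N' := Th x + 1) (by have := deg_arel p; omega)).trans
        (e1.mono (by simp [Setup.cw, Setup.cl_len]; omega))
      rw [one_mul, ← Finset.add_sum_erase _ _ hpiv, mul_add, add_mul, add_mul, ← hw,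
        Finset.mul_sum, Finset.sum_mul, Finset.sum_mul] at e3
      simp only [← hw] at e3
      rw [map_add, Lf_sg, map_sum]
      simp only [Lf_fz]
      unfold Ev at e3 ⊢
      rw [add_left_comm]
      exact e3
    · exact Ev.of_eq (Lf_fz _ _).symm
  · exact Ev.of_eq (Lf_fz _ _).symm

theorem mword_single (j : Z.S.M.κ) (γ : Z.S.M.Γ) :
    mword (k := k) (fun i => if i = j then [γ] else []) = [Lt.m j γ] := by
  have : ∀ js : List Z.S.M.κ, js.Nodup → (js.flatMap fun i =>
      (if i = j then [γ] else []).map (Lt.m (k := k) i)) = if j ∈ js then [Lt.m j γ] else [] := by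
    intro js hn
    induction js with
    | nil => simp
    | cons i js ih =>
      rw [List.nodup_cons] at hn
      rw [List.flatMap_cons, ih hn.2]
      by_cases h : i = j
      · subst h; simp [hn.1]
      · simp [h, Ne.symm h]
  rw [mword, this _ (Finset.nodup_toList _), if_pos (by simp)]

theorem ev_act1 (y : Z.S.X) (hy : ∀ i, y ≠ Lt.g i) (x : Z.Stt) :
    Ev (Z.FamL s) ((Z.S.d + 2) * (Th x + 1)) (wd (y :: lw x)) (Lf (Z.act1 y x)) := by
  have hl := lw_len x
  have hN : Th x + 1 ≤ (Z.S.d + 2) * (Th x + 1) := by nlinarith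
  rcases y with ⟨j, γ⟩ | o | o | h | i
  · have := (Setup.cm_m (hF0 s) (fun i => if i = j then [γ] else []) x.t.m x.t.c x.t.h).right
      (Z.S.barw (Z.R.mon x.b) ++ iw x.it)
    have e : app (fun i => if i = j then [γ] else []) x.t.m =
        fun i => if i = j then γ :: x.t.m i else x.t.m i := by
      funext i; simp only [app]; split_ifs <;> rfl
    rw [mword_single, e] at this
    simp only [act1, Lf_sg]
    simp only [lw, List.append_assoc, List.cons_append, List.nil_append] at this hl ⊢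
    exact this.ev (by rw [List.length_cons]; exact le_trans (Nat.succ_le_succ hl) hN)
  · have := (cm_setc s x [o] x.t.c).symm
    simp only [act1, Lf_sg]
    exact this.ev (le_trans (Nat.succ_le_succ hl) hN)
  · simp only [act1, Lf_sg]
    exact Ev.refl _ _
  · cases h
    · exact ev_Y s x
    · exact (ev_K s x x.t.c).mono hN
    · exact (ev_T s x x.t.c).mono hN
    · exact (ev_Cl s x x.t.c).mono hN
    · exact (ev_A s x).mono hN
    · exact Ev.of_eq (Lf_fz _ _).symm
  · exact absurd rfl (hy i)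

end Ctx

end Vale.Agent.P193
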