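import Mathlib

/-! Closure properties of computable functions. -/

namespace Vale.Agent.P193

/-- Computable functions. -/
@[fun_prop] def Cp {α β : Type} [Primcodable α] [Primcodable β] (f : α → β) : Prop := Computable f

namespace Cp

variable {α β γ σ : Type} [Primcodable α] [Primcodable β] [Primcodable γ] [Primcodable σ]

theorem congr {f g : α → β} (h : Cp f) (e : ∀ x, f x = g x) : Cp g := (funext e : f = g) ▸ h

theorem prim {f : β → γ} {g : α → β} (h : Primrec f) (hg : Cp g) : Cp fun x => f (g x) :=
  Computable.comp h.to_comp hg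

theorem prim₂ {f : β → γ → σ} {g : α → β} {k : α → γ} (h : Primrec₂ f) (hg : Cp g) (hk : Cp k) :
    Cp fun x => f (g x) (k x) := Computable₂.comp h.to_comp hg hk

theorem fin [Finite α] (f : α → β) : Cp f := (Primrec.dom_finite f).to_comp

@[fun_prop] theorem id' : Cp fun x : α => x := Computable.id
@[fun_prop] theorem const (b : β) : Cp fun _ : α => b := Computable.const b
@[fun_prop] theorem comp {f : β → γ} {g : α → β} (hf : Cp f) (hg : Cp g) :
    Cp fun x => f (g x) := Computable.comp hf hg
@[fun_prop] theorem pair {f : α → β} {g : α → γ} (hf : Cp f) (hg : Cp g) :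
    Cp fun x => (f x, g x) := Computable.pair hf hg
@[fun_prop] theorem fst {f : α → β × γ} (hf : Cp f) : Cp fun x => (f x).1 :=
  Computable.comp Computable.fst hf
@[fun_prop] theorem snd {f : α → β × γ} (hf : Cp f) : Cp fun x => (f x).2 :=
  Computable.comp Computable.snd hf

section
variable {m n : α → ℕ} {a b : α → Bool} {l l' : α → List β} {f g : α → β}

@[fun_prop] theorem add (hm : Cp m) (hn : Cp n) : Cp fun x => m x + n x :=
  prim₂ Primrec.nat_add hm hn
@[fun_prop] theorem mul (hm : Cp m) (hn : Cp n) : Cp fun x => m x * n x :=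
  prim₂ Primrec.nat_mul hm hn
@[fun_prop] theorem mod (hm : Cp m) (hn : Cp n) : Cp fun x => m x % n x :=
  prim₂ Primrec.nat_mod hm hn
@[fun_prop] theorem max (hm : Cp m) (hn : Cp n) : Cp fun x => max (m x) (n x) :=
  prim₂ Primrec.nat_max hm hn
@[fun_prop] theorem ble (hm : Cp m) (hn : Cp n) : Cp fun x => Nat.ble (m x) (n x) :=
  (prim₂ Primrec.nat_le.decide hm hn).congr fun x => by rw [Bool.eq_iff_iff]; simp
@[fun_prop] theorem beq [BEq β] [LawfulBEq β] (hf : Cp f) (hg : Cp g) :
    Cp fun x => f x == g x := by
  classical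
  exact (prim₂ Primrec.eq.decide hf hg).congr fun x => by rw [Bool.eq_iff_iff]; simp
@[fun_prop] theorem not (ha : Cp a) : Cp fun x => !a x := prim Primrec.not ha
@[fun_prop] theorem and (ha : Cp a) (hb : Cp b) : Cp fun x => a x && b x := prim₂ Primrec.and ha hb
@[fun_prop] theorem or (ha : Cp a) (hb : Cp b) : Cp fun x => a x || b x := prim₂ Primrec.or ha hb
@[fun_prop] theorem toNat (ha : Cp a) : Cp fun x => (a x).toNat := prim (Primrec.dom_bool _) ha
@[fun_prop] theorem cond (ha : Cp a) (hf : Cp f) (hg : Cp g) : Cp fun x => cond (a x) (f x) (g x) :=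
  Computable.cond ha hf hg
@[fun_prop] theorem cons (hf : Cp f) (hl : Cp l) : Cp fun x => f x :: l x :=
  prim₂ Primrec.list_cons hf hl
@[fun_prop] theorem append (hl : Cp l) (hl' : Cp l') : Cp fun x => l x ++ l' x :=
  prim₂ Primrec.list_append hl hl'
@[fun_prop] theorem length (hl : Cp l) : Cp fun x => (l x).length := prim Primrec.list_length hl
@[fun_prop] theorem reverse (hl : Cp l) : Cp fun x => (l x).reverse := prim Primrec.list_reverse hl
@[fun_prop] theorem range (hm : Cp m) : Cp fun x => List.range (m x) := prim Primrec.list_range hm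
@[fun_prop] theorem flatten {L : α → List (List β)} (hL : Cp L) : Cp fun x => (L x).flatten :=
  prim Primrec.list_flatten hL

theorem natRec {h : α → ℕ → β → β} (hn : Cp n) (hf : Cp f)
    (hh : Cp fun x : α × ℕ × β => h x.1 x.2.1 x.2.2) :
    Cp fun x => Nat.rec (motive := fun _ => β) (f x) (h x) (n x) :=
  Computable.nat_rec (h := fun x p => h x p.1 p.2) hn hf hh

@[fun_prop] theorem foldl {s : α → σ} {h : α → σ → β → σ} (hl : Cp l) (hs : Cp s)
    (hh : Cp fun x : α × σ × β => h x.1 x.2.1 x.2.2) : Cp fun x => (l x).foldl (h x) (s x) := by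
  have h1 : Cp fun x : α × ℕ × σ =>
      (Option.casesOn (l x.1)[x.2.1]? x.2.2 (fun b => h x.1 x.2.2 b) : σ) :=
    Computable.option_casesOn (g := fun (x : α × ℕ × σ) b => h x.1 x.2.2 b)
      (prim₂ Primrec.list_getElem? (hl.comp id'.fst) id'.snd.fst) id'.snd.snd
      (hh.comp (g := fun y : (α × ℕ × σ) × β => (y.1.1, y.1.2.2, y.2)) (by fun_prop))
  refine (natRec (h := fun x i t => Option.casesOn (l x)[i]? t fun b => h x t b) hl.length hs
    h1).congr fun x => ?_
  have : ∀ n ≤ (l x).length, Nat.rec (motive := fun _ => σ) (s x)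
      (fun i t => Option.casesOn (l x)[i]? t fun b => h x t b) n =
      ((l x).take n).foldl (h x) (s x) := by
    intro n hn
    induction n with
    | zero => rfl
    | succ n ih =>
      rw [List.take_add_one, List.foldl_append, ← ih (by omega)]
      simp only [List.getElem?_eq_getElem (show n < (l x).length by omega)]
      rfl
  rw [this _ le_rfl, List.take_length]

@[fun_prop] theorem foldr {s : α → σ} {h : α → β → σ → σ} (hl : Cp l) (hs : Cp s)
    (hh : Cp fun x : α × β × σ => h x.1 x.2.1 x.2.2) : Cp fun x => (l x).foldr (h x) (s x) :=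
  (foldl (h := fun x t b => h x b t) hl.reverse hs
    (hh.comp (g := fun y : α × σ × β => (y.1, y.2.2, y.2.1)) (by fun_prop))).congr fun x => by
      rw [List.foldl_reverse]

@[fun_prop] theorem map {h : α → β → γ} (hl : Cp l) (hh : Cp fun x : α × β => h x.1 x.2) :
    Cp fun x => (l x).map (h x) :=
  (foldr (h := fun x b t => h x b :: t) hl (const [])
    (cons (hh.comp (g := fun y : α × β × List γ => (y.1, y.2.1)) (by fun_prop))
      (by fun_prop))).congr fun x => by induction l x <;> simp [*]

@[fun_prop] theorem flatMap {h : α → β → List γ} (hl : Cp l) (hh : Cp fun x : α × β => h x.1 x.2) :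
    Cp fun x => (l x).flatMap (h x) := (hl.map hh).flatten

@[fun_prop] theorem filter {h : α → β → Bool} (hl : Cp l) (hh : Cp fun x : α × β => h x.1 x.2) :
    Cp fun x => (l x).filter (h x) :=
  (flatMap (h := fun x b => bif h x b then [b] else []) hl (cond hh (by fun_prop)
    (const _))).congr fun x => by
      induction l x with
      | nil => rfl
      | cons b t ih => rw [List.flatMap_cons, ih, List.filter_cons]; cases h x b <;> rfl

@[fun_prop] theorem any {h : α → β → Bool} (hl : Cp l) (hh : Cp fun x : α × β => h x.1 x.2) :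
    Cp fun x => (l x).any (h x) :=
  (foldr (h := fun x b t => h x b || t) hl (const false)
    (or (hh.comp (g := fun y : α × β × Bool => (y.1, y.2.1)) (by fun_prop))
      (by fun_prop))).congr fun x => by induction l x <;> simp [*]

@[fun_prop] theorem all {h : α → β → Bool} (hl : Cp l) (hh : Cp fun x : α × β => h x.1 x.2) :
    Cp fun x => (l x).all (h x) :=
  (foldr (h := fun x b t => h x b && t) hl (const true)
    (and (hh.comp (g := fun y : α × β × Bool => (y.1, y.2.1)) (by fun_prop))
      (by fun_prop))).congr fun x => by induction l x <;> simp [*]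

@[fun_prop] theorem replicate (hm : Cp m) (hf : Cp f) : Cp fun x => List.replicate (m x) (f x) :=
  (map (h := fun x _ => f x) hm.range (hf.comp id'.fst)).congr fun x => by simp

end

end Cp

/-- All lists of length at most `n` over a list. -/
def allL {α : Type} (L : List α) : ℕ → List (List α)
  | 0 => [[]]
  | n + 1 => [] :: L.flatMap fun a => (allL L n).map (a :: ·)

theorem mem_allL {α : Type} {L : List α} {n : ℕ} {u : List α} :
    u ∈ allL L n ↔ u.length ≤ n ∧ ∀ a ∈ u, a ∈ L := by
  induction n generalizing u with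
  | zero => cases u <;> simp [allL]
  | succ n ih => cases u <;> simp [allL, ih, and_left_comm]

@[fun_prop] theorem Cp.allL {α β : Type} [Primcodable α] [Primcodable β] {l : α → List β}
    {n : α → ℕ} (hl : Cp l) (hn : Cp n) : Cp fun x => allL (l x) (n x) :=
  (Cp.natRec (h := fun x _ T => [] :: (l x).flatMap fun a => T.map (a :: ·)) hn (.const [[]])
    (by fun_prop)).congr fun x => by induction n x <;> simp [Vale.Agent.P193.allL, *]

end Vale.Agent.P193
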