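import Vale.Agent.P193.Machine
import Vale.Agent.P193.Cp

/-! The canonical membership test is computable; existence of the fixed point program. -/

namespace Vale.Agent.P193

open Function

namespace Cm

section Alg

variable {X : Type}

lemma toW_nil : toW ([] : Pl X) = 0 := rfl

lemma toW_cons (m : List X) (p : Pl X) : toW (m :: p) = wd m + toW p := by simp [toW]

lemma toW_append (p q : Pl X) : toW (p ++ q) = toW p + toW q := by simp [toW]

lemma toW_flatten (T : List (Pl X)) : toW T.flatten = (T.map toW).sum := by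
  induction T with
  | nil => rfl
  | cons p T ih => rw [List.flatten_cons, toW_append, ih]; simp

lemma toW_inst (u v : List X) (r : Pl X) : toW (r.map fun m => u ++ m ++ v) = wd u * toW r * wd v := by
  induction r with
  | nil => simp [toW_nil]
  | cons m r ih => rw [List.map_cons, toW_cons, toW_cons, ih, wd_append, wd_append, mul_add, add_mul]

lemma two (b : FA X) : b + b = 0 := by
  rw [← two_smul (ZMod 2) b, show (2 : ZMod 2) = 0 from rfl, zero_smul]

lemma coeff_toW [DecidableEq X] (p : Pl X) (m : List X) :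
    (toW p).coeff (FreeMonoid.ofList m) = ((p.filter (· == m)).length : ℕ) := by
  induction p with
  | nil => simp [toW_nil]
  | cons a p ih =>
    rw [toW_cons, MonoidAlgebra.coeff_add, Finsupp.add_apply, ih, List.filter_cons]
    by_cases h : a = m
    · subst h; simp [wd, add_comm]
    · have : FreeMonoid.ofList m ≠ FreeMonoid.ofList a := fun e => h (FreeMonoid.ofList.injective e).symm
      simp [wd, h, Finsupp.single_eq_of_ne this]

/-- Vanishing test. -/
def isZ [DecidableEq X] (p : Pl X) : Bool := p.all fun m => (p.filter (· == m)).length % 2 == 0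

lemma isZ_iff [DecidableEq X] (p : Pl X) : isZ p = true ↔ toW p = 0 := by
  simp only [isZ, List.all_eq_true, beq_iff_eq]
  constructor
  · intro h
    ext m
    have := coeff_toW p m.toList
    rw [FreeMonoid.ofList_toList] at this
    rw [this, MonoidAlgebra.coeff_zero, Finsupp.zero_apply, ZMod.natCast_eq_zero_iff_even,
      Nat.even_iff]
    by_cases hm : m.toList ∈ p
    · exact h _ hm
    · rw [List.filter_eq_nil_iff.2 fun a ha => by rintro e; exact hm (beq_iff_eq.1 e ▸ ha)]; rfl
  · intro h m _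
    have := coeff_toW p m
    rw [h, MonoidAlgebra.coeff_zero, Finsupp.zero_apply, eq_comm, ZMod.natCast_eq_zero_iff_even,
      Nat.even_iff] at this
    exact this

lemma reduce {α : Type} (q : List α) : ∃ q' : List α, q'.Nodup ∧ q' ⊆ q ∧
    ∀ f : α → FA X, (q'.map f).sum = (q.map f).sum := by
  classical
  induction q with
  | nil => exact ⟨[], .nil, fun _ h => h, fun _ => rfl⟩
  | cons a q ih =>
    obtain ⟨q', h1, h2, h3⟩ := ih
    by_cases ha : a ∈ q'
    · refine ⟨q'.erase a, h1.erase a, fun x hx => List.mem_cons_of_mem _ (h2 (List.mem_of_mem_erase hx)),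
        fun f => ?_⟩
      have := ((List.perm_cons_erase ha).map f).sum_eq
      rw [List.map_cons, List.sum_cons, ← h3, this, List.map_cons, List.sum_cons, ← add_assoc, two,
        zero_add]
    · exact ⟨a :: q', List.nodup_cons.2 ⟨ha, h1⟩, List.cons_subset_cons a h2, fun f => by simp [h3]⟩

lemma reduce' {α : Type} {q L : List α} (h : ∀ a ∈ q, a ∈ L) : ∃ q' ∈ allL L L.length, q' ⊆ q ∧
    ∀ f : α → FA X, (q'.map f).sum = (q.map f).sum := by
  obtain ⟨q', h1, h2, h3⟩ := reduce (X := X) q
  exact ⟨q', mem_allL.2 ⟨(List.subperm_of_subset h1 fun a ha => h a (h2 ha)).length_le,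
    fun a ha => h a (h2 ha)⟩, h2, h3⟩

/-- The span of a list of polynomials. -/
noncomputable def spL (L : List (Pl X)) : Submodule (ZMod 2) (FA X) :=
  Submodule.span (ZMod 2) {b | ∃ r ∈ L, b = toW r}

lemma mem_spL {L : List (Pl X)} {b : FA X} :
    b ∈ spL L ↔ ∃ T : List (Pl X), (∀ r ∈ T, r ∈ L) ∧ (T.map toW).sum = b := by
  constructor
  · intro h
    induction h using Submodule.span_induction with
    | mem x hx =>
      obtain ⟨r, hr, rfl⟩ := hx
      exact ⟨[r], by simpa using hr, by simp⟩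
    | zero => exact ⟨[], by simp, rfl⟩
    | add x y _ _ hx hy =>
      obtain ⟨T, h1, rfl⟩ := hx
      obtain ⟨T', h2, rfl⟩ := hy
      exact ⟨T ++ T', fun r hr => (List.mem_append.1 hr).elim (h1 r) (h2 r), by simp⟩
    | smul c x _ hx =>
      have : c = 0 ∨ c = 1 := by revert c; decide
      rcases this with rfl | rfl
      · exact ⟨[], by simp, by simp⟩
      · rwa [one_smul]
  · rintro ⟨T, h, rfl⟩
    refine list_sum_mem fun x hx => ?_
    obtain ⟨r, hr, rfl⟩ := List.mem_map.1 hx
    exact Submodule.subset_span ⟨r, h r hr, rfl⟩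

/-- Span membership test. -/
def inSp [DecidableEq X] (L : List (Pl X)) (p : Pl X) : Bool :=
  (allL L L.length).any fun T => isZ (T.flatten ++ p)

lemma inSp_iff [DecidableEq X] (L : List (Pl X)) (p : Pl X) : inSp L p = true ↔ toW p ∈ spL L := by
  have key : ∀ a b : FA X, a + b = 0 ↔ a = b := fun a b => by
    rw [← two b, add_left_inj]
  simp only [inSp, List.any_eq_true, isZ_iff, toW_append, toW_flatten, key, mem_spL]
  constructor
  · rintro ⟨T, h1, h2⟩
    exact ⟨T, (mem_allL.1 h1).2, h2⟩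
  · rintro ⟨T, h1, h2⟩
    obtain ⟨T', h3, -, h4⟩ := reduce' (X := X) h1
    exact ⟨T', h3, (h4 toW).trans h2⟩

lemma deg_le {p : Pl X} {n : ℕ} : deg p ≤ n ↔ ∀ m ∈ p, m.length ≤ n := by
  induction p with
  | nil => simp [deg]
  | cons m p ih =>
    have : deg (m :: p) = max m.length (deg p) := rfl
    simp [this, ih]

lemma deg_mono {p q : Pl X} (h : p ⊆ q) : deg p ≤ deg q :=
  deg_le.2 fun m hm => deg_le.1 le_rfl m (h hm)

/-- All bounded instances of a list of relators. -/
def inst (A : List X) (N : ℕ) (R : List (Pl X)) : List (Pl X) :=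
  (allL A N).flatMap fun u => (allL A N).flatMap fun v =>
    (R.filter fun r => Nat.ble (u.length + deg r + v.length) N).map fun r =>
      r.map fun m => u ++ m ++ v

lemma spL_inst {A : List X} (hA : ∀ x, x ∈ A) {N : ℕ} {R : List (Pl X)} {F : Pl X → Prop}
    (h1 : ∀ r ∈ R, F r) (h2 : ∀ r, F r → deg r ≤ N → ∃ r' ∈ R, toW r' = toW r ∧ deg r' ≤ deg r) :
    spL (inst A N R) = Sp F N := by
  unfold spL Sp
  congr 1
  ext b
  simp only [inst, List.mem_flatMap, List.mem_map, List.mem_filter, Nat.ble_eq, Set.mem_setOf_eq,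
    mem_allL]
  constructor
  · rintro ⟨_, ⟨u, -, v, -, r, ⟨h3, h4⟩, rfl⟩, rfl⟩
    exact ⟨u, v, r, h1 r h3, h4, toW_inst u v r⟩
  · rintro ⟨u, v, r, h3, h4, rfl⟩
    obtain ⟨r', h5, h6, h7⟩ := h2 r h3 (by omega)
    exact ⟨_, ⟨u, ⟨by omega, fun _ _ => hA _⟩, v, ⟨by omega, fun _ _ => hA _⟩, r', ⟨h5, by omega⟩,
      rfl⟩, by rw [toW_inst, h6]⟩

variable {α : Type} [Primcodable α] [Primcodable X] [DecidableEq X]

@[fun_prop] theorem cp_isZ {p : α → Pl X} (hp : Cp p) : Cp fun x => isZ (p x) := by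
  unfold isZ; fun_prop

@[fun_prop] theorem cp_inSp {L : α → List (Pl X)} {p : α → Pl X} (hL : Cp L) (hp : Cp p) :
    Cp fun x => inSp (L x) (p x) := by
  unfold inSp; fun_prop

omit [DecidableEq X] in
@[fun_prop] theorem cp_deg {p : α → Pl X} (hp : Cp p) : Cp fun x => deg (p x) := by
  unfold deg; fun_prop

omit [DecidableEq X] in
@[fun_prop] theorem cp_inst (A : List X) {N : α → ℕ} {R : α → List (Pl X)} (hN : Cp N)
    (hR : Cp R) : Cp fun x => inst A (N x) (R x) := by
  unfold inst; fun_prop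

end Alg

variable {k : ℕ} (S : Setup k)

lemma R0_fin : {r | S.R0 r}.Finite := by
  let f : S.X × S.X × S.M.Rl → List (Pl S.X) := fun t =>
    [[[t.1, t.2.1], [t.2.1, t.1]], [S.bar t.1 ++ [t.2.1], t.2.1 :: S.bar t.1],
      [Lt.hd .Y :: Lt.h (some t.2.2) :: mword (S.M.push t.2.2),
        Lt.hd .Y :: Lt.c (some t.2.2) :: mword (S.M.pop t.2.2)],
      [Lt.hd .Y :: mword S.M.acc], [Lt.hd .K :: S.blk none, [Lt.hd .T], [Lt.hd .K]],
      [Lt.hd .K :: S.blk (some t.1), [Lt.hd .K]], [[Lt.hd .K, Lt.c (some S.M.go)]],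
      [Lt.hd .T :: S.blk (some t.1), S.bar t.1 ++ [Lt.hd .T]],
      [Lt.hd .T :: S.blk none, [Lt.hd .Cl]], [[Lt.hd .T, Lt.c (some S.M.go)], [Lt.hd .Cl]],
      [[Lt.hd .Cl, Lt.c (some t.2.2)], [Lt.hd .Cl]], [[Lt.hd .Cl, Lt.c none], []]]
  refine (Set.finite_iUnion fun t => (f t).finite_toSet).subset fun r hr => Set.mem_iUnion.2 ?_
  cases hr with
  | commT x y => exact ⟨(x, y, S.M.go), by simp [f]⟩
  | commB x y => exact ⟨(x, y, S.M.go), by simp [f]⟩
  | commG i y => exact ⟨(.g i, y, S.M.go), by simp [f]⟩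
  | back ρ => exact ⟨(.c none, .c none, ρ), by simp [f]⟩
  | Kblk x => exact ⟨(x, x, S.M.go), by simp [f]⟩
  | Tblk x => exact ⟨(x, x, S.M.go), by simp [f]⟩
  | Clid ρ => exact ⟨(.c none, .c none, ρ), by simp [f]⟩
  | _ => exact ⟨(.c none, .c none, S.M.go), by simp [f]⟩

lemma len_enc (p : Pl S.X) : p.length ≤ (S.enc p).length := by
  have := S.hl
  induction p with
  | nil => simp
  | cons m p ih =>
    simp only [Setup.enc, List.flatMap_cons, List.length_append, Setup.encm, S.bl_len,
      List.length_cons] at ih ⊢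
    omega

lemma len_arel (p : Pl S.X) : p.length ≤ deg (S.arel p) := by
  cases p with
  | nil => simp
  | cons m p =>
    have := deg_le.1 (le_refl (deg (S.arel (m :: p))))
      (Lt.hd .A :: S.cw (S.enc (m :: p)) ++ S.barw m ++ [Lt.hd .a]) (by simp [Setup.arel])
    have h := len_enc S (m :: p)
    simp only [List.length_append, List.length_cons, Setup.cw, Setup.cl, List.length_map] at this h ⊢
    omega

variable [DecidableEq S.X] (A : List S.X) (B : List (Fin k × Bool)) (F0 : List (Pl S.X))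
  (W : List (Fin k × Bool) → Bool)

/-- The relevant relators of one stage. -/
noncomputable def fam (e n : ℕ) (L : List (Pl S.X)) : List (Pl S.X) :=
  F0 ++ [S.link e] ++ ((allL (allL A n) (allL A n).length).filter fun q => inSp L q).map S.iop ++
    ((allL (allL A n) (S.C * (n + 1))).filter fun q => !inSp L q).map S.arel ++
    (allL B (S.C * (n + 1))).flatMap fun w =>
      ((allL B (S.C * (n + 1))).filter fun w' =>
        W (w ++ (w'.map fun g => (g.1, !g.2)).reverse)).map fun w' => S.grel w w'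

/-- Generators of the stratified ideal. -/
noncomputable def gens (e n : ℕ) : List (Pl S.X) :=
  Nat.rec (motive := fun _ => List (Pl S.X)) []
    (fun n L => inst A (S.C * (n + 1)) (fam S A B F0 W e n L)) n

variable {S A B F0 W}

theorem spL_gens {G : Type*} [Group G] {s : Fin k → G} (hA : ∀ x, x ∈ A) (hB : ∀ x, x ∈ B)
    (hF : ∀ r, r ∈ F0 ↔ S.R0 r) (hW : ∀ w, W w = true ↔ ev s w = 1) (e n : ℕ) :
    spL (gens S A B F0 W e n) = S.Sig s e n := by
  have hw : ∀ w w', W (w ++ (w'.map fun g => (g.1, !g.2)).reverse) = true ↔ ev s w = ev s w' :=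
    fun w w' => by
      rw [hW, ← mul_inv_eq_one (a := ev s w), ev, ev, ev, ← map_inv, ← map_mul, FreeGroup.inv_mk,
        FreeGroup.mul_mk]
      rfl
  induction n with
  | zero => simp [gens, spL, Setup.Sig]
  | succ n ih =>
    have hs : ∀ q, inSp (gens S A B F0 W e n) q = true ↔ toW q ∈ S.Sig s e n := fun q => by
      rw [inSp_iff, ih]
    have hq : ∀ {q : Pl S.X}, (∀ m ∈ q, m ∈ allL A n) ↔ deg q ≤ n := by
      intro q; simp [mem_allL, hA, deg_le]
    refine spL_inst hA (R := fam S A B F0 W e n (gens S A B F0 W e n)) (fun r hr => ?_)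
      fun r hr hd => ?_
    · simp only [fam, List.mem_append, List.mem_singleton, List.mem_map, List.mem_filter,
        List.mem_flatMap, hF, hw, hs, Bool.not_eq_true', ← Bool.not_eq_true] at hr
      rcases hr with (((h | h) | ⟨q, ⟨h1, h2⟩, rfl⟩) | ⟨q, ⟨h1, h2⟩, rfl⟩) | ⟨w, -, w', ⟨-, h⟩, rfl⟩
      · exact .inl h
      · exact .inr (.inl h)
      · exact .inr (.inr (.inl ⟨q, ⟨hq.1 (mem_allL.1 h1).2, h2⟩, rfl⟩))
      · exact .inr (.inr (.inr (.inl ⟨q, ⟨hq.1 (mem_allL.1 h1).2, h2⟩, rfl⟩)))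
      · exact .inr (.inr (.inr (.inr ⟨w, w', h, rfl⟩)))
    · simp only [fam, List.mem_append, List.mem_singleton, List.mem_map, List.mem_filter,
        List.mem_flatMap, hF, hw, hs, Bool.not_eq_true', ← Bool.not_eq_true]
      rcases hr with h | h | ⟨q, ⟨h1, h2⟩, rfl⟩ | ⟨q, ⟨h1, h2⟩, rfl⟩ | ⟨w, w', h, rfl⟩
      · exact ⟨r, .inl (.inl (.inl (.inl h))), rfl, le_rfl⟩
      · exact ⟨r, .inl (.inl (.inl (.inr h))), rfl, le_rfl⟩
      · obtain ⟨q', h3, h4, h5⟩ := reduce' (X := S.X) (hq.2 h1)
        refine ⟨S.iop q', .inl (.inl (.inr ⟨q', ⟨h3, ?_⟩, rfl⟩)), ?_,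
          deg_mono (List.map_subset _ h4)⟩
        · rwa [toW, h5]
        · simp only [toW, Setup.iop, List.map_map, h5]
      · exact ⟨_, .inl (.inr ⟨q, ⟨mem_allL.2 ⟨(len_arel S q).trans hd, hq.2 h1⟩, h2⟩, rfl⟩), rfl,
          le_rfl⟩
      · have h1 := deg_le.1 hd (w.map Lt.g) (by simp [Setup.grel])
        have h2 := deg_le.1 hd (w'.map Lt.g) (by simp [Setup.grel])
        rw [List.length_map] at h1 h2
        exact ⟨_, .inr ⟨w, mem_allL.2 ⟨h1, fun _ _ => hB _⟩, w',
          ⟨mem_allL.2 ⟨h2, fun _ _ => hB _⟩, h⟩, rfl⟩, rfl, le_rfl⟩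

section
variable [Primcodable S.X] {α : Type} [Primcodable α]
omit [DecidableEq S.X]

@[fun_prop] theorem cp_link {e : α → ℕ} (he : Cp e) : Cp fun x => S.link (e x) := by
  have : ∀ l : List S.M.κ, Cp fun x => l.flatMap fun j => (S.M.start (e x) j).map (Lt.m (k := k) j) := by
    intro l
    induction l with
    | nil => exact .const _
    | cons j l ih =>
      simp only [List.flatMap_cons]
      refine Cp.append ?_ ih
      by_cases h : j = S.M.j0
      · simp only [Mach.start, if_pos h, List.map_append, List.map_replicate]; fun_prop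
      · simp only [Mach.start, if_neg h]; fun_prop
  have h := this Finset.univ.toList
  unfold Setup.link mword; fun_prop

@[fun_prop] theorem cp_barw {m : α → List S.X} (hm : Cp m) : Cp fun x => S.barw (m x) := by
  have := Cp.fin S.bar
  unfold Setup.barw; fun_prop

@[fun_prop] theorem cp_enc {p : α → Pl S.X} (hp : Cp p) : Cp fun x => S.enc (p x) := by
  have : Cp fun x => S.bl (some x) := Cp.fin _
  unfold Setup.enc Setup.encm
  exact Cp.flatMap hp (Cp.append (.const _) (Cp.flatMap Cp.id'.snd (this.comp Cp.id'.snd)))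

@[fun_prop] theorem cp_cw {w : α → List Bool} (hw : Cp w) : Cp fun x => S.cw (w x) := by
  have : Cp fun b : Bool => (Lt.c (some (S.M.gen b)) : S.X) := Cp.fin _
  simp only [Setup.cw, Setup.cl, List.map_map, Function.comp_def]
  exact Cp.map hw (this.comp Cp.id'.snd)

@[fun_prop] theorem cp_iop {p : α → Pl S.X} (hp : Cp p) : Cp fun x => S.iop (p x) := by
  unfold Setup.iop; fun_prop

@[fun_prop] theorem cp_arel {p : α → Pl S.X} (hp : Cp p) : Cp fun x => S.arel (p x) := by
  unfold Setup.arel; fun_prop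

@[fun_prop] theorem cp_grel {w w' : α → List (Fin k × Bool)} (hw : Cp w) (hw' : Cp w') :
    Cp fun x => S.grel (w x) (w' x) := by
  have : Cp (Lt.g : Fin k × Bool → S.X) := Cp.fin _
  unfold Setup.grel; fun_prop

@[fun_prop] theorem cp_bn {w : α → List Bool} (hw : Cp w) : Cp fun x => bn (w x) := by
  unfold bn; fun_prop

end

theorem cp_gens [Primcodable S.X] (hW : Cp W) : Cp fun x : ℕ × ℕ => gens S A B F0 W x.1 x.2 := by
  unfold gens
  refine Cp.natRec (h := fun (x : ℕ × ℕ) n L => inst A (S.C * (n + 1)) (fam S A B F0 W x.1 n L))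
    (by fun_prop) (by fun_prop) ?_
  unfold fam; fun_prop

lemma bn_inj : Injective bn := fun u v h => by
  have h1 := congrArg Turing.PartrecToTM2.trNat h
  rw [bn, bn, Mc.trNat_foldl _ _ one_pos, Mc.trNat_foldl _ _ one_pos, List.append_left_inj] at h1
  refine List.reverse_injective (List.map_injective_iff.2 (fun a b => ?_) h1)
  cases a <;> cases b <;> simp [Mc.dig]

end Cm

open Cm in
theorem fix_exists {k : ℕ} (S : Setup k) {G : Type*} [Group G] (s : Fin k → G)
    (hw : ComputablePred fun w : List (Fin k × Bool) => FreeGroup.lift s (FreeGroup.mk w) = 1) :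
    ∃ e, S.Fix s e := by
  classical
  letI : Primcodable S.X := Primcodable.ofEquiv (Fin _) (Finite.equivFin _)
  obtain ⟨A, -, hA⟩ := Finite.exists_univ_list S.X
  obtain ⟨B, -, hB⟩ := Finite.exists_univ_list (Fin k × Bool)
  obtain ⟨W, hW, eW⟩ := ComputablePred.computable_iff.1 hw
  have hg := cp_gens (A := A) (B := B) (F0 := (R0_fin S).toFinset.toList) hW
  have hD : ∀ e p, inSp (gens S A B (R0_fin S).toFinset.toList W e (deg p)) p = true ↔
      S.Dcan s e p := fun e p => by
    rw [inSp_iff, spL_gens hA hB (fun r => by simp) fun w => (congrFun eW w).to_iff.symm]; rfl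
  let t : ℕ × ℕ × Pl S.X → Bool := fun x => (bn (S.enc x.2.2) == x.2.1) &&
    inSp (gens S A B (R0_fin S).toFinset.toList W x.1 (deg x.2.2)) x.2.2
  have ht : Cp t := Cp.and (by fun_prop)
    (cp_inSp (hg.comp (g := fun x : ℕ × ℕ × Pl S.X => (x.1, deg x.2.2)) (by fun_prop)) (by fun_prop))
  have h1 : Computable fun y : (Nat.Partrec.Code × ℕ) × ℕ =>
      t (Encodable.encode y.1.1, y.1.2, (Encodable.decode y.2).getD []) :=
    Computable.comp ht ((Computable.encode.comp (Computable.fst.comp .fst)).pair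
      ((Computable.snd.comp .fst).pair
        (Computable.option_getD (Computable.decode.comp .snd) (.const _))))
  have h2 : Partrec₂ fun (x : Nat.Partrec.Code × ℕ) (m : ℕ) =>
      Part.some (t (Encodable.encode x.1, x.2, (Encodable.decode m).getD [])) :=
    h1.partrec.of_eq fun _ => rfl
  obtain ⟨c, hc⟩ := Nat.Partrec.Code.fixed_point₂ (f := fun c N => Nat.rfind fun m =>
    Part.some (t (Encodable.encode c, N, (Encodable.decode m).getD [])))
    ((Partrec.rfind h2).of_eq fun _ => rfl)
  refine ⟨Encodable.encode c, fun w => ?_⟩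
  rw [Denumerable.ofNat_encode, hc]
  refine Nat.rfind_dom.trans ?_
  simp only [Part.mem_some_iff, Part.some_dom, implies_true, and_true, eq_comm (a := true), t,
    Bool.and_eq_true, beq_iff_eq, hD, bn_inj.eq_iff]
  constructor
  · rintro ⟨m, h3, h4⟩
    exact ⟨_, h3.symm, h4⟩
  · rintro ⟨p, h3, h4⟩
    exact ⟨Encodable.encode p, by simpa [Encodable.encodek] using ⟨h3.symm, h4⟩⟩

end Vale.Agent.P193
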