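import Vale.Agent.P193.Next
import Vale.Agent.P193.Comput

/-! The self-referential machine algebra exists. -/

namespace Vale.Agent.P193

open Classical

theorem exists_toW {X : Type} {j : ℕ} {b : FA X} (hb : b ∈ Wle X j) :
    ∃ p : Pl X, deg p ≤ j ∧ toW p = b := by
  induction hb using Submodule.span_induction with
  | mem x hx =>
    obtain ⟨u, hu, rfl⟩ := hx
    exact ⟨[u], by simpa [deg] using hu, toW_single u⟩
  | zero => exact ⟨[], by simp [deg], rfl⟩
  | add a b _ _ h1 h2 =>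
    obtain ⟨p, hp, rfl⟩ := h1
    obtain ⟨q, hq, rfl⟩ := h2
    exact ⟨p ++ q, by rw [Ctx.deg_append]; omega, toW_append p q⟩
  | smul r a _ h =>
    have : r = 0 ∨ r = 1 := by revert r; decide
    rcases this with rfl | rfl
    · exact ⟨[], by simp [deg], by simp [toW_nil]⟩
    · simpa using h

theorem Wle_mono {X : Type} {i j : ℕ} (h : i ≤ j) : Wle X i ≤ Wle X j :=
  Submodule.span_mono fun _ ⟨u, hu, e⟩ => ⟨u, hu.trans h, e⟩

theorem exists_Wle {X : Type} (b : FA X) : ∃ j, b ∈ Wle X j := by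
  induction b using FA.ind with
  | h0 => exact ⟨0, zero_mem _⟩
  | hw l => exact ⟨_, wd_mem_Wle le_rfl⟩
  | ha a b h1 h2 =>
    obtain ⟨i, hi⟩ := h1
    obtain ⟨j, hj⟩ := h2
    exact ⟨i + j, add_mem (Wle_mono (by omega) hi) (Wle_mono (by omega) hj)⟩

theorem Wle_mul {X : Type} {i j : ℕ} {a b : FA X} (ha : a ∈ Wle X i) (hb : b ∈ Wle X j) :
    a * b ∈ Wle X (i + j) := by
  induction ha using Submodule.span_induction with
  | mem x hx =>
    obtain ⟨u, hu, rfl⟩ := hx
    induction hb using Submodule.span_induction with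
    | mem y hy =>
      obtain ⟨v, hv, rfl⟩ := hy
      rw [← wd_append]; exact wd_mem_Wle (by simp; omega)
    | zero => simp
    | add a b _ _ h1 h2 => rw [mul_add]; exact add_mem h1 h2
    | smul r a _ h => rw [mul_smul_comm]; exact Submodule.smul_mem _ _ h
  | zero => simp
  | add a b _ _ h1 h2 => rw [add_mul]; exact add_mem h1 h2
  | smul r a _ h => rw [smul_mul_assoc]; exact Submodule.smul_mem _ _ h

theorem Wle_zero {X : Type} {b : FA X} (hb : b ∈ Wle X 0) : b = 0 ∨ b = 1 := by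
  obtain ⟨p, hp, rfl⟩ := exists_toW hb
  clear hb
  induction p with
  | nil => exact Or.inl rfl
  | cons m p ih =>
    rw [deg_cons] at hp
    have hm : m = [] := List.length_eq_zero_iff.1 (by omega)
    subst hm
    rw [toW_cons, wd_nil]
    rcases ih (by omega) with h | h <;> rw [h]
    · simp
    · exact Or.inl (FA.two 1)

namespace Setup
variable {k : ℕ} (S : Setup k) {G : Type*} [Group G] (s : Fin k → G) (e : ℕ)

/-- The bar endomorphism. -/
noncomputable def io : FA S.X →ₐ[ZMod 2] FA S.X :=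
  MonoidAlgebra.lift (ZMod 2) _ (FreeMonoid S.X) (FreeMonoid.lift fun y => wd (S.bar y))

theorem io_wd (m : List S.X) : S.io (wd m) = wd (S.barw m) := by
  induction m with
  | nil => rw [wd_nil, map_one]; exact wd_nil.symm
  | cons y m ih =>
    have : S.io (wd [y]) = wd (S.bar y) := by
      unfold io wd
      rw [MonoidAlgebra.lift_of]
      exact FreeMonoid.lift_eval_of _ _
    rw [wd_cons, map_mul, ih, this, ← wd_append]; rfl

theorem io_toW (p : Pl S.X) : S.io (toW p) = toW (S.iop p) := by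
  induction p with
  | nil => simp [iop, toW_nil]
  | cons m p ih => rw [toW_cons, map_add, ih, io_wd, iop, iop, List.map_cons, toW_cons]

theorem C_lt : S.C < S.l := by
  have := S.hl
  unfold C
  nlinarith [Nat.zero_le S.d, Nat.zero_le (S.d * S.d), Nat.zero_le (S.d * S.d * S.d)]

theorem deg_arel_ge (p : Pl S.X) : S.l * deg p ≤ deg (S.arel p) := by
  cases p with
  | nil => simp [deg]
  | cons m p =>
    refine (S.enc_len _).trans (le_trans ?_ (len_le_deg (m := Lt.hd .A ::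
      S.cw (S.enc (m :: p)) ++ S.barw m ++ [Lt.hd .a]) (by simp [arel])))
    simp [cw, cl_len]; omega

/-- The induction hypothesis. -/
def Hn (n : ℕ) (L : Ideal (FA S.X)) : Prop :=
  (1 : FA S.X) ∉ L ∧ ∀ j < n, ∀ b ∈ Wle S.X j, b ∈ L ↔ b ∈ S.Sig s e j

end Setup

namespace Ctx
variable {k : ℕ} (Z : Ctx k) {G : Type*} [Group G] (s : Fin k → G)

theorem Sig_eq {n j : ℕ} (h : Z.S.Hn s Z.e n Z.L) (hj : j < n) :
    Z.S.Sig s Z.e (j + 1) = Sp (Z.FamL s) (Z.S.C * (j + 1)) := by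
  have hC := Z.S.C_lt
  rw [Setup.Sig]
  apply le_antisymm
  · refine Sp_mono_fam ?_ _
    rintro r (hr | hr | ⟨p, hp, hr⟩ | ⟨p, hp, hr⟩ | hr)
    · exact Or.inl hr
    · exact Or.inr (Or.inl hr)
    · exact Or.inr (Or.inr (Or.inl ⟨p, (h.2 j hj _ (toW_mem_Wle hp.1)).2 hp.2, hr⟩))
    · exact Or.inr (Or.inr (Or.inr (Or.inl
        ⟨p, fun h' => hp.2 ((h.2 j hj _ (toW_mem_Wle hp.1)).1 h'), hr⟩)))
    · exact Or.inr (Or.inr (Or.inr (Or.inr hr)))
  · refine Submodule.span_mono ?_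
    rintro _ ⟨u, v, r, hr, h2, rfl⟩
    refine ⟨u, v, r, ?_, h2, rfl⟩
    have key : ∀ p : Pl Z.S.X, Z.S.l * deg p ≤ deg r → deg p ≤ j := by
      intro p hp
      have : Z.S.l * deg p < Z.S.l * (j + 1) := by nlinarith
      exact Nat.lt_succ_iff.1 (lt_of_mul_lt_mul_left this (Nat.zero_le _))
    rcases hr with hr | hr | ⟨p, hp, rfl⟩ | ⟨p, hp, rfl⟩ | hr
    · exact Or.inl hr
    · exact Or.inr (Or.inl hr)
    · have := key p (Z.S.deg_iop p)
      exact Or.inr (Or.inr (Or.inl ⟨p, ⟨this, (h.2 j hj _ (toW_mem_Wle this)).1 hp⟩, rfl⟩))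
    · have := key p (Z.S.deg_arel_ge p)
      exact Or.inr (Or.inr (Or.inr (Or.inl
        ⟨p, ⟨this, fun h' => hp ((h.2 j hj _ (toW_mem_Wle this)).2 h')⟩, rfl⟩)))
    · exact Or.inr (Or.inr (Or.inr (Or.inr hr)))

theorem rc_of {n : ℕ} (h : Z.S.Hn s Z.e n Z.L) : Z.RC n := by
  intro i b u hb hL hn
  cases i with
  | zero =>
    rcases Wle_zero hb with rfl | rfl
    · simp
    · exact absurd hL h.1
  | succ i =>
    have h1 := (h.2 (i + 1) (by omega) b hb).1 hL
    rw [Z.Sig_eq s h (by omega)] at h1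
    have h2 := Sp_right h1 u
    refine (h.2 (i + u.length + 1) (by omega) _ ?_).2 ?_
    · exact Wle_mono (by omega) (Wle_mul hb (wd_mem_Wle (le_refl u.length)))
    · rw [Z.Sig_eq s h (by omega)]
      refine Sp_mono ?_ h2
      have : 1 ≤ Z.S.C := by unfold Setup.C; nlinarith
      nlinarith

theorem acc_of {n : ℕ} (hU : Z.S.M.Univ) (hF : Z.S.Fix s Z.e) (h : Z.S.Hn s Z.e n Z.L) :
    Z.ACC n := by
  intro ρs junk rest hr
  obtain ⟨w, ρs', h1, h2⟩ := hU.sound _ _ _ _ hr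
  obtain ⟨p, rfl, hp⟩ := (hF w).1 h2
  exact ⟨p, ρs', h1, fun hn => (h.2 _ hn _ (toW_mem_Wle le_rfl)).2 hp⟩

theorem step {n : ℕ} (hn : 1 ≤ n) (hU : Z.S.M.Univ) (hF : Z.S.Fix s Z.e)
    (h : Z.S.Hn s Z.e n Z.L) : Z.S.Hn s Z.e (n + 1) (Z.nxt s) := by
  refine ⟨Z.one_not_mem_nxt s, fun j hj b hb => ?_⟩
  cases j with
  | zero =>
    rcases Wle_zero hb with rfl | rfl
    · simp
    · simp [Setup.Sig, Z.one_not_mem_nxt s]
  | succ j =>
    rw [Z.Sig_eq s h (by omega)]
    refine ⟨Z.complete s hb, Z.sound s (Z.rc_of s h) (Z.acc_of s hU hF h) ?_⟩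
    have h1 := Z.S.hl
    have h2 : Z.S.C * (j + 1) ≤ Z.S.C * n := Nat.mul_le_mul_left _ (by omega)
    have h3 : (Z.S.d + 3) * Z.S.C < Z.S.l := by
      unfold Setup.C; nlinarith [Nat.zero_le ((Z.S.d + 4) * (Z.S.d + 4))]
    calc (Z.S.d + 3) * (Z.S.C * (j + 1)) ≤ (Z.S.d + 3) * Z.S.C * n := by
          rw [mul_assoc]; exact Nat.mul_le_mul_left _ h2
      _ < Z.S.l * n := Nat.mul_lt_mul_of_pos_right h3 hn

end Ctx

namespace Setup
variable {k : ℕ} (S : Setup k) {G : Type*} [Group G] (s : Fin k → G) (e : ℕ)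

theorem exists_Hn (hU : S.M.Univ) (hF : S.Fix s e) (n : ℕ) : ∃ L, S.Hn s e (n + 1) L := by
  induction n with
  | zero =>
    refine ⟨⊥, by simp, fun j hj b _ => ?_⟩
    have : j = 0 := by omega
    subst this
    simp [Sig]
  | succ n ih =>
    obtain ⟨L, hL⟩ := ih
    obtain ⟨R⟩ := red_exists L hL.1
    exact ⟨_, Ctx.step ⟨S, e, L, R⟩ s (by omega) hU hF hL⟩

/-- Membership in the limit ideal. -/
def Dm (b : FA S.X) : Prop := ∃ j, b ∈ Wle S.X j ∧ b ∈ S.Sig s e j

variable {S s e}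

theorem Dm_iff (hU : S.M.Univ) (hF : S.Fix s e) {n j : ℕ} {L : Ideal (FA S.X)}
    (h : S.Hn s e n L) (hj : j < n) {b : FA S.X} (hb : b ∈ Wle S.X j) : S.Dm s e b ↔ b ∈ L := by
  refine ⟨fun ⟨i, h1, h2⟩ => ?_, fun h' => ⟨j, hb, (h.2 j hj b hb).1 h'⟩⟩
  obtain ⟨L', h'⟩ := S.exists_Hn s e hU hF (i + j)
  exact (h.2 j hj b hb).2 ((h'.2 j (by omega) b hb).1 ((h'.2 i (by omega) b h1).2 h2))

theorem Dm_right (hU : S.M.Univ) (hF : S.Fix s e) {a : FA S.X} (ha : S.Dm s e a) (b : FA S.X) :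
    S.Dm s e (a * b) := by
  obtain ⟨i, hi⟩ := exists_Wle a
  obtain ⟨j, hj⟩ := exists_Wle b
  obtain ⟨L, hL⟩ := S.exists_Hn s e hU hF (i + j)
  obtain ⟨R⟩ := red_exists L hL.1
  rw [Dm_iff hU hF hL (by omega) (Wle_mul hi hj)]
  rw [Dm_iff hU hF hL (by omega) hi] at ha
  induction hj using Submodule.span_induction with
  | mem y hy =>
    obtain ⟨v, hv, rfl⟩ := hy
    exact Ctx.rc_of ⟨S, e, L, R⟩ s hL i a v hi ha (by omega)
  | zero => simp
  | add a b _ _ h1 h2 => rw [mul_add]; exact add_mem h1 h2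
  | smul r a _ h =>
    have : r = 0 ∨ r = 1 := by revert r; decide
    rcases this with rfl | rfl
    · simp
    · simpa using h

/-- The limit ideal. -/
noncomputable def D (hU : S.M.Univ) (hF : S.Fix s e) : TwoSidedIdeal (FA S.X) :=
  TwoSidedIdeal.mk' {b | S.Dm s e b} ⟨0, zero_mem _, zero_mem _⟩
    (by
      intro a b ha hb
      obtain ⟨i, hi⟩ := exists_Wle a
      obtain ⟨j, hj⟩ := exists_Wle b
      obtain ⟨L, hL⟩ := S.exists_Hn s e hU hF (i + j)
      have hi' := Wle_mono (Nat.le_add_right i j) hi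
      have hj' := Wle_mono (Nat.le_add_left j i) hj
      exact (Dm_iff hU hF hL (by omega) (add_mem hi' hj')).2
        (add_mem ((Dm_iff hU hF hL (by omega) hi').1 ha) ((Dm_iff hU hF hL (by omega) hj').1 hb)))
    (by
      rintro a ⟨j, h1, h2⟩
      exact ⟨j, neg_mem h1, neg_mem h2⟩)
    (by
      intro a b hb
      obtain ⟨i, hi⟩ := exists_Wle a
      obtain ⟨j, hj⟩ := exists_Wle b
      obtain ⟨L, hL⟩ := S.exists_Hn s e hU hF (i + j)
      exact (Dm_iff hU hF hL (by omega) (Wle_mul hi hj)).2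
        (L.mul_mem_left _ ((Dm_iff hU hF hL (by omega) hj).1 hb)))
    (fun ha => Dm_right hU hF ha _)

theorem mem_D (hU : S.M.Univ) (hF : S.Fix s e) {b : FA S.X} : b ∈ D hU hF ↔ S.Dm s e b :=
  TwoSidedIdeal.mem_mk' _ _ _ _ _ _ _

theorem fam_mem (hU : S.M.Univ) (hF : S.Fix s e) {r : Pl S.X}
    (hr : S.Fam s e (fun q => S.Dm s e (toW q)) (fun q => ¬ S.Dm s e (toW q)) r) :
    S.Dm s e (toW r) := by
  obtain ⟨L, hL⟩ := S.exists_Hn s e hU hF (deg r)
  obtain ⟨R⟩ := red_exists L hL.1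
  have hl := S.l_pos
  refine ⟨deg r + 1, toW_mem_Wle (by omega), ?_⟩
  rw [Ctx.Sig_eq ⟨S, e, L, R⟩ s hL (by omega)]
  refine Sp_mono (N := deg r) ?_ (Sp_base ?_)
  · have : 1 ≤ S.C := by unfold Setup.C; nlinarith
    change deg r ≤ S.C * (deg r + 1)
    nlinarith
  · rcases hr with hr | hr | ⟨p, hp, rfl⟩ | ⟨p, hp, rfl⟩ | hr
    · exact Or.inl hr
    · exact Or.inr (Or.inl hr)
    · have := S.deg_iop p
      exact Or.inr (Or.inr (Or.inl ⟨p,
        (Dm_iff hU hF hL (j := deg p) (by nlinarith) (toW_mem_Wle le_rfl)).1 hp, rfl⟩))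
    · have := S.deg_arel_ge p
      exact Or.inr (Or.inr (Or.inr (Or.inl ⟨p, fun h => hp
        ((Dm_iff hU hF hL (j := deg p) (by nlinarith) (toW_mem_Wle le_rfl)).2 h), rfl⟩)))
    · exact Or.inr (Or.inr (Or.inr (Or.inr hr)))

variable (S e) in
/-- The finite family of defining relators. -/
def F1 (r : Pl S.X) : Prop := S.R0 r ∨ r = S.link e

variable (S e) in
/-- The quotient map by the defining relators. -/
noncomputable def pi1 : FA S.X →+* (TwoSidedIdeal.span (toW '' {r | S.F1 e r})).ringCon.Quotient :=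
  RingCon.mk' _

theorem pi1_zero {b : FA S.X} :
    S.pi1 e b = 0 ↔ b ∈ TwoSidedIdeal.span (toW '' {r | S.F1 e r}) := by
  rw [TwoSidedIdeal.mem_iff, ← map_zero (S.pi1 e)]
  exact RingCon.eq _

theorem pi1_ev {N : ℕ} {a b : FA S.X} (h : Ev (S.F1 e) N a b) : S.pi1 e a = S.pi1 e b := by
  have key : ∀ c ∈ Sp (S.F1 e) N, S.pi1 e c = 0 := by
    intro c hc
    induction hc using Submodule.span_induction with
    | mem x hx =>
      obtain ⟨u, v, r, h1, _, rfl⟩ := hx
      rw [map_mul, map_mul, pi1_zero.2 (TwoSidedIdeal.subset_span ⟨r, h1, rfl⟩), mul_zero, zero_mul]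
    | zero => simp
    | add a b _ _ h1 h2 => rw [map_add, h1, h2, add_zero]
    | smul r a _ h =>
      have : r = 0 ∨ r = 1 := by revert r; decide
      rcases this with rfl | rfl
      · simp
      · simpa using h
  have h1 : a = (a + b) + b := by rw [add_assoc, FA.two, add_zero]
  rw [h1, map_add, key _ h, zero_add]

theorem pi1_rule {a : List S.X} {p : Pl S.X} (h : S.R0 (a :: p)) (v : List S.X) :
    S.pi1 e (wd (a ++ v)) = S.pi1 e (toW p * wd v) :=
  pi1_ev (Ev.rule (Or.inl h) v le_rfl)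

theorem pi1_rule2 {a b : List S.X} (h : S.R0 [a, b]) (v : List S.X) :
    S.pi1 e (wd (a ++ v)) = S.pi1 e (wd (b ++ v)) := by
  rw [pi1_rule h, toW_single, wd_append]

theorem pi1_Cl (ρs : List S.M.Rl) (v : List S.X) :
    S.pi1 e (wd (Lt.hd .Cl :: ((ρs.map some).map Lt.c ++ v))) = S.pi1 e (wd (Lt.hd .Cl :: v)) := by
  induction ρs with
  | nil => rfl
  | cons ρ ρs ih => exact (pi1_rule2 (.Clid ρ) _).trans ih

theorem cw_append (a b : List Bool) : S.cw (a ++ b) = S.cw a ++ S.cw b := by simp [cw, cl]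

theorem pi1_Tw (m v : List S.X) :
    S.pi1 e (wd (Lt.hd .T :: (S.cw (m.flatMap fun y => S.bl (some y)) ++ v))) =
      S.pi1 e (wd (S.barw m)) * S.pi1 e (wd (Lt.hd .T :: v)) := by
  induction m with
  | nil => simp [barw, wd_nil, cw, cl]
  | cons y m ih =>
    rw [List.flatMap_cons, cw_append, List.append_assoc]
    refine (pi1_rule2 (.Tblk y) _).trans ?_
    rw [List.append_assoc, wd_append, map_mul, List.singleton_append, ih, barw, barw,
      List.flatMap_cons, wd_append, map_mul, mul_assoc]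

theorem pi1_Kw (m v : List S.X) :
    S.pi1 e (wd (Lt.hd .K :: (S.cw (m.flatMap fun y => S.bl (some y)) ++ v))) =
      S.pi1 e (wd (Lt.hd .K :: v)) := by
  induction m with
  | nil => simp [cw, cl]
  | cons y m ih =>
    rw [List.flatMap_cons, cw_append, List.append_assoc]
    exact (pi1_rule2 (.Kblk y) _).trans ih

theorem pi1_Tenc (p : Pl S.X) (v : List S.X) :
    S.pi1 e (wd (Lt.hd .T :: (S.cw (S.enc p) ++ Lt.c (some S.M.go) :: v))) =
      S.pi1 e (wd (Lt.hd .Cl :: v)) := by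
  cases p with
  | nil => exact pi1_rule2 .Tgo v
  | cons m p =>
    rw [enc, List.flatMap_cons, encm, List.append_assoc, cw_append, List.append_assoc]
    refine (pi1_rule2 .Topn _).trans ?_
    have := pi1_Cl (e := e) (((m.flatMap fun x => S.bl (some x)) ++ p.flatMap S.encm).map S.M.gen ++
      [S.M.go]) v
    simpa [cw, cl, Function.comp_def] using this

theorem pi1_Kenc (p : Pl S.X) (v : List S.X) :
    S.pi1 e (wd (Lt.hd .K :: (S.cw (S.enc p) ++ Lt.c (some S.M.go) :: v))) =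
      S.pi1 e (toW (S.iop p)) * S.pi1 e (wd (Lt.hd .Cl :: v)) := by
  induction p with
  | nil =>
    refine (pi1_rule .Kgo v).trans ?_
    simp [iop, toW_nil]
  | cons m p ih =>
    rw [enc, List.flatMap_cons, ← enc, encm, List.append_assoc, cw_append, List.append_assoc]
    refine (pi1_rule .Kopn _).trans ?_
    rw [toW_cons, toW_single, add_mul, ← wd_append, ← wd_append, map_add, List.singleton_append,
      List.singleton_append, cw_append, List.append_assoc, pi1_Tw, pi1_Kw, pi1_Tenc, ih, iop, iop,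
      List.map_cons, toW_cons, map_add, add_mul]

theorem deriv (hU : S.M.Univ) (hF : S.Fix s e) {p : Pl S.X} (hp : S.Dcan s e p) :
    S.pi1 e (toW (S.iop p)) = 0 := by
  have hF0 : ∀ r, S.R0 r → S.F1 e r := fun _ h => Or.inl h
  obtain ⟨ρs, rest, hr⟩ := hU.complete e _ ((hF _).2 ⟨p, rfl, hp⟩)
  have e1 := pi1_ev (ev_run hF0 hr [none] [none] le_rfl)
  have e2 := pi1_ev ((cm_m hF0 S.M.acc rest [none]
    (((S.enc p).map S.M.gen ++ S.M.go :: ρs).reverse.map some ++ [none])).cons (Lt.hd .Y)).2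
  have e3 := pi1_rule (e := e) .term (S.tw ⟨rest, [none],
    (((S.enc p).map S.M.gen ++ S.M.go :: ρs).reverse.map some ++ [none])⟩)
  rw [toW_nil, zero_mul, map_zero, List.cons_append, e2, ← e1] at e3
  have e4 := pi1_ev (((cm_m hF0 (S.M.start e) (fun _ => [])
    (((S.enc p).map S.M.gen ++ S.M.go :: ρs).map some ++ [none]) []).cons (Lt.h none)).cons
      (Lt.hd .Y)).2
  have e5 := pi1_ev (Ev.rule2 (F := S.F1 e) (Or.inr rfl) (S.tw ⟨fun _ => [],
    (((S.enc p).map S.M.gen ++ S.M.go :: ρs).map some ++ [none]), []⟩) (Nat.le_add_right _ _)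
      (Nat.le_add_left _ _))
  rw [app_nil] at e4
  have e6 := pi1_Kenc (e := e) p ((ρs.map some).map Lt.c ++ [Lt.c none])
  rw [pi1_Cl, show [Lt.hd Hd.Cl, Lt.c none] = [Lt.hd Hd.Cl, Lt.c none] ++ ([] : List S.X) from rfl,
    pi1_rule2 .Clend, List.append_nil, wd_nil, map_one, mul_one] at e6
  rw [← e6, ← e3]
  refine Eq.trans ?_ (e5.symm.trans (e4.trans ?_))
  · simp [tw, mword_nil, cw, cl, Function.comp_def]
  · simp [tw]

end Setup

theorem setup_exists (M : Mach) (k : ℕ) : ∃ S : Setup k, S.M = M := by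
  obtain ⟨d1, h1⟩ := (Set.finite_range fun ρ => (mword (k := k) (M.pop ρ)).length).bddAbove
  obtain ⟨d2, h2⟩ := (Set.finite_range fun ρ => (mword (k := k) (M.push ρ)).length).bddAbove
  obtain ⟨n, ⟨f⟩⟩ := Finite.exists_equiv_fin (Option (Lt M k))
  let d := d1 + d2
  let l := n + (d + 4) * ((d + 4) * (d + 4)) + 1
  refine ⟨⟨M, d, l, fun o => List.replicate (f o) true ++ List.replicate (l - f o) false, ?_, ?_,
    fun ρ => (h1 ⟨ρ, rfl⟩).trans (Nat.le_add_right _ _),
    fun ρ => (h2 ⟨ρ, rfl⟩).trans (Nat.le_add_left _ _), by omega⟩, rfl⟩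
  · intro o
    have := (f o).2
    simp only [List.length_append, List.length_replicate]
    omega
  · intro a b h
    have := congrArg (List.count true) h
    simp only [List.count_append, List.count_replicate] at this
    exact f.injective (Fin.ext (by simpa using this))

theorem core_exists {G : Type*} [Group G] {k : ℕ} (s : Fin k → G)
    (hw : ComputablePred fun w : List (Fin k × Bool) => FreeGroup.lift s (FreeGroup.mk w) = 1) :
    Nonempty (Core G s) := by
  obtain ⟨M, hM⟩ := mach_exists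
  obtain ⟨S, rfl⟩ := setup_exists M k
  obtain ⟨e, hF⟩ := fix_exists S s hw
  have hU := hM
  have neg : ∀ a : FA S.X, -a = a := fun a => neg_eq_of_add_eq_zero_left (FA.two a)
  refine ⟨⟨S.X, inferInstance, toW '' {r | S.F1 e r}, ?_, S.io.toRingHom, wd [Lt.hd .a],
    Setup.D hU hF, ?_, ?_, ?_, ?_, ?_, Lt.g, ?_⟩⟩
  · refine Set.Finite.image _ (((Cm.R0_fin S).insert (S.link e)).subset ?_)
    rintro r (h | h)
    · exact Or.inr h
    · exact Or.inl h
  · rw [Setup.mem_D]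
    obtain ⟨L, hL⟩ := S.exists_Hn s e hU hF 0
    rw [Setup.Dm_iff hU hF hL (j := 0) (by omega) (wd_nil (X := S.X) ▸ wd_mem_Wle le_rfl)]
    exact hL.1
  · rintro _ ⟨r, hr, rfl⟩
    rw [Setup.mem_D]
    exact Setup.fam_mem hU hF (hr.elim Or.inl fun h => Or.inr (Or.inl h))
  · intro b hb
    obtain ⟨j, hj⟩ := exists_Wle b
    obtain ⟨p, -, rfl⟩ := exists_toW hj
    rw [Setup.mem_D] at hb
    obtain ⟨L, hL⟩ := S.exists_Hn s e hU hF (deg p)
    have h1 := (hL.2 (deg p) (by omega) _ (toW_mem_Wle le_rfl)).1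
      ((Setup.Dm_iff hU hF hL (by omega) (toW_mem_Wle le_rfl)).1 hb)
    rw [← Setup.pi1_zero]
    exact (congrArg _ (S.io_toW p)).trans (Setup.deriv hU hF h1)
  · intro b hb
    obtain ⟨j, hj⟩ := exists_Wle b
    obtain ⟨p, -, rfl⟩ := exists_toW hj
    rw [Setup.mem_D] at hb
    obtain ⟨R⟩ := red_exists (⊥ : Ideal (FA S.X)) (by simp)
    refine ⟨wd (Lt.hd .A :: S.cw (S.enc p)), wd [Lt.hd .a], ?_⟩
    have := Setup.fam_mem hU hF (r := S.arel p) (Or.inr (Or.inr (Or.inr (Or.inl ⟨p, hb, rfl⟩))))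
    rw [Ctx.toW_arel (Z := ⟨S, e, ⊥, R⟩)] at this
    rw [Setup.mem_D, sub_eq_add_neg, neg, add_comm]
    exact (S.io_toW p).symm ▸ this
  · intro q hq
    obtain ⟨j, hj⟩ := exists_Wle q
    obtain ⟨p, hp, rfl⟩ := exists_toW hj
    obtain ⟨i, hi⟩ := exists_Wle (wd [Lt.hd .a] * S.io.toRingHom (toW p) -
      S.io.toRingHom (toW p) * wd [Lt.hd .a])
    obtain ⟨L, hL⟩ := S.exists_Hn s e hU hF (i + j)
    obtain ⟨R⟩ := red_exists L hL.1
    have hN := Ctx.step ⟨S, e, L, R⟩ s (by omega) hU hF hL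
    rw [Setup.mem_D, Setup.Dm_iff hU hF hN (by omega) hi] at hq
    have h1 : (1 : FA S.X) ∈ Wle S.X j := wd_nil (X := S.X) ▸ wd_mem_Wle (Nat.zero_le _)
    rw [Setup.mem_D, Setup.mem_D, Setup.Dm_iff hU hF hL (by omega) hj,
      Setup.Dm_iff hU hF hL (by omega) (sub_mem hj h1)]
    exact Ctx.nxt_center ⟨S, e, L, R⟩ s ((S.io_toW p) ▸ hq)
  · intro w
    rw [Setup.mem_D]
    constructor
    · intro h
      obtain ⟨i, hi⟩ := exists_Wle (wd (w.map Lt.g) - 1 : FA S.X)
      obtain ⟨L, hL⟩ := S.exists_Hn s e hU hF i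
      obtain ⟨R⟩ := red_exists L hL.1
      have hN := Ctx.step ⟨S, e, L, R⟩ s (by omega) hU hF hL
      rw [Setup.Dm_iff hU hF hN (by omega) hi] at h
      exact Ctx.nxt_group ⟨S, e, L, R⟩ s h
    · intro h
      have := Setup.fam_mem hU hF (r := S.grel w [])
        (Or.inr (Or.inr (Or.inr (Or.inr ⟨w, [], h.trans (ev_nil s).symm, rfl⟩))))
      rw [Setup.grel, toW_cons, toW_single, List.map_nil, wd_nil] at this
      rwa [sub_eq_add_neg, neg]

end Vale.Agent.P193
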