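import Vale.Agent.P193.Basic

/-! The machine algebra: definitions. -/

namespace Vale.Agent.P193

/-- A finite system of local rules on finitely many stacks. -/
structure Mach where
  κ : Type
  Γ : Type
  Rl : Type
  fκ : Fintype κ
  fΓ : Finite Γ
  fR : Finite Rl
  pop : Rl → κ → List Γ
  push : Rl → κ → List Γ
  gen : Bool → Rl
  go : Rl
  gen_inj : Function.Injective gen
  go_ne : ∀ b, gen b ≠ go
  j0 : κ
  one : Γ
  pre : κ → List Γ
  suf : κ → List Γ
  acc : κ → List Γ

attribute [instance] Mach.fκ Mach.fΓ Mach.fR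

/-- Stackwise concatenation. -/
def app {κ Γ : Type} (a b : κ → List Γ) : κ → List Γ := fun j => a j ++ b j

namespace Mach
variable (M : Mach)

open Classical in
/-- Start configuration of program number `e`. -/
noncomputable def start (e : ℕ) : M.κ → List M.Γ :=
  fun j => M.pre j ++ (if j = M.j0 then List.replicate e M.one else []) ++ M.suf j

/-- Runs along a list of rules. -/
inductive Run : List M.Rl → (M.κ → List M.Γ) → (M.κ → List M.Γ) → Prop
  | nil (c : M.κ → List M.Γ) : Run [] c c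
  | cons (ρ : M.Rl) (ρs : List M.Rl) (rest c' : M.κ → List M.Γ) :
      Run ρs (app (M.push ρ) rest) c' → Run (ρ :: ρs) (app (M.pop ρ) rest) c'

end Mach

/-- The number with binary digits `1 w`. -/
def bn (w : List Bool) : ℕ := w.foldl (fun n b => 2 * n + b.toNat) 1

/-- The machine accepts exactly the halting inputs of program `e`. -/
structure Mach.Univ (M : Mach) : Prop where
  sound : ∀ (e : ℕ) (ρs : List M.Rl) (junk rest : M.κ → List M.Γ),
    M.Run ρs (app (M.start e) junk) (app M.acc rest) →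
      ∃ (w : List Bool) (ρs' : List M.Rl), ρs = w.map M.gen ++ M.go :: ρs' ∧
        ((Denumerable.ofNat Nat.Partrec.Code e).eval (bn w)).Dom
  complete : ∀ (e : ℕ) (w : List Bool),
    ((Denumerable.ofNat Nat.Partrec.Code e).eval (bn w)).Dom →
      ∃ (ρs : List M.Rl) (rest : M.κ → List M.Γ),
        M.Run (w.map M.gen ++ M.go :: ρs) (M.start e) (app M.acc rest)

/-- Head letters. -/
inductive Hd | Y | K | T | Cl | A | a
  deriving DecidableEq

instance : Fintype Hd :=
  ⟨{.Y, .K, .T, .Cl, .A, .a}, by intro x; cases x <;> simp⟩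

/-- Letters of the machine algebra. -/
inductive Lt (M : Mach) (k : ℕ) : Type
  | m (j : M.κ) (γ : M.Γ)
  | c (o : Option M.Rl)
  | h (o : Option M.Rl)
  | hd (x : Hd)
  | g (i : Fin k × Bool)

instance (M : Mach) (k : ℕ) : Finite (Lt M k) := by
  let f : (M.κ × M.Γ) ⊕ Option M.Rl ⊕ Option M.Rl ⊕ Hd ⊕ (Fin k × Bool) → Lt M k := fun x =>
    match x with
    | .inl p => .m p.1 p.2
    | .inr (.inl o) => .c o
    | .inr (.inr (.inl o)) => .h o
    | .inr (.inr (.inr (.inl x))) => .hd x
    | .inr (.inr (.inr (.inr i))) => .g i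
  refine Finite.of_surjective f ?_
  rintro (⟨j, γ⟩ | o | o | x | i)
  · exact ⟨.inl (j, γ), rfl⟩
  · exact ⟨.inr (.inl o), rfl⟩
  · exact ⟨.inr (.inr (.inl o)), rfl⟩
  · exact ⟨.inr (.inr (.inr (.inl x))), rfl⟩
  · exact ⟨.inr (.inr (.inr (.inr i))), rfl⟩

/-- The stack of a tape letter. -/
def Lt.stk {M : Mach} {k : ℕ} : Lt M k → Option (M.κ ⊕ Bool)
  | .m j _ => some (.inl j)
  | .c _ => some (.inr false)
  | .h _ => some (.inr true)
  | .hd _ => none
  | .g _ => none

/-- The word of the machine stacks. -/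
noncomputable def mword {M : Mach} {k : ℕ} (s : M.κ → List M.Γ) : List (Lt M k) :=
  (Finset.univ : Finset M.κ).toList.flatMap fun j => (s j).map (Lt.m j)

/-- Polynomials written as lists of monomials. -/
abbrev Pl (X : Type) : Type := List (List X)

/-- The algebra element of a list polynomial. -/
noncomputable def toW {X : Type} (p : Pl X) : FA X := (p.map wd).sum

/-- Formal degree of a list polynomial. -/
def deg {X : Type} (p : Pl X) : ℕ := (p.map List.length).foldr max 0

/-- Span of the instances of total length at most `N` of a family of relators. -/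
noncomputable def Sp {X : Type} (F : Pl X → Prop) (N : ℕ) : Submodule (ZMod 2) (FA X) :=
  Submodule.span (ZMod 2)
    {b | ∃ (u v : List X) (r : Pl X), F r ∧ u.length + deg r + v.length ≤ N ∧
      b = wd u * toW r * wd v}

/-- Elements of degree at most `j`. -/
noncomputable def Wle (X : Type) (j : ℕ) : Submodule (ZMod 2) (FA X) :=
  Submodule.span (ZMod 2) {b | ∃ u : List X, u.length ≤ j ∧ b = wd u}

/-- Value of a word in the generators. -/
def ev {G : Type*} [Group G] {k : ℕ} (s : Fin k → G) (w : List (Fin k × Bool)) : G :=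
  FreeGroup.lift s (FreeGroup.mk w)

/-- A machine with a block code for the letters. -/
structure Setup (k : ℕ) where
  M : Mach
  d : ℕ
  l : ℕ
  bl : Option (Lt M k) → List Bool
  bl_len : ∀ o, (bl o).length = l
  bl_inj : Function.Injective bl
  pop_le : ∀ ρ, (mword (k := k) (M.pop ρ)).length ≤ d
  push_le : ∀ ρ, (mword (k := k) (M.push ρ)).length ≤ d
  hl : (d + 4) * ((d + 4) * (d + 4)) < l

namespace Setup
variable {k : ℕ} (S : Setup k)

/-- The alphabet. -/
abbrev X : Type := Lt S.M k

/-- The length constant. -/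
def C : ℕ := (S.d + 4) * (S.d + 4)

/-- Clock contents of a bit string. -/
def cl (w : List Bool) : List (Option S.M.Rl) := w.map fun b => some (S.M.gen b)

/-- Clock word of a bit string. -/
def cw (w : List Bool) : List S.X := (S.cl w).map Lt.c

/-- Block word. -/
def blk (o : Option S.X) : List S.X := S.cw (S.bl o)

/-- The barred copy of a letter. -/
def bar (x : S.X) : List S.X :=
  Lt.hd .T :: S.blk (some x) ++ [Lt.c (some S.M.go), Lt.c none]

/-- The barred copy of a word. -/
def barw (m : List S.X) : List S.X := m.flatMap S.bar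

/-- Bit code of a monomial. -/
def encm (m : List S.X) : List Bool := S.bl none ++ m.flatMap fun x => S.bl (some x)

/-- Bit code of a polynomial. -/
def enc (p : Pl S.X) : List Bool := p.flatMap S.encm

/-- The fixed relators. -/
inductive R0 : Pl S.X → Prop
  | commT (x y : S.X) (a b : S.M.κ ⊕ Bool) : x.stk = some a → y.stk = some b → a ≠ b →
      R0 [[x, y], [y, x]]
  | commB (x y : S.X) (b : S.M.κ ⊕ Bool) : y.stk = some b → R0 [S.bar x ++ [y], y :: S.bar x]
  | commG (i : Fin k × Bool) (y : S.X) : (∀ i', y ≠ Lt.g i') → R0 [[Lt.g i, y], [y, Lt.g i]]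
  | back (ρ : S.M.Rl) : R0 [Lt.hd .Y :: Lt.h (some ρ) :: mword (S.M.push ρ),
      Lt.hd .Y :: Lt.c (some ρ) :: mword (S.M.pop ρ)]
  | term : R0 [Lt.hd .Y :: mword S.M.acc]
  | Kopn : R0 [Lt.hd .K :: S.blk none, [Lt.hd .T], [Lt.hd .K]]
  | Kblk (x : S.X) : R0 [Lt.hd .K :: S.blk (some x), [Lt.hd .K]]
  | Kgo : R0 [[Lt.hd .K, Lt.c (some S.M.go)]]
  | Tblk (x : S.X) : R0 [Lt.hd .T :: S.blk (some x), S.bar x ++ [Lt.hd .T]]
  | Topn : R0 [Lt.hd .T :: S.blk none, [Lt.hd .Cl]]
  | Tgo : R0 [[Lt.hd .T, Lt.c (some S.M.go)], [Lt.hd .Cl]]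
  | Clid (ρ : S.M.Rl) : R0 [[Lt.hd .Cl, Lt.c (some ρ)], [Lt.hd .Cl]]
  | Clend : R0 [[Lt.hd .Cl, Lt.c none], []]

/-- The link relator of program `e`. -/
noncomputable def link (e : ℕ) : Pl S.X :=
  [Lt.hd .Y :: Lt.h none :: mword (S.M.start e), [Lt.hd .K]]

/-- Barred polynomial. -/
def iop (p : Pl S.X) : Pl S.X := p.map S.barw

/-- The relator making the barred polynomial two-sided invertible. -/
def arel (p : Pl S.X) : Pl S.X :=
  [] :: p.map fun m => Lt.hd .A :: S.cw (S.enc p) ++ S.barw m ++ [Lt.hd .a]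

/-- Group relator. -/
def grel (w w' : List (Fin k × Bool)) : Pl S.X := [w.map Lt.g, w'.map Lt.g]

variable {G : Type*} [Group G] (s : Fin k → G) (e : ℕ)

/-- The family of relators. -/
def Fam (Pos Neg : Pl S.X → Prop) (r : Pl S.X) : Prop :=
  S.R0 r ∨ r = S.link e ∨ (∃ p, Pos p ∧ r = S.iop p) ∨ (∃ p, Neg p ∧ r = S.arel p) ∨
    ∃ w w', ev s w = ev s w' ∧ r = S.grel w w'

/-- The stratified ideal. -/
noncomputable def Sig : ℕ → Submodule (ZMod 2) (FA S.X)
  | 0 => ⊥
  | n + 1 => Sp (S.Fam s e (fun q => deg q ≤ n ∧ toW q ∈ Sig n)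
      (fun q => deg q ≤ n ∧ toW q ∉ Sig n)) (S.C * (n + 1))

/-- Canonical membership test. -/
def Dcan (p : Pl S.X) : Prop := toW p ∈ S.Sig s e (deg p)

/-- Program `e` halts exactly on the codes of the members. -/
def Fix : Prop := ∀ w : List Bool,
  ((Denumerable.ofNat Nat.Partrec.Code e).eval (bn w)).Dom ↔ ∃ p, w = S.enc p ∧ S.Dcan s e p

end Setup

end Vale.Agent.P193
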