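import Vale.Agent.P193.Basic

/-! The general linear group of a good ring is elementary and simple. -/

namespace Vale.Agent.P193

open Matrix Function
open scoped commutatorElement

variable {R : Type} [Ring R]

lemma Good.p3 (G : Good R) (r : R) : ∃ a a' b b' : R, a' * a = 1 ∧ b' * b = 1 ∧ a' * r * b = 0 := by
  by_cases h : r = 0
  · exact ⟨1, 1, 1, 1, by simp, by simp, by simp [h]⟩
  obtain ⟨α, β, e⟩ := G.p2 r h
  have key : ∀ t s : R, t * α * (r * β * s) = t * s := fun t s => by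
    calc _ = t * (α * r * β) * s := by simp only [mul_assoc]
      _ = _ := by rw [e, mul_one]
  refine ⟨r * β * G.s2, G.t2 * α, β * G.s1, G.t1 * α * r, by rw [key, G.h22], ?_, ?_⟩
  · rw [← G.h11, ← key G.t1 G.s1]; simp only [mul_assoc]
  · rw [← G.h21, ← key G.t2 G.s1]; simp only [mul_assoc]

lemma Good.pairs (G : Good R) {K : Type} (L : List (K × K × R)) (h : ∀ t ∈ L, t.1 ≠ t.2.1) :
    ∃ c c' : K → R, (∀ i, c' i * c i = 1) ∧ ∀ t ∈ L, c' t.1 * t.2.2 * c t.2.1 = 0 := by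
  classical
  induction L with
  | nil => exact ⟨1, 1, fun _ => by simp, by simp⟩
  | cons t L ih =>
    obtain ⟨c, c', h1, h2⟩ := ih fun t ht => h t (List.mem_cons_of_mem _ ht)
    obtain ⟨i, l, r⟩ := t
    have hil : i ≠ l := h _ List.mem_cons_self
    obtain ⟨a, a', b, b', e1, e2, e3⟩ := G.p3 (c' i * r * c l)
    refine ⟨fun j => c j * update (update (1 : K → R) i a) l b j,
      fun j => update (update (1 : K → R) i a') l b' j * c' j, fun j => ?_, fun t ht => ?_⟩
    · rw [mul_assoc, ← mul_assoc (c' j), h1, one_mul]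
      by_cases h3 : j = l
      · simp [h3, e2]
      · by_cases h4 : j = i
        · simp [h4, hil, e1]
        · simp [h3, h4]
    · rcases List.mem_cons.1 ht with rfl | ht
      · simpa [hil, mul_assoc] using e3
      · calc _ = update (update (1 : K → R) i a') l b' t.1 * (c' t.1 * t.2.2 * c t.2.1) *
            update (update (1 : K → R) i a) l b t.2.1 := by simp only [mul_assoc]
          _ = 0 := by rw [h2 t ht, mul_zero, zero_mul]

variable {ι : Type} [Fintype ι] [DecidableEq ι]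

lemma usmul (g : (Matrix ι ι R)ˣ) (v : ι → R) : g • v = g.1 *ᵥ v := rfl

lemma Good.generic (G : Good R) (S : Finset (Matrix ι ι R)ˣ) (q : ι) :
    ∃ v : ι → R, ∀ M ∈ S, ∃ z, z * (M • v) q = 1 := by
  classical
  obtain ⟨c, c', h1, h2⟩ := G.pairs (((S ×ˢ S).filter fun p => p.1 ≠ p.2).toList.map
    fun p => (p.1, p.2, (p.1 * p.2⁻¹).1 q q)) (by
      simp only [List.mem_map, Finset.mem_toList, Finset.mem_filter]
      rintro _ ⟨p, hp, rfl⟩; exact hp.2)
  refine ⟨∑ M ∈ S, M⁻¹ • Pi.single q (c M), fun M hM => ⟨c' M, ?_⟩⟩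
  rw [Finset.smul_sum, Finset.sum_apply, Finset.mul_sum, Finset.sum_eq_single_of_mem M hM]
  · simp [h1]
  · intro N hN hne
    have := h2 (M, N, (M * N⁻¹).1 q q) (List.mem_map.2 ⟨(M, N), by simp [hM, hN, hne.symm], rfl⟩)
    rw [← mul_smul, usmul, mulVec_single, ← this, mul_assoc]
    rfl

/-- Elementary matrices with columns outside `A`. -/
def EA (R : Type) [Ring R] (A : Set ι) : Subgroup (Matrix ι ι R)ˣ :=
  Subgroup.closure {g | ∃ (i j : ι) (h : i ≠ j) (r : R), j ∉ A ∧ g = el h r}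

lemma el_mem {A : Set ι} {i j : ι} (h : i ≠ j) (r : R) (hj : j ∉ A) : el h r ∈ EA R A :=
  Subgroup.subset_closure ⟨i, j, h, r, hj, rfl⟩

lemma EA_anti {A B : Set ι} (h : A ⊆ B) : EA R B ≤ EA R A :=
  Subgroup.closure_mono fun _ ⟨i, j, hij, r, hj, e⟩ => ⟨i, j, hij, r, fun h' => hj (h h'), e⟩

lemma el_smul {i j : ι} (h : i ≠ j) (r : R) (v : ι → R) :
    el h r • v = v + Pi.single i (r * v j) := by
  rw [usmul, el_val, add_mulVec, one_mulVec, single_mulVec]; rfl

lemma EA_fix {A : Set ι} {e : (Matrix ι ι R)ˣ} (he : e ∈ EA R A) {a : ι} (ha : a ∈ A) :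
    e • (Pi.single a 1 : ι → R) = Pi.single a 1 := by
  refine (Subgroup.closure_le (MulAction.stabilizer _ (Pi.single a 1 : ι → R))).2 ?_ he
  rintro _ ⟨i, j, h, r, hj, rfl⟩
  have : j ≠ a := fun e => hj (e ▸ ha)
  simp [el_smul, this]

lemma vv_single (i j : ι) (a b : R) :
    vecMulVec (Pi.single i a) (Pi.single j b) = single i j (a * b) := by
  ext k l
  by_cases h1 : i = k <;> by_cases h2 : j = l <;>
    simp [vecMulVec_apply, single_apply, Pi.single_apply, h1, h2, eq_comm]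

lemma col_mem {A : Set ι} {d : ι} (hd : d ∉ A) (w : ι → R) (hw : w d = 0) :
    ∃ e ∈ EA R A, e.1 = 1 + vecMulVec w (Pi.single d 1) := by
  have : ∀ s : Finset ι, d ∉ s → ∃ e ∈ EA R A,
      e.1 = 1 + vecMulVec (∑ i ∈ s, Pi.single i (w i)) (Pi.single d 1) := by
    intro s
    induction s using Finset.induction_on with
    | empty => exact fun _ => ⟨1, one_mem _, by ext; simp [vecMulVec_apply]⟩
    | insert i s hi ih =>
      intro h
      rw [Finset.mem_insert, not_or] at h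
      obtain ⟨e, he, h1⟩ := ih h.2
      refine ⟨e * el (Ne.symm h.1) (w i), mul_mem he (el_mem _ _ hd), ?_⟩
      have h2 : Pi.single d (1 : R) ᵥ* single i d (w i) = 0 := by
        rw [single_one_vecMul]; ext k; exact single_apply_of_row_ne (Ne.symm h.1) _ _ _
      rw [Units.val_mul, h1, el_val, Finset.sum_insert hi, add_vecMulVec, vv_single, mul_one, add_mul,
        one_mul, mul_add, mul_one, vecMulVec_mul, h2, vecMulVec_zero, add_zero, add_assoc]
  obtain ⟨e, he, h⟩ := this (Finset.univ.erase d) (by simp)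
  refine ⟨e, he, ?_⟩
  rw [h, Finset.sum_erase _ (by simp [hw]), Finset.univ_sum_single]

lemma orbit1 {A : Set ι} {d : ι} (hd : d ∉ A) {v : ι → R} (hv : v d = 1) :
    ∃ e ∈ EA R A, e • v = Pi.single d 1 := by
  obtain ⟨e, he, h⟩ := col_mem hd (Pi.single d 1 - v) (by simp [hv])
  exact ⟨e, he, by rw [usmul, h, add_mulVec, one_mulVec, vecMulVec_mulVec]; simp [hv]⟩

lemma orbit2 {A : Set ι} {d q : ι} (hd : d ∉ A) (hq : q ∉ A) (h : d ≠ q) {v : ι → R} {z : R}
    (hv : z * v q = 1) : ∃ e ∈ EA R A, e • v = Pi.single d 1 := by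
  obtain ⟨e, he, h1⟩ := orbit1 hd (v := el h ((1 - v d) * z) • v) (by simp [el_smul, mul_assoc, hv])
  exact ⟨_, mul_mem he (el_mem h _ hq), by rw [mul_smul, h1]⟩

lemma orbit3 {A : Set ι} {d d' q b : ι} (hd : d ∉ A) (hd' : d' ∉ A) (h : d ≠ d') (hq : q ∉ A)
    (hb : b ∉ A) {v : ι → R} {z : R} (hv : z * v q = 1) : ∃ e ∈ EA R A, e • v = Pi.single b 1 := by
  by_cases hbq : b = q
  · subst hbq
    obtain ⟨c, hc, hcb⟩ : ∃ c, c ∉ A ∧ c ≠ b := by
      by_cases h1 : d = b
      · exact ⟨d', hd', fun e => h (h1.trans e.symm)⟩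
      · exact ⟨d, hd, h1⟩
    obtain ⟨e, he, h1⟩ := orbit2 hc hb hcb hv
    obtain ⟨e', he', h2⟩ := orbit2 hb hc hcb.symm (v := Pi.single c (1 : R)) (z := 1) (by simp)
    exact ⟨_, mul_mem he' he, by rw [mul_smul, h1, h2]⟩
  · exact orbit2 hb hq hbq hv

lemma orbit {A : Set ι} {d d' q q' : ι} (hd : d ∉ A) (hd' : d' ∉ A) (h : d ≠ d') (hq : q ∉ A)
    (hq' : q' ∉ A) {v u : ι → R} {z z' : R} (hv : z * v q = 1) (hu : z' * u q' = 1) :
    ∃ e ∈ EA R A, e • u = v := by
  obtain ⟨e, he, h1⟩ := orbit3 hd hd' h hq hd hv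
  obtain ⟨e', he', h2⟩ := orbit3 hd hd' h hq' hd hu
  exact ⟨_, mul_mem (inv_mem he) he', by rw [mul_smul, h2, ← h1, inv_smul_smul]⟩

/-- Diagonal matrices with one nontrivial entry. -/
def dg (j : ι) : Rˣ →* (Matrix ι ι R)ˣ :=
  Units.map ((diagonalRingHom ι R).toMonoidHom.comp (MonoidHom.mulSingle (fun _ => R) j))

lemma dg_val (j : ι) (u : Rˣ) : (dg j u).1 = diagonal (Pi.mulSingle j u.1) := rfl

lemma dg_val' (j : ι) (u : Rˣ) : (dg j u).1 = 1 + single j j (u.1 - 1) := by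
  ext k l
  by_cases h1 : k = l <;> by_cases h2 : j = l <;>
    simp [dg_val, single_apply, h1, h2, eq_comm, diagonal_apply, Pi.mulSingle_apply, one_apply]

lemma dg_inj (j : ι) : Injective (dg j : Rˣ → (Matrix ι ι R)ˣ) := fun u v h => by
  have := congrArg (fun g : (Matrix ι ι R)ˣ => g.1 j j) h
  exact Units.ext (by simpa [dg_val] using this)

lemma dg_conj {A : Set ι} (j : ι) (u : Rˣ) {e : (Matrix ι ι R)ˣ} (he : e ∈ EA R A) :
    dg j u * e * (dg j u)⁻¹ ∈ EA R A := by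
  refine (Subgroup.closure_le ((EA R A).comap (MulAut.conj (dg j u)).toMonoidHom)).2 ?_ he
  rintro _ ⟨i, k, h, r, hk, rfl⟩
  have : dg j u * el h r * (dg j u)⁻¹ =
      el h ((Pi.mulSingle j u.1 : ι → R) i * r * (Pi.mulSingle j u⁻¹.1 : ι → R) k) := by
    ext1
    rw [Units.val_mul, Units.val_mul, el_val, mul_add, add_mul, mul_one, Units.mul_inv, ← map_inv,
      el_val, dg_val, dg_val]
    congr 1
    ext a b
    simp only [diagonal_mul, mul_diagonal, single_apply]
    split_ifs with h1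
    · rw [h1.1, h1.2]
    · simp
  show dg j u * el h r * (dg j u)⁻¹ ∈ EA R A
  exact this ▸ el_mem h _ hk

lemma Good.stab_aux (G : Good R) (j : ι) (B : Finset ι) (hj : j ∉ B) (g : (Matrix ι ι R)ˣ)
    (hg : ∀ a, a ∉ B → a ≠ j → g • (Pi.single a 1 : ι → R) = Pi.single a 1) :
    ∃ e ∈ EA R {a | a ∉ B ∧ a ≠ j}, ∃ u, g = e * dg j u := by
  classical
  induction B using Finset.induction_on generalizing g with
  | empty =>
    have key : ∀ g : (Matrix ι ι R)ˣ,
        (∀ a, a ≠ j → g • (Pi.single a 1 : ι → R) = Pi.single a 1) →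
        ∀ k a, a ≠ j → g.1 k a = if k = a then 1 else 0 := fun g h k a ha => by
      have := congrFun (h a ha) k
      rwa [usmul, mulVec_single_one, Pi.single_apply] at this
    have key2 : ∀ g g' : (Matrix ι ι R)ˣ, g * g' = 1 →
        (∀ a, a ≠ j → g • (Pi.single a 1 : ι → R) = Pi.single a 1) → g.1 j j * g'.1 j j = 1 :=
      fun g g' e h => by
        have := congrArg (fun g : (Matrix ι ι R)ˣ => g.1 j j) e
        simp only [Units.val_mul, mul_apply, Units.val_one, one_apply_eq] at this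
        rw [← this, Finset.sum_eq_single j (fun a _ ha => by simp [key g h j a ha, ha.symm]) (by simp)]
    have h1 : ∀ a, a ≠ j → g • (Pi.single a 1 : ι → R) = Pi.single a 1 := fun a => hg a (by simp)
    have h2 : ∀ a, a ≠ j → g⁻¹ • (Pi.single a 1 : ι → R) = Pi.single a 1 := fun a ha =>
      inv_smul_eq_iff.2 (h1 a ha).symm
    let u : Rˣ := ⟨g.1 j j, g⁻¹.1 j j, key2 _ _ (mul_inv_cancel g) h1, key2 _ _ (inv_mul_cancel g) h2⟩
    obtain ⟨e, he, h3⟩ := col_mem (A := {a | a ∉ (∅ : Finset ι) ∧ a ≠ j}) (d := j) (by simp)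
      ((fun i => g.1 i j * u⁻¹.1) - Pi.single j 1) (by simp [u, sub_eq_zero]; exact u.mul_inv)
    refine ⟨e, he, u, Units.ext ?_⟩
    ext k a
    rw [Units.val_mul, dg_val, mul_diagonal, h3]
    by_cases ha : a = j
    · subst ha
      simp [vecMulVec_apply, one_apply, Pi.single_apply]
    · simp [vecMulVec_apply, one_apply, ha, key g h1 k a ha]
  | insert b B hb ih =>
    rw [Finset.mem_insert, not_or] at hj
    obtain ⟨v, hv⟩ := G.generic {1, g} b
    obtain ⟨z, hz⟩ := hv 1 (by simp)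
    obtain ⟨z', hz'⟩ := hv g (by simp)
    rw [one_smul] at hz
    have n1 : b ∉ {a | a ∉ insert b B ∧ a ≠ j} := by simp
    have n2 : j ∉ {a | a ∉ insert b B ∧ a ≠ j} := by simp
    obtain ⟨e1, he1, h1⟩ := orbit3 n2 n1 hj.1 n1 n1 hz
    obtain ⟨e2, he2, h2⟩ := orbit3 n2 n1 hj.1 n1 n1 hz'
    obtain ⟨e, he, u, h3⟩ := ih hj.2 (e2 * g * e1⁻¹) fun a ha haj => by
      by_cases hab : a = b
      · rw [hab, mul_smul, ← h1, inv_smul_smul, mul_smul, h2, h1]
      · have : a ∈ {a | a ∉ insert b B ∧ a ≠ j} := by simp [hab, ha, haj]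
        rw [mul_smul, mul_smul, EA_fix (inv_mem he1) this, hg a this.1 haj, EA_fix he2 this]
    refine ⟨e2⁻¹ * e * (dg j u * e1 * (dg j u)⁻¹), mul_mem (mul_mem (inv_mem he2)
      (EA_anti (fun a ha => by exact ⟨fun h => ha.1 (Finset.mem_insert_of_mem h), ha.2⟩) he))
      (dg_conj j u he1), u, ?_⟩
    calc g = e2⁻¹ * (e2 * g * e1⁻¹) * e1 := by group
      _ = _ := by rw [h3]; group

/-- The corner embedding of units. -/
def io {s t : R} (h : t * s = 1) (u : Rˣ) : Rˣ where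
  val := s * u.1 * t + (1 - s * t)
  inv := s * u⁻¹.1 * t + (1 - s * t)
  val_inv := by
    have : ∀ x, t * (s * x) = x := fun x => by rw [← mul_assoc, h, one_mul]
    simp [mul_add, add_mul, mul_sub, sub_mul, mul_assoc, this]
  inv_val := by
    have : ∀ x, t * (s * x) = x := fun x => by rw [← mul_assoc, h, one_mul]
    simp [mul_add, add_mul, mul_sub, sub_mul, mul_assoc, this]

lemma whitehead {i j : ι} (hij : i ≠ j) {s t : R} (h : t * s = 1) (u : Rˣ) :
    el hij s * el hij.symm (-t) * el hij s * dg j u =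
      dg i (io h u) * (el hij s * el hij.symm (-t) * el hij s) := by
  let blk : R → R → R → R → Matrix ι ι R := fun a b c d =>
    1 + (single i i a + single i j b + single j i c + single j j d)
  have mul : ∀ a b c d a' b' c' d', blk a b c d * blk a' b' c' d' =
      blk (a + a' + a * a' + b * c') (b + b' + a * b' + b * d') (c + c' + c * a' + d * c')
        (d + d' + c * b' + d * d') := by
    intros
    simp only [blk, mul_add, add_mul, one_mul, mul_one, single_mul_single_same,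
      single_mul_single_of_ne _ _ _ _ hij, single_mul_single_of_ne _ _ _ _ hij.symm, single_add]
    abel
  have e1 : ∀ r, (el hij r).1 = blk 0 r 0 0 := fun r => by simp [blk, el_val]
  have e2 : ∀ r, (el hij.symm r).1 = blk 0 0 r 0 := fun r => by simp [blk, el_val]
  have e3 : ∀ v : Rˣ, (dg i v).1 = blk (v.1 - 1) 0 0 0 := fun r => by simp [blk, dg_val']
  have e4 : ∀ v : Rˣ, (dg j v).1 = blk 0 0 0 (v.1 - 1) := fun r => by simp [blk, dg_val']
  have : ∀ x, t * (s * x) = x := fun x => by rw [← mul_assoc, h, one_mul]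
  ext1
  simp only [Units.val_mul, e1, e2, e3, e4, mul, io]
  congr 1 <;> simp [mul_add, add_mul, mul_sub, sub_mul, mul_assoc, this, h] <;> abel

lemma Good.dg_mem (G : Good R) {A : Set ι} {i j : ι} (hij : i ≠ j) (hi : i ∉ A) (hj : j ∉ A)
    (u : Rˣ) : dg i u ∈ EA R A := by
  have hW : ∀ s t : R, el hij s * el hij.symm (-t) * el hij s ∈ EA R A := fun s t =>
    mul_mem (mul_mem (el_mem _ _ hj) (el_mem _ _ hi)) (el_mem _ _ hj)
  have k1 : ∀ {s t : R} (h : t * s = 1) (u : Rˣ), dg i (io h u) * (dg j u)⁻¹ ∈ EA R A := by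
    intro s t h u
    have e := whitehead hij h u
    have := mul_mem (hW s t) (dg_conj j u (inv_mem (hW s t)))
    rwa [mul_assoc (dg j u), ← mul_assoc, e, ← mul_assoc, mul_inv_cancel_right] at this
  have k2 : ∀ {s t : R} (h : t * s = 1) (u : Rˣ), dg i (io h u) * (dg i u)⁻¹ ∈ EA R A := by
    intro s t h u
    have := mul_mem (k1 h u) (inv_mem (k1 (mul_one 1) u))
    rw [show io (mul_one (1 : R)) u = u from Units.ext (by simp [io])] at this
    simpa [mul_assoc] using this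
  have e : Units.map G.φ.toMonoidHom u = io G.h11 u * io G.h22 (Units.map G.φ.toMonoidHom u) := by
    have a1 : 1 - G.s1 * G.t1 = G.s2 * G.t2 := by rw [← G.hsum]; simp
    have a2 : 1 - G.s2 * G.t2 = G.s1 * G.t1 := by rw [← G.hsum]; simp
    have b : ∀ {t s c : R}, t * s = c → ∀ x, t * (s * x) = c * x := fun h x => by
      rw [← mul_assoc, h]
    ext1
    simp only [io, Units.val_mul, a1, a2, mul_add, add_mul, mul_assoc, b G.h11, b G.h12, b G.h21,
      b G.h22, one_mul, zero_mul, mul_zero, zero_add, add_zero]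
    simpa [mul_assoc, add_comm] using G.hφ u.1
  have h1 := k2 G.h11 u
  have h2 := k2 G.h22 (Units.map G.φ.toMonoidHom u)
  have e' := congrArg (dg i) e
  rw [map_mul] at e'
  have h3 := mul_mem (inv_mem h1) (inv_mem h2)
  generalize dg i (Units.map G.φ.toMonoidHom u) = x at *
  rw [e'] at h3
  simpa [mul_assoc] using h3

theorem Good.stab (G : Good R) {A : Set ι} {i j : ι} (hij : i ≠ j) (hi : i ∉ A) (hj : j ∉ A)
    {g : (Matrix ι ι R)ˣ} (hg : ∀ a ∈ A, g • (Pi.single a 1 : ι → R) = Pi.single a 1) :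
    g ∈ EA R A := by
  classical
  obtain ⟨e, he, u, rfl⟩ := G.stab_aux i (Finset.univ.filter fun a => a ∉ A ∧ a ≠ i) (by simp) g
    fun a h1 h2 => hg a (by simpa [h2] using h1)
  exact mul_mem (EA_anti (fun a ha => by exact ⟨by simp [ha], fun e => hi (e ▸ ha)⟩) he)
    (G.dg_mem hij hi hj u)

/-- Transvections. -/
def tv {x y : ι → R} (h : y ⬝ᵥ x = 0) : (Matrix ι ι R)ˣ where
  val := 1 + vecMulVec x y
  inv := 1 - vecMulVec x y
  val_inv := by simp [mul_sub, add_mul, vecMulVec_mul_vecMulVec, h]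
  inv_val := by simp [mul_add, sub_mul, vecMulVec_mul_vecMulVec, h]

lemma conj_tv (g : (Matrix ι ι R)ˣ) {x y : ι → R} (h : y ⬝ᵥ x = 0) :
    (g * tv h * g⁻¹).1 = 1 + vecMulVec (g.1 *ᵥ x) (y ᵥ* g⁻¹.1) := by
  rw [Units.val_mul, Units.val_mul, tv, mul_add, add_mul, mul_one, Units.mul_inv, mul_vecMulVec,
    vecMulVec_mul]

lemma Good.sep (G : Good R) {a b : ι} (hab : a ≠ b) {g : (Matrix ι ι R)ˣ} (hg : g ≠ 1) :
    ∃ v w : ι → R, w ⬝ᵥ v = 0 ∧ w ⬝ᵥ (g.1 *ᵥ v) = 1 := by
  by_cases h1 : ∃ i j, i ≠ j ∧ g.1 i j ≠ 0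
  · obtain ⟨i, j, hij, h⟩ := h1
    obtain ⟨α, β, e⟩ := G.p2 _ h
    exact ⟨Pi.single j β, Pi.single i α, by simp [hij], by simpa [mul_assoc] using e⟩
  push Not at h1
  by_cases h2 : ∃ i j r, i ≠ j ∧ g.1 i i * r - r * g.1 j j ≠ 0
  · obtain ⟨i, j, r, hij, h⟩ := h2
    obtain ⟨α, β, e⟩ := G.p2 _ h
    refine ⟨Pi.single i (r * β) + Pi.single j β, Pi.single i α - Pi.single j (α * r), ?_, ?_⟩
    · simp [hij, hij.symm, mul_assoc]
    · simpa [mulVec_add, h1 i j hij, h1 j i hij.symm, mul_assoc, sub_eq_add_neg, mul_add,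
        add_mul] using e
  push Not at h2
  simp only [sub_eq_zero] at h2
  have h3 : ∀ i, g.1 i i = g.1 a a := fun i => by
    by_cases h : i = a
    · rw [h]
    · simpa using h2 i a 1 h
  have h4 : g.1 = diagonal fun _ => g.1 a a := by
    ext i j
    by_cases h : i = j
    · rw [h, diagonal_apply_eq, h3]
    · rw [h1 i j h, diagonal_apply_ne _ h]
  rcases G.center (g.1 a a) fun r => by rw [h2 a b r hab, h3 b] with h | h
  · have := congrFun (congrFun g.mul_inv a) a
    rw [h4, h, diagonal_mul, zero_mul, one_apply_eq] at this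
    exact absurd this.symm G.nontriv
  · exact absurd (Units.ext (by rw [h4, h]; simp)) hg

lemma Good.exists_el (G : Good R) {a b : ι} (hab : a ≠ b) {N : Subgroup (Matrix ι ι R)ˣ}
    (hN : N.Normal) {g : (Matrix ι ι R)ˣ} (hgN : g ∈ N) (hg : g ≠ 1) :
    ∃ ρ l m : R, l * ρ * m = 1 ∧ el hab ρ ∈ N := by
  obtain ⟨v, w, hwv, hw⟩ := G.sep hab hg
  obtain ⟨c, c', h1, h2⟩ := G.pairs [((1 : Fin 3), (0 : Fin 3), (g.1 *ᵥ v) b), (0, 2, w a),
    (1, 2, g.1 b a)] (by simp)
  simp only [List.mem_cons, List.not_mem_nil, or_false, forall_eq_or_imp, forall_eq] at h2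
  obtain ⟨p1, p2, p3⟩ := h2
  set x : ι → R := MulOpposite.op (c 0) • v with hx
  set y : ι → R := Pi.single b (c' 1) ᵥ* g.1 with hy
  set x' : ι → R := Pi.single a (c 2) with hx'
  set y' : ι → R := c' 0 • w with hy'
  have d1 : ∀ M : Matrix ι ι R, M *ᵥ x = MulOpposite.op (c 0) • M *ᵥ v := fun M => mulVec_smul _ _ _
  have yx : y ⬝ᵥ x = 0 := by rw [hy, ← dotProduct_mulVec, d1]; simpa [mul_assoc] using p1
  have yx' : y ⬝ᵥ x' = 0 := by rw [hy, ← dotProduct_mulVec, hx']; simpa [mul_assoc] using p3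
  have y'x' : y' ⬝ᵥ x' = 0 := by simpa [hy', hx'] using p2
  have y'x : y' ⬝ᵥ x = 0 := by rw [hy', hx, smul_dotProduct, dotProduct_smul, hwv]; simp
  have y'gx : y' ⬝ᵥ g.1 *ᵥ x = 1 := by
    rw [hy', d1, smul_dotProduct, dotProduct_smul, hw]; simpa using h1 0
  have yg : y ᵥ* g⁻¹.1 = Pi.single b (c' 1) := by rw [hy, vecMul_vecMul, Units.mul_inv, vecMul_one]
  have m1 : ⁅g, tv yx⁆ ∈ N := by
    rw [commutatorElement_def, mul_assoc, mul_assoc]
    exact mul_mem hgN (by simpa [mul_assoc] using hN.conj_mem _ (inv_mem hgN) (tv yx))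
  have m2 : ⁅⁅g, tv yx⁆, tv y'x'⁆ ∈ N := by
    generalize ⁅g, tv yx⁆ = k at m1
    rw [commutatorElement_def, mul_assoc, mul_assoc]
    exact mul_mem m1 (by simpa [mul_assoc] using hN.conj_mem _ (inv_mem m1) (tv y'x'))
  have e1 : (⁅g, tv yx⁆).1 *ᵥ x' = x' := by
    rw [commutatorElement_def, Units.val_mul, conj_tv, ← mulVec_mulVec, yg]
    have : (tv yx)⁻¹.1 *ᵥ x' = x' := by
      rw [show (tv yx)⁻¹.1 = 1 - vecMulVec x y from rfl, sub_mulVec, vecMulVec_mulVec, yx']; simp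
    rw [this, add_mulVec, vecMulVec_mulVec, one_mulVec]
    simp [hx', hab.symm]
  have e2 : y' ᵥ* (⁅g, tv yx⁆)⁻¹.1 = y' - Pi.single b (c' 1) := by
    rw [commutatorElement_inv, commutatorElement_def, mul_assoc, mul_assoc, Units.val_mul,
      ← vecMul_vecMul]
    have : y' ᵥ* (tv yx).1 = y' := by
      rw [show (tv yx).1 = 1 + vecMulVec x y from rfl, vecMul_add, vecMul_vecMulVec, y'x]; simp
    rw [this, ← mul_assoc, Units.val_mul, Units.val_mul,
      show (tv yx)⁻¹.1 = 1 - vecMulVec x y from rfl, mul_sub, sub_mul, mul_one, Units.mul_inv,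
      mul_vecMulVec, vecMulVec_mul, yg, vecMul_sub, vecMul_vecMulVec, y'gx]
    simp
  refine ⟨-(c 2 * c' 1), -c' 2, c 1, ?_, ?_⟩
  · rw [neg_mul_neg, ← mul_assoc, h1, one_mul, h1]
  · have : ⁅⁅g, tv yx⁆, tv y'x'⁆ = el hab (-(c 2 * c' 1)) := by
      ext1
      have z : (Pi.single b (c' 1) : ι → R) ⬝ᵥ x' = 0 := by simp [hx', hab.symm]
      rw [commutatorElement_def, Units.val_mul, conj_tv, e1, e2,
        show (tv y'x')⁻¹.1 = 1 - vecMulVec x' y' from rfl, el_val, ← single_neg, ← vv_single, ← hx',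
        mul_sub, mul_one, add_mul, one_mul, vecMulVec_mul_vecMulVec, sub_dotProduct, y'x', z,
        vecMulVec_sub]
      simp only [sub_zero, zero_smul, vecMulVec_zero]
      abel
    exact this ▸ m2

theorem Good.simple (G : Good R) {a b c : ι} (hab : a ≠ b) (hbc : b ≠ c) (hac : a ≠ c) :
    IsSimpleGroup (Matrix ι ι R)ˣ := by
  have : Nontrivial (Matrix ι ι R)ˣ := ⟨el hab 1, 1, fun h => by
    have := congrArg (fun g : (Matrix ι ι R)ˣ => g.1 a b) h
    simp [el_val, hab, G.nontriv] at this⟩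
  refine ⟨fun N hN => ?_⟩
  rw [or_iff_not_imp_left]
  intro hne
  obtain ⟨⟨g, hgN⟩, hg⟩ := Subgroup.ne_bot_iff_exists_ne_one.1 hne
  obtain ⟨ρ, l, m, e, h0⟩ := G.exists_el hab hN hgN fun h => hg (Subtype.ext h)
  have cl : ∀ {x : (Matrix ι ι R)ˣ} (y), x ∈ N → ⁅x, y⁆ ∈ N := fun {x} y hx => by
    rw [commutatorElement_def, mul_assoc, mul_assoc]
    exact mul_mem hx (by simpa [mul_assoc] using hN.conj_mem _ (inv_mem hx) y)
  have cr : ∀ (x) {y : (Matrix ι ι R)ˣ}, y ∈ N → ⁅x, y⁆ ∈ N := fun x y hy => by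
    rw [← commutatorElement_inv]; exact inv_mem (cl x hy)
  have P0 : ∀ r, el hbc r ∈ N := fun r => by
    have := cr (el hab.symm (r * l)) (el_comm_mul hab hbc hac ρ m ▸ cl (el hbc m) h0)
    rwa [el_comm_mul hab.symm hac hbc, mul_assoc, ← mul_assoc l, e, mul_one] at this
  have Pl : ∀ {i j} (h : i ≠ j), (∀ r : R, el h r ∈ N) → ∀ {k} (h' : k ≠ j) (r : R), el h' r ∈ N := by
    intro i j h H k h' r
    by_cases hk : k = i
    · subst hk; exact H r
    · simpa [el_comm_mul hk h h'] using cr (el hk r) (H 1)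
  have Pr : ∀ {i j} (h : i ≠ j), (∀ r : R, el h r ∈ N) → ∀ {k} (h' : i ≠ k) (r : R), el h' r ∈ N := by
    intro i j h H k h' r
    by_cases hk : j = k
    · subst hk; exact H r
    · simpa [el_comm_mul h hk h'] using cl (el hk r) (H 1)
  refine top_unique fun g _ => (Subgroup.closure_le N).2 ?_
    (G.stab (A := ∅) hab (by simp) (by simp) (g := g) (by simp))
  rintro _ ⟨i, j, h, r, -, rfl⟩
  by_cases hi : i = c
  · by_cases hj : b = j
    · exact Pl (hj ▸ hab) (Pr hac (Pl hbc P0 hac) _) h r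
    · exact Pl hj (Pr hbc P0 hj) h r
  · exact Pr hi (Pl hbc P0 hi) h r

end Vale.Agent.P193
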