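import Vale.Agent.P193.Basic

/-! A finitely presented Houghton group. -/

namespace Vale.Agent.P193

namespace Ho

open Equiv

/-- stacks -/
abbrev Sk : Type := Fin 60

/-- positions -/
abbrev I : Type := Sk × ℕ

/-- top position of a stack -/
def tp (X : Sk) : I := (X, 0)

/-- pushing down a stack -/
def bt (X : Sk) (p : I) : I := if p.1 = X then (p.1, p.2 + 1) else p

theorem bt_self (X : Sk) (k : ℕ) : bt X (X, k) = (X, k + 1) := by simp [bt]

theorem bt_ne {X S : Sk} (h : S ≠ X) (k : ℕ) : bt X (S, k) = (S, k) := by simp [bt, h]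

theorem bt_tp {X Y : Sk} (h : Y ≠ X) : bt X (tp Y) = tp Y := bt_ne h 0

theorem bt_comm (X Y : Sk) (p : I) : bt X (bt Y p) = bt Y (bt X p) := by
  obtain ⟨S, k⟩ := p
  by_cases h1 : S = X <;> by_cases h2 : S = Y <;> simp_all [bt]

/-- putting a new element on a stack -/
def ee (X : Sk) : Option I ≃ I where
  toFun o := o.elim (tp X) (bt X)
  invFun p := if p.1 = X then (if p.2 = 0 then none else some (p.1, p.2 - 1)) else some p
  left_inv o := by
    rcases o with _ | ⟨S, k⟩
    · simp [tp]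
    · by_cases h : S = X <;> simp [bt, h]
  right_inv p := by
    obtain ⟨S, k⟩ := p
    by_cases h : S = X
    · cases k <;> simp [bt, tp, h]
    · simp [bt, h]

theorem ee_none (X : Sk) : ee X none = tp X := rfl
theorem ee_some (X : Sk) (p : I) : ee X (some p) = bt X p := rfl

theorem cases_I (X : Sk) (p : I) : p = tp X ∨ ∃ q, p = bt X q := by
  obtain ⟨o, rfl⟩ := (ee X).surjective p
  cases o with
  | none => exact Or.inl rfl
  | some q => exact Or.inr ⟨q, rfl⟩

theorem bt_inj {X : Sk} {p q : I} (h : bt X p = bt X q) : p = q :=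
  Option.some_injective _ ((ee X).injective h)

theorem bt_ne_tp (X : Sk) (p : I) : bt X p ≠ tp X := fun h =>
  Option.some_ne_none p ((ee X).injective h)

/-- moving the top of `X` to the top of `Y` -/
def ta (X Y : Sk) : Perm I := (ee X).symm.trans (ee Y)

theorem ta_tp (X Y : Sk) : ta X Y (tp X) = tp Y :=
  congrArg (ee Y) ((ee X).symm_apply_apply none)

theorem ta_bt (X Y : Sk) (p : I) : ta X Y (bt X p) = bt Y p :=
  congrArg (ee Y) ((ee X).symm_apply_apply (some p))

theorem ta_tp' {X Y Z : Sk} (h : Z ≠ X) : ta X Y (tp Z) = bt Y (tp Z) := by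
  rw [← ta_bt X Y, bt_tp h]

theorem ta_mul (X Y Z : Sk) : ta Y Z * ta X Y = ta X Z := by
  ext1 p; simp [ta]

theorem ta_self (X : Sk) : ta X X = 1 := by
  ext1 p; simp [ta]

/-- the shift -/
def ph (X : Sk) : Perm I →* Perm I where
  toFun g := (ee X).permCongr (optionCongr g)
  map_one' := by ext1 p; simp
  map_mul' g h := by
    ext1 p
    obtain ⟨o, rfl⟩ := (ee X).surjective p
    cases o <;> simp

theorem ph_tp (X : Sk) (g : Perm I) : ph X g (tp X) = tp X := by
  rw [← ee_none X]; simp [ph]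

theorem ph_bt (X : Sk) (g : Perm I) (p : I) : ph X g (bt X p) = bt X (g p) := by
  rw [← ee_some X, ← ee_some X]; simp [ph]

theorem ph_ta {W U V : Sk} (h1 : W ≠ U) (h2 : W ≠ V) : ph W (ta U V) = ta U V := by
  ext1 p
  rcases cases_I W p with rfl | ⟨q, rfl⟩
  · rw [ph_tp, ta_tp' h1, bt_tp h2]
  · rw [ph_bt]
    rcases cases_I U q with rfl | ⟨q, rfl⟩
    · rw [bt_tp h1.symm, ta_tp, bt_tp h2.symm]
    · rw [bt_comm W U, ta_bt, ta_bt, bt_comm]

theorem park {W U V : Sk} (Z : Sk) (h1 : W ≠ U) (h2 : W ≠ V) :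
    ta W Z * ta U V * ta Z W = ph Z (ta U V) := by
  ext1 p
  conv_lhs => rw [← ph_ta h1 h2]
  rcases cases_I Z p with rfl | ⟨q, rfl⟩
  · simp only [Perm.mul_apply, ta_tp, ph_tp]
  · simp only [Perm.mul_apply, ta_bt, ph_bt]

theorem fresh (l : List Sk) (h : l.length < 60) : ∃ Z, Z ∉ l := by
  by_contra hn
  push Not at hn
  have := (Finset.card_le_card (s := Finset.univ) (t := l.toFinset)
    fun x _ => List.mem_toFinset.2 (hn x)).trans (List.toFinset_card_le l)
  simp at this
  omega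

/-- short true relations -/
def rels : Set (FreeGroup (Sk × Sk)) :=
  (fun l : List (Sk × Sk) => (l.map FreeGroup.of).prod) ''
    {l | l.length ≤ 26 ∧ (l.map fun x => ta x.1 x.2).prod = 1}

/-- the finitely presented group -/
abbrev K : Type := PresentedGroup rels

instance : Finite rels :=
  (((List.finite_length_le (Sk × Sk) 26).subset fun _ h => h.1).image _).to_subtype

/-- generators -/
def t (X Y : Sk) : K := PresentedGroup.of (X, Y)

theorem lift_word {G : Type*} [Group G] (f : Sk × Sk → G) (l : List (Sk × Sk)) :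
    FreeGroup.lift f (l.map FreeGroup.of).prod = (l.map f).prod := by
  rw [map_list_prod, List.map_map]
  congr 2
  ext1 x
  simp

/-- the action -/
def rh : K →* Perm I := PresentedGroup.toGroup (f := fun x => ta x.1 x.2) (by
  rintro _ ⟨l, hl, rfl⟩
  rw [lift_word, hl.2])

theorem rh_t (X Y : Sk) : rh (t X Y) = ta X Y := PresentedGroup.toGroup.of _

/-- words -/
def W (l : List (Sk × Sk)) : K := (l.map fun x => t x.1 x.2).prod

theorem rh_W (l : List (Sk × Sk)) : rh (W l) = (l.map fun x => ta x.1 x.2).prod := by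
  rw [W, map_list_prod, List.map_map]
  congr 2

theorem W_one (l : List (Sk × Sk)) (h : l.length ≤ 26) (h1 : rh (W l) = 1) : W l = 1 := by
  have : W l = PresentedGroup.mk rels (l.map FreeGroup.of).prod := by
    rw [map_list_prod, List.map_map]; rfl
  rw [this]
  exact PresentedGroup.one_of_mem ⟨l, ⟨h, by rwa [rh_W] at h1⟩, rfl⟩

theorem t_cancel (X Y : Sk) : t Y X * t X Y = 1 := by
  have := W_one [(Y, X), (X, Y)] (by simp) (by simp [rh_W, ta_mul, ta_self])
  simpa [W] using this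

theorem t_inv (X Y : Sk) : (t X Y)⁻¹ = t Y X := inv_eq_of_mul_eq_one_left (t_cancel X Y)

/-- word length bound -/
def Len (g : K) (k : ℕ) : Prop := ∃ l, l.length ≤ k ∧ W l = g

theorem Len.t (X Y : Sk) : Len (t X Y) 1 := ⟨[(X, Y)], le_rfl, by simp [W]⟩

theorem Len.one : Len 1 0 := ⟨[], le_rfl, rfl⟩

theorem Len.mul {g h : K} {a b : ℕ} (h1 : Len g a) (h2 : Len h b) : Len (g * h) (a + b) := by
  obtain ⟨l, hl, rfl⟩ := h1
  obtain ⟨l', hl', rfl⟩ := h2
  exact ⟨l ++ l', by simp; omega, by simp [W]⟩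

theorem Len.map {f : K → K} {c : ℕ} (f1 : Len (f 1) 0) (f2 : ∀ X Y g a, Len (f g) a →
    Len (f (Ho.t X Y * g)) (a + c)) {g : K} {a : ℕ} (h : Len g a) : Len (f g) (c * a) := by
  obtain ⟨l, hl, rfl⟩ := h
  have : Len (f (W l)) (c * l.length) := by
    clear hl
    induction l with
    | nil => exact f1
    | cons x l ih => exact f2 x.1 x.2 _ _ ih
  obtain ⟨l', h1, h2⟩ := this
  exact ⟨l', h1.trans (Nat.mul_le_mul_left c hl), h2⟩

theorem Len.inv {g : K} {a : ℕ} (h : Len g a) : Len g⁻¹ (1 * a) :=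
  Len.map (f := fun g => g⁻¹) (by simpa using Len.one)
    (fun X Y g a h => by rw [mul_inv_rev, t_inv]; exact h.mul (.t _ _)) h

theorem short {g h : K} {a b : ℕ} (h1 : Len g a) (h2 : Len h b) (hab : a + b ≤ 26)
    (e : rh g = rh h) : g = h := by
  obtain ⟨l, hl, hw⟩ := h1.mul h2.inv
  have := W_one l (by omega) (by rw [hw, map_mul, map_inv, e, mul_inv_cancel])
  rwa [hw, mul_inv_eq_one] at this

theorem ind {P : K → Prop} (h1 : P 1) (hm : ∀ g X Y, P g → P (g * t X Y)) (g : K) : P g := by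
  let S : Subgroup K :=
    { carrier := {g | ∃ a, Len g a}
      mul_mem' := fun ⟨_, h1⟩ ⟨_, h2⟩ => ⟨_, h1.mul h2⟩
      one_mem' := ⟨_, .one⟩
      inv_mem' := fun ⟨_, h⟩ => ⟨_, h.inv⟩ }
  obtain ⟨_, l, -, rfl⟩ := PresentedGroup.generated_by _ S (fun x => ⟨_, Len.t x.1 x.2⟩) g
  induction l using List.reverseRecOn with
  | nil => exact h1
  | append_singleton l x ih =>
    have : W (l ++ [x]) = W l * t x.1 x.2 := by simp [W]
    rw [this]
    exact hm _ _ _ ih

theorem t_mul (X Y Z : Sk) : t Y Z * t X Y = t X Z :=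
  short ((Len.t _ _).mul (.t _ _)) (.t _ _) (by norm_num) (by simp only [map_mul, rh_t, ta_mul])

theorem t_self (X : Sk) : t X X = 1 :=
  short (.t _ _) .one (by norm_num) (by simp only [map_one, rh_t, ta_self])

theorem t_park {W W' U V : Sk} (Z : Sk) (h1 : W ≠ U) (h2 : W ≠ V) (h3 : W' ≠ U) (h4 : W' ≠ V) :
    t W Z * t U V * t Z W = t W' Z * t U V * t Z W' :=
  short (((Len.t _ _).mul (.t _ _)).mul (.t _ _)) (((Len.t _ _).mul (.t _ _)).mul (.t _ _))
    (by norm_num) (by simp only [map_mul, rh_t, park Z h1 h2, park Z h3 h4])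

/-- a stack different from two given ones -/
noncomputable def ot (U V : Sk) : Sk := (fresh [U, V] (by simp)).choose

theorem ot0 (U V : Sk) : ot U V ∉ [U, V] := (fresh [U, V] (by simp)).choose_spec

theorem ot1 (U V : Sk) : ot U V ≠ U := fun h => ot0 U V (by rw [h]; simp)

theorem ot2 (U V : Sk) : ot U V ≠ V := fun h => ot0 U V (by rw [h]; simp)

/-- the shift on the presented group -/
noncomputable def ps : K →* K :=
  PresentedGroup.toGroup (f := fun x => t (ot x.1 x.2) 0 * t x.1 x.2 * t 0 (ot x.1 x.2)) (by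
    rintro _ ⟨l, hl, rfl⟩
    rw [lift_word]
    obtain ⟨Z, hZ⟩ := fresh (l.map Prod.fst ++ l.map Prod.snd) (by have := hl.1; simp; omega)
    have : (l.map fun x => t (ot x.1 x.2) 0 * t x.1 x.2 * t 0 (ot x.1 x.2)).prod =
        t Z 0 * W l * t 0 Z := by
      clear hl
      induction l with
      | nil => simp [W, t_cancel]
      | cons x l ih =>
        simp only [List.map_cons, List.mem_append, List.mem_cons, not_or] at hZ
        rw [List.map_cons, List.prod_cons, ih (by simp only [List.mem_append, not_or]; tauto),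
          t_park 0 (ot1 _ _) (ot2 _ _) hZ.1.1 hZ.2.1, ← t_inv 0 Z]
        simp only [W, List.map_cons, List.prod_cons]
        group
    rw [this, W_one l hl.1 (by rw [rh_W, hl.2]), mul_one, t_cancel])

theorem ps_t {Z U V : Sk} (h1 : Z ≠ U) (h2 : Z ≠ V) : ps (t U V) = t Z 0 * t U V * t 0 Z :=
  (PresentedGroup.toGroup.of _).trans (t_park 0 (ot1 _ _) (ot2 _ _) h1 h2)

theorem rh_ps (g : K) : rh (ps g) = ph 0 (rh g) := by
  have : rh.comp ps = (ph 0).comp rh := PresentedGroup.ext fun x => by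
    change rh (ps (t x.1 x.2)) = ph 0 (rh (t x.1 x.2))
    rw [ps_t (ot1 _ _) (ot2 _ _), map_mul, map_mul, rh_t, rh_t, rh_t, park 0 (ot1 _ _) (ot2 _ _)]
  exact DFunLike.congr_fun this g

theorem Len.ps {g : K} {a : ℕ} (h : Len g a) : Len (ps g) (3 * a) :=
  Len.map (f := Ho.ps) (by simpa using Len.one) (fun X Y g a h => by
    rw [map_mul, ps_t (ot1 _ _) (ot2 _ _), add_comm]
    exact (((Len.t _ _).mul (.t _ _)).mul (.t _ _)).mul h) h

/-- moves avoiding a stack -/
def Ga (X : Sk) : Subgroup K := Subgroup.closure {g | ∃ U V, X ≠ U ∧ X ≠ V ∧ g = t U V}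

theorem conj_mem {X Z : Sk} {S : Subgroup K}
    (h : ∀ U V, X ≠ U → X ≠ V → t X Z * t U V * t Z X ∈ S) {g : K} (hg : g ∈ Ga X) :
    t X Z * g * (t X Z)⁻¹ ∈ S := by
  have : Ga X ≤ S.comap (MulAut.conj (t X Z)).toMonoidHom := by
    refine (Subgroup.closure_le _).2 ?_
    rintro _ ⟨U, V, h1, h2, rfl⟩
    have := h U V h1 h2
    rwa [← t_inv X Z] at this
  exact this hg

/-- coset representatives -/
noncomputable def r (p : I) : K := t p.1 0 * t p.1 (ot p.1 p.1) ^ p.2

theorem r_succ (X : Sk) (i : ℕ) : r (X, i + 1) = r (X, i) * t X (ot X X) := by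
  simp only [r, pow_succ, mul_assoc]

theorem rh_r (p : I) : rh (r p) p = tp 0 := by
  obtain ⟨X, i⟩ := p
  induction i with
  | zero => simpa [r, rh_t, tp] using ta_tp X 0
  | succ i ih =>
    rw [r_succ, map_mul, Perm.mul_apply, rh_t, ← bt_self, ta_bt, bt_ne (ot1 X X).symm, ih]

theorem r_conj (X : Sk) (i : ℕ) {g : K} (hg : g ∈ Ga X) :
    r (X, i) * g * (r (X, i))⁻¹ ∈ ps.range := by
  induction i generalizing g with
  | zero =>
    simp only [r, pow_zero, mul_one]
    exact conj_mem (S := ps.range) (fun U V h1 h2 => ⟨t U V, ps_t h1 h2⟩) hg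
  | succ i ih =>
    have h1 : t X (ot X X) * g * (t X (ot X X))⁻¹ ∈ Ga X := by
      refine conj_mem (fun U V h1 h2 => ?_) hg
      obtain ⟨W, hW⟩ := fresh [X, U, V] (by simp)
      simp only [List.mem_cons, List.not_mem_nil, or_false, not_or] at hW
      rw [t_park _ h1 h2 hW.2.1 hW.2.2]
      exact mul_mem (mul_mem (Subgroup.subset_closure ⟨_, _, Ne.symm hW.1, (ot1 X X).symm, rfl⟩)
        (Subgroup.subset_closure ⟨_, _, h1, h2, rfl⟩))
        (Subgroup.subset_closure ⟨_, _, (ot1 X X).symm, Ne.symm hW.1, rfl⟩)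
    have := ih h1
    rw [r_succ]
    simpa only [mul_inv_rev, mul_assoc] using this

theorem r_up {X V : Sk} (h : X ≠ V) (i : ℕ) :
    r (X, i) * t X V * (r (X, i + 1))⁻¹ ∈ ps.range := by
  have := r_conj X i (g := t (ot X X) V) (Subgroup.subset_closure ⟨_, _, (ot1 X X).symm, h, rfl⟩)
  rw [← t_mul _ X, ← t_inv X (ot X X)] at this
  rw [r_succ]
  simpa only [mul_inv_rev, mul_assoc] using this

theorem r_step (p : I) (U V : Sk) : ∃ q, r p * t U V * (r q)⁻¹ ∈ ps.range := by
  obtain ⟨X, i⟩ := p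
  by_cases h1 : X = U
  · subst h1
    by_cases h2 : X = V
    · subst h2
      exact ⟨(X, i), by rw [t_self, mul_one, mul_inv_cancel]; exact one_mem _⟩
    · exact ⟨_, r_up h2 i⟩
  · by_cases h2 : X = V
    · subst h2
      cases i with
      | zero =>
        refine ⟨(U, 0), ?_⟩
        simp only [r, pow_zero, mul_one, t_mul, mul_inv_cancel]
        exact one_mem _
      | succ i =>
        refine ⟨(X, i), ?_⟩
        have := inv_mem (r_up h1 i)
        simpa only [mul_inv_rev, mul_assoc, inv_inv, t_inv] using this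
    · exact ⟨_, r_conj X i (Subgroup.subset_closure ⟨_, _, h1, h2, rfl⟩)⟩

theorem stab {g : K} (h : rh g (tp 0) = tp 0) : ∃ k, ps k = g := by
  have r0 : r (tp 0) = 1 := by simp [r, tp, t_self]
  have key : ∀ g : K, ∃ p, g * (r p)⁻¹ ∈ ps.range := by
    refine ind ⟨tp 0, by rw [r0]; simpa using one_mem _⟩ ?_
    rintro g X Y ⟨p, hp⟩
    obtain ⟨q, hq⟩ := r_step p X Y
    refine ⟨q, ?_⟩
    have := mul_mem hp hq
    simpa only [mul_assoc, inv_mul_cancel_left] using this
  obtain ⟨p, k, hk⟩ := key g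
  have h1 : rh g p = tp 0 := by
    rw [← inv_mul_cancel_right g (r p), ← hk, map_mul, Perm.mul_apply, rh_r, rh_ps, ph_tp]
  obtain rfl : p = tp 0 := (rh g).injective (h1.trans h.symm)
  exact ⟨k, by rwa [r0, inv_one, mul_one] at hk⟩

/-- the basic transposition -/
def sg : K := t 2 0 * t 1 0 * t 0 2 * t 0 1

theorem Len.sg : Len sg 4 := (((Len.t _ _).mul (.t _ _)).mul (.t _ _)).mul (.t _ _)

theorem cases2 (p : I) : p = tp 0 ∨ p = bt 0 (tp 0) ∨ ∃ q, p = bt 0 (bt 0 q) := by
  rcases cases_I 0 p with rfl | ⟨q, rfl⟩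
  · exact Or.inl rfl
  · rcases cases_I 0 q with rfl | ⟨q, rfl⟩
    · exact Or.inr (Or.inl rfl)
    · exact Or.inr (Or.inr ⟨q, rfl⟩)

theorem two_moves {X Y : Sk} (hX : X ≠ 0) (hY : Y ≠ 0) (h : X ≠ Y) :
    ta 0 X * ta 0 Y * swap (tp 0) (bt 0 (tp 0)) = ta 0 Y * ta 0 X := by
  ext1 p
  simp only [Perm.mul_apply]
  rcases cases2 p with rfl | rfl | ⟨q, rfl⟩
  · rw [swap_apply_left, ta_bt, bt_tp hY.symm, ta_tp, ta_tp' hX, bt_tp h]
  · rw [swap_apply_right, ta_bt, bt_tp hX.symm, ta_tp, ta_tp' hY, bt_tp h.symm]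
  · rw [swap_apply_of_ne_of_ne (bt_ne_tp _ _) (fun h => bt_ne_tp _ _ (bt_inj h)), ta_bt, ta_bt,
      bt_comm Y 0, bt_comm X 0, ta_bt, ta_bt, bt_comm]

theorem rh_sg : rh sg = swap (tp 0) (bt 0 (tp 0)) := by
  have := two_moves (X := 1) (Y := 2) (by decide) (by decide) (by decide)
  rw [sg, ← t_inv 0 2, ← t_inv 0 1]
  simp only [map_mul, map_inv, rh_t]
  rw [mul_assoc, ← this]
  group

theorem sg_sq : sg * sg = 1 :=
  short (Len.sg.mul .sg) .one (by norm_num) (by rw [map_mul, rh_sg, swap_mul_self, map_one])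

theorem sg_comm {g : K} (h1 : rh g (tp 0) = tp 0) (h2 : rh g (bt 0 (tp 0)) = bt 0 (tp 0)) :
    Commute g sg := by
  obtain ⟨k, rfl⟩ := stab h1
  rw [rh_ps, ph_bt] at h2
  obtain ⟨k, rfl⟩ := stab (bt_inj h2)
  clear h1 h2
  induction k using ind with
  | h1 => simp
  | hm g X Y ih =>
    rw [map_mul, map_mul]
    refine ih.mul_left (short ((Len.t X Y).ps.ps.mul .sg) (Len.sg.mul (Len.t X Y).ps.ps)
      (by norm_num) ?_)
    rw [map_mul, map_mul, rh_sg, mul_swap_eq_swap_mul, rh_ps, ph_tp, ph_bt, rh_ps, ph_tp]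

theorem two_trans {p q : I} (h : p ≠ q) : ∃ w, rh w p = tp 0 ∧ rh w q = bt 0 (tp 0) := by
  rcases cases_I 0 (rh (r p) q) with h1 | ⟨q', h1⟩
  · exact absurd ((rh (r p)).injective ((rh_r p).trans h1.symm)) h
  · refine ⟨ps (r q') * r p, ?_, ?_⟩
    · rw [map_mul, Perm.mul_apply, rh_r, rh_ps, ph_tp]
    · rw [map_mul, Perm.mul_apply, h1, rh_ps, ph_bt, rh_r]

/-- transpositions -/
noncomputable def T (p q : I) : K :=
  if h : p = q then 1 else (two_trans h).choose⁻¹ * sg * (two_trans h).choose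

theorem T_self (p : I) : T p p = 1 := dif_pos rfl

theorem T_eq {p q : I} {w : K} (h1 : rh w p = tp 0) (h2 : rh w q = bt 0 (tp 0)) :
    T p q = w⁻¹ * sg * w := by
  have h : p ≠ q := by
    rintro rfl
    exact bt_ne_tp _ _ (h2.symm.trans h1)
  rw [T, dif_neg h]
  obtain ⟨a1, a2⟩ := (two_trans h).choose_spec
  generalize (two_trans h).choose = v at *
  have := sg_comm (g := w * v⁻¹)
    (by rw [map_mul, map_inv, Perm.mul_apply, Perm.inv_eq_iff_eq.2 a1.symm, h1])
    (by rw [map_mul, map_inv, Perm.mul_apply, Perm.inv_eq_iff_eq.2 a2.symm, h2])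
  calc v⁻¹ * sg * v = w⁻¹ * (w * v⁻¹ * sg) * v := by group
    _ = _ := by rw [this.eq]; group

theorem T_conj (g : K) (p q : I) : g * T p q * g⁻¹ = T (rh g p) (rh g q) := by
  by_cases h : p = q
  · simp [h, T_self]
  · obtain ⟨w, h1, h2⟩ := two_trans h
    rw [T_eq h1 h2, T_eq (w := w * g⁻¹) (by simpa using h1) (by simpa using h2)]
    group

theorem T_symm (p q : I) : T p q = T q p := by
  by_cases h : p = q
  · rw [h]
  · obtain ⟨w, h1, h2⟩ := two_trans h
    rw [T_eq h1 h2, T_eq (w := sg * w) (by simp [h2, rh_sg]) (by simp [h1, rh_sg])]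
    group

theorem T_sq (p q : I) : T p q * T p q = 1 := by
  by_cases h : p = q
  · simp [h, T_self]
  · obtain ⟨w, h1, h2⟩ := two_trans h
    rw [T_eq h1 h2]
    calc _ = w⁻¹ * (sg * sg) * w := by group
      _ = 1 := by rw [sg_sq]; group

theorem T_inv (p q : I) : (T p q)⁻¹ = T p q := inv_eq_of_mul_eq_one_left (T_sq p q)

theorem rh_T (p q : I) : rh (T p q) = swap p q := by
  by_cases h : p = q
  · rw [h, T_self, map_one, swap_self]; rfl
  · obtain ⟨w, h1, h2⟩ := two_trans h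
    rw [T_eq h1 h2, map_mul, map_mul, map_inv, rh_sg, ← h2, ← h1, swap_apply_apply]
    group

/-- finitary subgroups -/
def NF (F : Finset I) : Subgroup K := Subgroup.closure {g | ∃ p ∈ F, ∃ q ∈ F, g = T p q}

theorem NF_ind {F : Finset I} {P : K → Prop} (h1 : P 1)
    (hm : ∀ g, ∀ p ∈ F, ∀ q ∈ F, P g → P (g * T p q)) {g : K} (hg : g ∈ NF F) : P g := by
  induction hg using Subgroup.closure_induction_right with
  | one => exact h1
  | mul_right g _ _ h ih =>
    obtain ⟨p, hp, q, hq, rfl⟩ := h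
    exact hm g p hp q hq ih
  | mul_inv_cancel g _ _ h ih =>
    obtain ⟨p, hp, q, hq, rfl⟩ := h
    rw [T_inv]
    exact hm g p hp q hq ih

theorem NF_inj (F : Finset I) : ∀ g ∈ NF F, rh g = 1 → g = 1 := by
  induction F using Finset.induction_on with
  | empty => exact fun g hg _ => NF_ind (P := fun g => g = 1) rfl (by simp) hg
  | insert p F hp ih =>
    intro g hg h1
    have step : ∀ n ∈ NF F, ∀ q ∈ insert p F, ∀ s ∈ insert p F,
        ∃ n' ∈ NF F, ∃ q' ∈ insert p F, n * T p q * T p s = n' * T p q' := by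
      intro n hn q hq s hs
      by_cases a1 : s = p
      · exact ⟨n, hn, q, hq, by rw [a1, T_self, mul_one]⟩
      by_cases a2 : q = p
      · exact ⟨n, hn, s, hs, by rw [a2, T_self, mul_one]⟩
      by_cases a3 : s = q
      · exact ⟨n, hn, p, Finset.mem_insert_self _ _, by rw [a3, mul_assoc, T_sq, T_self]⟩
      refine ⟨n * T q s, mul_mem hn (Subgroup.subset_closure ⟨q, ?_, s, ?_, rfl⟩), q, hq, ?_⟩
      · exact (Finset.mem_insert.1 hq).resolve_left a2
      · exact (Finset.mem_insert.1 hs).resolve_left a1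
      · have := T_conj (T p q) p s
        rw [rh_T, swap_apply_left, swap_apply_of_ne_of_ne a1 a3] at this
        rw [← this]
        group
    have key : ∃ n ∈ NF F, ∃ q ∈ insert p F, g = n * T p q := by
      refine NF_ind (P := fun g => ∃ n ∈ NF F, ∃ q ∈ insert p F, g = n * T p q)
        ⟨1, one_mem _, p, Finset.mem_insert_self _ _, by simp [T_self]⟩ ?_ hg
      rintro _ a ha b hb ⟨n, hn, q, hq, rfl⟩
      by_cases a1 : a = p
      · rw [a1]; exact step n hn q hq b hb
      by_cases a2 : b = p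
      · rw [a2, T_symm a]; exact step n hn q hq a ha
      refine ⟨n * T a b, mul_mem hn (Subgroup.subset_closure ⟨a, ?_, b, ?_, rfl⟩), swap a b q,
        ?_, ?_⟩
      · exact (Finset.mem_insert.1 ha).resolve_left a1
      · exact (Finset.mem_insert.1 hb).resolve_left a2
      · rw [swap_apply_def]; split_ifs <;> assumption
      · have := T_conj (T a b) p q
        rw [rh_T, swap_apply_of_ne_of_ne (Ne.symm a1) (Ne.symm a2), T_inv] at this
        rw [← this, ← mul_assoc, ← mul_assoc, mul_assoc n (T a b), T_sq, mul_one]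
    obtain ⟨n, hn, q, -, rfl⟩ := key
    have h2 : rh n p = p := by
      refine NF_ind (P := fun n => rh n p = p) (by simp) (fun g a ha b hb h => ?_) hn
      rw [map_mul, Perm.mul_apply, rh_T, swap_apply_of_ne_of_ne (by rintro rfl; exact hp ha)
        (by rintro rfl; exact hp hb), h]
    have h3 : rh (n * T p q) q = p := by rw [map_mul, Perm.mul_apply, rh_T, swap_apply_right, h2]
    rw [h1] at h3
    obtain rfl : q = p := h3
    rw [T_self, mul_one] at h1 ⊢
    exact ih n hn h1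

theorem NF_mono {F F' : Finset I} (h : F ⊆ F') : NF F ≤ NF F' :=
  Subgroup.closure_mono fun _ ⟨p, hp, q, hq, e⟩ => ⟨p, h hp, q, h hq, e⟩

/-- the finitary subgroup -/
def NN : Subgroup K where
  carrier := {g | ∃ F, g ∈ NF F}
  one_mem' := ⟨∅, one_mem _⟩
  inv_mem' := fun ⟨F, h⟩ => ⟨F, inv_mem h⟩
  mul_mem' := fun ⟨F, h⟩ ⟨F', h'⟩ => ⟨F ∪ F', mul_mem (NF_mono Finset.subset_union_left h)
    (NF_mono Finset.subset_union_right h')⟩

theorem T_mem (p q : I) : T p q ∈ NN :=
  ⟨{p, q}, Subgroup.subset_closure ⟨p, by simp, q, by simp, rfl⟩⟩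

instance : NN.Normal where
  conj_mem n hn g := by
    obtain ⟨F, hF⟩ := hn
    refine NF_ind (P := fun n => g * n * g⁻¹ ∈ NN) (by simpa using one_mem _)
      (fun n p _ q _ h => ?_) hF
    have := mul_mem h (T_mem (rh g p) (rh g q))
    rw [← T_conj] at this
    simpa only [mul_assoc, inv_mul_cancel_left] using this

/-- generators of the quotient -/
def u (X : Sk) : K ⧸ NN := QuotientGroup.mk' NN (t 0 X)

theorem u_comm (X Y : Sk) : Commute (u X) (u Y) := by
  by_cases hX : X = 0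
  · simp [hX, u, t_self]
  by_cases hY : Y = 0
  · simp [hY, u, t_self]
  by_cases h : X = Y
  · rw [h]
  have e : t 0 X * t 0 Y * sg = t 0 Y * t 0 X :=
    short (((Len.t _ _).mul (.t _ _)).mul .sg) ((Len.t _ _).mul (.t _ _)) (by norm_num)
      (by simp only [map_mul, rh_t, rh_sg, two_moves hX hY h])
  have e2 : QuotientGroup.mk' NN sg = 1 := by
    have := T_eq (p := tp 0) (q := bt 0 (tp 0)) (w := 1) (by simp) (by simp)
    rw [inv_one, one_mul, mul_one] at this
    rw [← this]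
    exact (QuotientGroup.eq_one_iff _).2 (T_mem _ _)
  have := congrArg (QuotientGroup.mk' NN) e
  rwa [map_mul, e2, mul_one, map_mul, map_mul] at this

/-- the section of the flux -/
noncomputable def cc : (Sk → Multiplicative ℤ) →* K ⧸ NN :=
  MonoidHom.noncommPiCoprod (fun X => zpowersHom _ (u X))
    fun X Y _ _ _ => (u_comm X Y).zpow_zpow _ _

theorem ta_big (X Y S : Sk) (k : ℕ) : ∃ k' : ℕ, ta X Y (S, k + 1) = (S, k') ∧ k ≤ k' ∧
    (k' : ℤ) = k + 1 + (if S = Y then 1 else 0) - if S = X then 1 else 0 := by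
  by_cases h1 : S = X
  · subst h1
    rw [← bt_self, ta_bt]
    by_cases h2 : S = Y
    · subst h2; exact ⟨k + 1, bt_self _ _, by simp, by simp⟩
    · exact ⟨k, bt_ne h2 _, le_rfl, by simp [h2]⟩
  · rw [← bt_ne h1, ta_bt]
    by_cases h2 : S = Y
    · subst h2; exact ⟨k + 2, bt_self _ _, by simp, by simp [h1]; ring⟩
    · exact ⟨k + 1, bt_ne h2 _, by simp, by simp [h1, h2]⟩

theorem flux (g : K) : ∃ v : Sk → Multiplicative ℤ, QuotientGroup.mk' NN g = cc v ∧
    ∃ M : ℕ, ∀ S k, M ≤ k → ∃ k' : ℕ, rh g (S, k) = (S, k') ∧ (k' : ℤ) = k + (v S).toAdd := by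
  induction g using ind with
  | h1 => exact ⟨1, by simp, 0, fun S k _ => ⟨k, by simp, by simp⟩⟩
  | hm g X Y ih =>
    obtain ⟨v, h1, M, h2⟩ := ih
    refine ⟨v * (Pi.mulSingle Y (.ofAdd 1) * (Pi.mulSingle X (.ofAdd 1))⁻¹), ?_, M + 1,
      fun S k hk => ?_⟩
    · rw [← t_mul X 0 Y, ← t_inv 0 X]
      simp only [map_mul, map_inv, h1, cc, MonoidHom.noncommPiCoprod_mulSingle]
      simp [u]
    · obtain ⟨k, rfl⟩ := Nat.exists_eq_add_of_le' (show 1 ≤ k by omega)
      obtain ⟨k', a1, a2, a3⟩ := ta_big X Y S k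
      obtain ⟨k'', b1, b2⟩ := h2 S k' (by omega)
      refine ⟨k'', by rw [map_mul, Perm.mul_apply, rh_t, a1, b1], ?_⟩
      rw [b2, a3]
      simp only [Pi.mul_apply, Pi.inv_apply, toAdd_mul, toAdd_inv, Pi.mulSingle_apply]
      split_ifs <;> simp <;> ring

theorem rh_inj : Function.Injective rh := by
  rw [injective_iff_map_eq_one]
  intro g hg
  obtain ⟨v, h1, M, h2⟩ := flux g
  have : v = 1 := by
    ext S
    obtain ⟨k', a1, a2⟩ := h2 S M le_rfl
    rw [hg] at a1
    obtain rfl : M = k' := (Prod.ext_iff.1 a1).2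
    simpa using a2
  rw [this, map_one] at h1
  obtain ⟨F, hF⟩ := (QuotientGroup.eq_one_iff g).1 h1
  exact NF_inj F g hF hg

end Ho

open Ho in
theorem hough_exists : Nonempty Hough :=
  ⟨{ I := I
     dec := inferInstance
     e := ee 0
     H := rh.range
     fp := .equiv (MonoidHom.ofInjective rh_inj)
     h1 := by
       rintro _ ⟨g, rfl⟩
       exact ⟨ps g, rh_ps g⟩
     h2 := by
       rintro _ ⟨g, rfl⟩ h
       obtain ⟨k, rfl⟩ := stab h
       exact ⟨rh k, ⟨k, rfl⟩, rh_ps k⟩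
     h3 := fun p => ⟨rh (r p)⁻¹, ⟨_, rfl⟩, by
       rw [map_inv, Equiv.Perm.inv_eq_iff_eq]
       exact (rh_r p).symm⟩
     h4 := ⟨sg, rh_sg⟩ }⟩

end Vale.Agent.P193
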