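import Vale.Agent.P193.K2a

/-! The Steinberg group of a good ring is the general linear group. -/

namespace Vale.Agent.P193

namespace KT

open Matrix Function
open scoped commutatorElement

variable {R : Type} [Ring R]

/-- The parabolic subgroup. -/
abbrev PP (R : Type) [Ring R] : Subgroup (St (Fin 5) R) := SP R fun _ j => j ∉ ({4} : Set (Fin 5))

/-- The smaller parabolic subgroup. -/
abbrev P0 (R : Type) [Ring R] : Subgroup (St (Fin 5) R) :=
  SP R fun _ j => j ∉ ({0, 4} : Set (Fin 5))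

lemma P0_le : P0 R ≤ PP R := sp_mono (by grind)

/-- The extra generator. -/
def yy (R : Type) [Ring R] : St (Fin 5) R := sx (show (0 : Fin 5) ≠ 4 by decide) 1

lemma yy_conj {q : St (Fin 5) R} (hq : q ∈ P0 R) : (yy R)⁻¹ * q * yy R ∈ P0 R := by
  have := conj_mem (p := fun i j => i = 0 ∧ j = 4) (by grind)
    (inv_mem (sp_mem (show (0 : Fin 5) ≠ 4 by decide) (1 : R) ⟨rfl, rfl⟩)) hq
  rwa [inv_inv] at this

/-- Canonical lifts of vectors. -/
def LL (v : Fin 5 → R) (c : St (Fin 5) R ⧸ PP R) : Prop :=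
  ∃ p ∈ PP R, piSt p • (Pi.single 0 1 + Pi.single 4 1 : Fin 5 → R) = v ∧ c = ↑(p * yy R)

lemma LL.smul {v : Fin 5 → R} {c} (h : LL v c) {p : St (Fin 5) R} (hp : p ∈ PP R) :
    LL (piSt p • v) (p • c) := by
  obtain ⟨q, hq, rfl, rfl⟩ := h
  exact ⟨_, mul_mem hp hq, by rw [map_mul, mul_smul], by rw [mul_assoc]; rfl⟩

lemma LL.uniq (G : Good R) {v : Fin 5 → R} {c c'} (h : LL v c) (h' : LL v c') : c = c' := by
  obtain ⟨p, hp, h1, rfl⟩ := h
  obtain ⟨p', hp', h2, rfl⟩ := h'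
  have hm := mul_mem (inv_mem hp) hp'
  have h3 : piSt (p⁻¹ * p') • (Pi.single 4 1 : Fin 5 → R) = Pi.single 4 1 :=
    EA_fix (sp_push hm) rfl
  have h4 : piSt (p⁻¹ * p') • (Pi.single 0 1 : Fin 5 → R) = Pi.single 0 1 := by
    have : piSt (p⁻¹ * p') • (Pi.single 0 1 + Pi.single 4 1 : Fin 5 → R) =
        Pi.single 0 1 + Pi.single 4 1 := by
      rw [map_mul, mul_smul, h2, ← h1, map_inv, inv_smul_smul]
    rwa [smul_add, h3, add_left_inj] at this
  obtain ⟨q, hq, e⟩ := sp_lift (G.stab (A := {0, 4}) (i := 1) (j := 2) (by decide) (by simp)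
    (by simp) (g := piSt (p⁻¹ * p')) (by rintro a (rfl | rfl); exacts [h4, h3]))
  have hk := mul_mem (inv_mem (P0_le hq)) hm
  have hk1 : piSt (q⁻¹ * (p⁻¹ * p')) = 1 := by rw [map_mul, map_inv, e, inv_mul_cancel]
  have hc := (central 4 (par_ker 4 hk hk1) hk1 (yy R)).eq
  rw [QuotientGroup.eq]
  have : (p * yy R)⁻¹ * (p' * yy R) = (yy R)⁻¹ * q * (q⁻¹ * (p⁻¹ * p') * yy R) := by group
  rw [this, ← hc, ← mul_assoc]
  exact mul_mem (P0_le (yy_conj hq)) hk

lemma LL.ex {v : Fin 5 → R} {z : R} (h : z * v 1 = 1) : ∃ c, LL v c := by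
  obtain ⟨e, he, h1⟩ := orbit (A := {4}) (d := 0) (d' := 1) (q := 1) (q' := 0) (by simp) (by simp)
    (by simp) (by simp) (by simp) h (u := Pi.single 0 1 + Pi.single 4 1) (z' := 1) (by simp)
  obtain ⟨p, hp, rfl⟩ := sp_lift he
  exact ⟨_, p, hp, h1, rfl⟩

/-- Elements compatible with generic lifts. -/
def Nice (g : St (Fin 5) R) : Prop :=
  ∃ S : Finset (Matrix (Fin 5) (Fin 5) R)ˣ, ∀ v : Fin 5 → R, (∀ M ∈ S, ∃ z, z * (M • v) 1 = 1) →
    ∀ c c', LL v c → LL ((piSt g)⁻¹ • v) c' → c = g • c'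

lemma Nice.mul {g g' : St (Fin 5) R} (h : Nice g) (h' : Nice g') : Nice (g * g') := by
  classical
  obtain ⟨S, h⟩ := h
  obtain ⟨S', h'⟩ := h'
  refine ⟨insert (piSt g)⁻¹ (S ∪ S'.image (· * (piSt g)⁻¹)), fun v hv c c' h1 h2 => ?_⟩
  obtain ⟨z, hz⟩ := hv _ (Finset.mem_insert_self _ _)
  obtain ⟨d, hd⟩ := LL.ex hz
  rw [h v (fun M hM => hv M (by simp [hM])) c d h1 hd, mul_smul, h' _ (fun M hM => ?_) d c' hd ?_]
  · rwa [map_mul, _root_.mul_inv_rev, mul_smul] at h2
  · rw [← mul_smul]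
    exact hv _ (Finset.mem_insert_of_mem (Finset.mem_union_right _ (Finset.mem_image_of_mem _ hM)))

lemma nice_P (G : Good R) {p : St (Fin 5) R} (hp : p ∈ PP R) : Nice p :=
  ⟨∅, fun v _ c c' h1 h2 => h1.uniq G (by simpa using h2.smul hp)⟩

lemma nice_y (G : Good R) : Nice (yy R) := by
  refine ⟨{1}, fun v hv c c' h1 h2 => ?_⟩
  obtain ⟨z, hz⟩ := hv 1 (by simp)
  rw [one_smul] at hz
  obtain ⟨e, he, rfl⟩ := orbit (A := {0, 4}) (d := 1) (d' := 2) (q := 1) (q' := 1) (by simp)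
    (by simp) (by simp) (by simp) (by simp) hz (u := Pi.single 1 1 + Pi.single 4 1) (z' := 1)
    (by simp)
  obtain ⟨q, hq, rfl⟩ := sp_lift he
  have h3 := h1.smul (inv_mem (P0_le hq))
  have h4 := h2.smul (inv_mem (P0_le (yy_conj hq)))
  have n01 : (0 : Fin 5) ≠ 1 := by decide
  have n04 : (0 : Fin 5) ≠ 4 := by decide
  have n14 : (1 : Fin 5) ≠ 4 := by decide
  have hn : (-1 : R) = 1 := neg_eq_of_add_eq_zero_left (G.two 1)
  have m1 : sx n01 (1 : R) ∈ PP R := sp_mem _ _ (by simp)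
  have m2 : sx n01.symm (1 : R) ∈ PP R := sp_mem _ _ (by simp)
  have h5 := h3.uniq G ⟨_, mul_mem m1 m2, by
    rw [map_inv, inv_smul_smul, map_mul, mul_smul, piSt_sx, piSt_sx, el_smul, el_smul]
    ext i; fin_cases i <;> simp [G.two], rfl⟩
  have h6 := h4.uniq G ⟨_, m2, by
    rw [← mul_smul, ← mul_smul, ← map_inv, ← map_mul, ← map_mul,
      show ((yy R)⁻¹ * q * yy R)⁻¹ * (yy R)⁻¹ * q = (yy R)⁻¹ by group, yy, sx_inv, hn, piSt_sx,
      piSt_sx, el_smul, el_smul]
    ext i; fin_cases i <;> simp, rfl⟩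
  have r1 := sx_comm_mul n01.symm n04 n14 (1 : R) 1
  have r2 := sx_comm_mul n01 n14 n04 (1 : R) 1
  have r3 := (sx_commute n01 n04 (by decide) (by decide) (1 : R) 1).eq
  rw [mul_one, commutatorElement_def] at r1 r2
  have h7 : ((sx n01 1 * sx n01.symm 1 * yy R : St (Fin 5) R) : St (Fin 5) R ⧸ PP R) =
      (yy R * (sx n01.symm 1 * yy R) : St (Fin 5) R) := by
    rw [QuotientGroup.eq, yy]
    generalize sx n01 (1 : R) = a at *
    generalize sx n01.symm (1 : R) = b at *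
    generalize sx n04 (1 : R) = y at *
    generalize sx n14 (1 : R) = u at *
    have s1 : b * y = u * y * b := by rw [← r1]; group
    have s2 : a * u = y * u * a := by rw [← r2]; group
    have : a * b * y = y * (b * y) * (b⁻¹ * a * b) := by
      calc a * b * y = a * u * y * b := by rw [mul_assoc, s1]; group
        _ = y * u * (a * y) * b := by rw [s2]; group
        _ = _ := by rw [r3, s1]; group
    rw [this]
    simpa [mul_assoc] using inv_mem (mul_mem (mul_mem (inv_mem m2) m1) m2)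
  have h8 : q⁻¹ • c = yy R • ((yy R)⁻¹ * q * yy R)⁻¹ • c' := by rw [h5, h6, h7]; rfl
  rw [inv_smul_eq_iff] at h8
  rw [h8, ← mul_smul, ← mul_smul]
  congr 1
  group

lemma nice_all (G : Good R) (g : St (Fin 5) R) : Nice g := by
  let H : Subgroup (St (Fin 5) R) :=
    { carrier := {g | Nice g ∧ Nice g⁻¹}
      mul_mem' := fun h h' => ⟨h.1.mul h'.1, by rw [_root_.mul_inv_rev]; exact h'.2.mul h.2⟩
      one_mem' := ⟨nice_P G (one_mem _), nice_P G (inv_mem (one_mem _))⟩
      inv_mem' := fun h => ⟨h.2, by rw [inv_inv]; exact h.1⟩ }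
  have hP : ∀ {p}, p ∈ PP R → p ∈ H := fun hp => ⟨nice_P G hp, nice_P G (inv_mem hp)⟩
  have hy : yy R ∈ H := ⟨nice_y G, by
    rw [yy, sx_inv, neg_eq_of_add_eq_zero_left (G.two 1)]; exact nice_y G⟩
  have hc : ∀ {x y}, x ∈ H → y ∈ H → ⁅x, y⁆ ∈ H := fun hx hy =>
    mul_mem (mul_mem (mul_mem hx hy) (inv_mem hx)) (inv_mem hy)
  have h1 : ∀ i (h : i ≠ 4) (r : R), i ≠ 0 → sx h r ∈ H := fun i h r h0 => by
    rw [← mul_one r, ← sx_comm_mul h0 (by decide) h]
    exact hc (hP (sp_mem _ _ (by simp))) hy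
  refine (St.mem_of H (fun i j h r => ?_) g).1
  by_cases hj : j = 4
  · subst hj
    by_cases hi : i = 0
    · subst hi
      rw [← one_mul r, ← sx_comm_mul (j := 1) (by decide) (by decide) h]
      exact hc (hP (sp_mem _ _ (by simp))) (h1 _ _ _ (by decide))
    · exact h1 i h r hi
  · exact hP (sp_mem _ _ hj)

lemma ker_mem (G : Good R) {k : St (Fin 5) R} (hk : piSt k = 1) :
    k ∈ SP R fun i j : Fin 5 => i ≠ 4 ∧ j ≠ 4 := by
  classical
  obtain ⟨S, h⟩ := nice_all G k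
  obtain ⟨v, hv⟩ := G.generic (insert 1 S) 1
  obtain ⟨z, hz⟩ := hv 1 (by simp)
  obtain ⟨c, hc⟩ := LL.ex (by simpa using hz : z * v 1 = 1)
  have h1 := h v (fun M hM => hv M (by simp [hM])) c c hc (by simpa [hk] using hc)
  obtain ⟨p, -, -, rfl⟩ := hc
  have h2 : (p * yy R)⁻¹ * (k * (p * yy R)) ∈ PP R := QuotientGroup.eq.1 h1
  have h3 : piSt ((p * yy R)⁻¹ * (k * (p * yy R))) = 1 := by
    rw [map_mul, map_mul piSt k, hk, one_mul, map_inv, inv_mul_cancel]
  have h4 := par_ker 4 h2 h3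
  have h5 := (central 4 h4 h3 (p * yy R)).eq
  rw [mul_inv_cancel_left, mul_left_inj] at h5
  exact h5 ▸ h4

lemma comm_congr (G : Good R) {a a' b b' : St (Fin 5) R} (ha : piSt a = piSt a')
    (hb : piSt b = piSt b') : ⁅a, b⁆ = ⁅a', b'⁆ := by
  have key : ∀ {a a' : St (Fin 5) R} (b : St (Fin 5) R), piSt a = piSt a' → ⁅a, b⁆ = ⁅a', b⁆ := by
    intro a a' b h
    have h1 : piSt (a'⁻¹ * a) = 1 := by rw [map_mul, map_inv, h, inv_mul_cancel]
    have h2 := (central 4 (ker_mem G h1) h1 b).eq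
    calc ⁅a, b⁆ = a' * (a'⁻¹ * a * b) * a⁻¹ * b⁻¹ := by rw [commutatorElement_def]; group
      _ = _ := by rw [← h2, commutatorElement_def]; group
  rw [key b ha, ← commutatorElement_inv, key a' hb, commutatorElement_inv]

/-- Corner maps on the Steinberg group. -/
def ioS {s t : R} (h : t * s = 1) : St (Fin 5) R →* St (Fin 5) R :=
  sm (fun r => s * r * t) (fun _ _ => by rw [mul_add, add_mul]) fun r r' => by
    calc s * (r * r') * t = s * r * (t * s) * r' * t := by rw [h]; simp only [mul_assoc, one_mul]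
      _ = _ := by simp only [mul_assoc]

lemma ioS_ker (G : Good R) {s t s' t' : R} (h : t * s = 1) (h' : t' * s' = 1) (h1 : t * s' = 0)
    (h2 : t' * s = 0) (h3 : s * t + s' * t' = 1) {k : St (Fin 5) R} (hk : piSt k = 1) :
    ioS h k = k := by
  have b : ∀ {t s c : R}, t * s = c → ∀ x, t * (s * x) = c * x := fun h x => by
    rw [← mul_assoc, h]
  obtain ⟨u, v, huv, hs⟩ : ∃ u v : Fin 5 → R, (∀ j l, v j * u l = if j = l then 1 else 0) ∧
      u 0 * v 0 + u 1 * v 1 + u 2 * v 2 + u 3 * v 3 + u 4 * v 4 = 1 := by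
    refine ⟨![s * s, s * s', s' * s, s' * s' * s, s' * s' * s'],
      ![t * t, t' * t, t * t', t * t' * t', t' * t' * t'], fun j l => ?_, ?_⟩
    · fin_cases j <;> fin_cases l <;> simp [mul_assoc, b h, b h', b h1, b h2, h, h', h1, h2]
    · calc _ = s * (s * t + s' * t') * t + s' * (s * t + s' * (s * t + s' * t') * t') * t' := by
            simp [mul_add, add_mul, mul_assoc, add_assoc]
        _ = 1 := by simp only [h3, mul_one]
  let W : (Matrix (Fin 5) (Fin 5) R)ˣ :=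
    { val := of fun i j => if j = 4 then (if i = 4 then v 4 else s' * v i) else if i = j then s else 0
      inv := of fun i j => if i = 4 then (if j = 4 then u 4 else u j * t') else if i = j then t else 0
      val_inv := by
        ext i j
        fin_cases i <;> fin_cases j <;>
          simp [mul_apply, Fin.sum_univ_five, mul_assoc, b (huv _ _), huv, h3]
      inv_val := by
        ext i j
        fin_cases i <;> fin_cases j <;>
          simp [mul_apply, Fin.sum_univ_five, mul_assoc, b h', b h1, h, h2, hs] }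
  have hW : ∀ i j (hij : i ≠ j) (r : R), i ≠ 4 → j ≠ 4 → W * el hij r * W⁻¹ = el hij (s * r * t) := by
    intro i j hij r hi hj
    have e1 : W.1 *ᵥ Pi.single i r = Pi.single i (s * r) := by
      ext a; by_cases ha : a = i <;> simp [W, hi, ha]
    have e2 : Pi.single j 1 ᵥ* W⁻¹.1 = Pi.single j t := by
      ext a
      rw [single_one_vecMul]
      show (if j = 4 then _ else if j = a then t else 0) = _
      rw [if_neg hj, Pi.single_apply]
      simp only [eq_comm]
    ext1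
    rw [Units.val_mul, Units.val_mul, el_val, el_val, mul_add, add_mul, mul_one, Units.mul_inv,
      ← mul_one r, ← vv_single, mul_vecMulVec, vecMulVec_mul, e1, e2, vv_single, mul_one]
  obtain ⟨w, hw⟩ := pi_surj G (show (0 : Fin 5) ≠ 1 by decide) W
  have key : ∀ i j (hij : i ≠ j) (r : R), i ≠ 4 → j ≠ 4 →
      piSt ((MulAut.conj w).toMonoidHom (sx hij r)) = piSt (ioS h (sx hij r)) := by
    intro i j hij r hi hj
    rw [ioS, sm_sx, piSt_sx, ← hW i j hij r hi hj, ← hw, ← piSt_sx]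
    simp
  have e : (MulAut.conj w).toMonoidHom k = ioS h k := by
    refine MonoidHom.eqOn_closure ?_ (ker_mem G hk)
    rintro _ ⟨i, j, hij, r, ⟨hi, hj⟩, rfl⟩
    obtain ⟨m, m1, m2, m3⟩ : ∃ m : Fin 5, i ≠ m ∧ m ≠ j ∧ m ≠ 4 := by
      clear key hW; revert i j; decide
    rw [← mul_one r, ← sx_comm_mul m1 m2 hij, map_commutatorElement, map_commutatorElement]
    exact comm_congr G (key _ _ _ _ hi m3) (key _ _ _ _ m3 hj)
  rw [← e]
  simp [(central 4 (ker_mem G hk) hk w).eq]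

lemma ioS_comm (G : Good R) (g g' : St (Fin 5) R) : Commute (ioS G.h11 g) (ioS G.h22 g') := by
  have z1 : ∀ a b : R, G.s1 * a * G.t1 * (G.s2 * b * G.t2) = 0 := fun a b => by
    simp [mul_assoc, ← mul_assoc G.t1, G.h12]
  have z2 : ∀ a b : R, G.s2 * a * G.t2 * (G.s1 * b * G.t1) = 0 := fun a b => by
    simp [mul_assoc, ← mul_assoc G.t2, G.h21]
  refine Subgroup.mem_centralizer_singleton_iff.1
    (St.mem_of ((Subgroup.centralizer {ioS G.h22 g'}).comap (ioS G.h11)) (fun i j hij r => ?_) g)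
  refine Subgroup.mem_centralizer_singleton_iff.2 (Subgroup.mem_centralizer_singleton_iff.1
    (St.mem_of ((Subgroup.centralizer {ioS G.h11 (sx hij r)}).comap (ioS G.h22))
      (fun k l hkl r' => Subgroup.mem_centralizer_singleton_iff.2 (Commute.eq (.symm ?_))) g')).symm
  by_cases hne : j = k ∧ i = l
  · obtain ⟨rfl, rfl⟩ := hne
    obtain ⟨m, m1, m2⟩ : ∃ m : Fin 5, i ≠ m ∧ m ≠ j := by clear hkl; revert i j; decide
    rw [← mul_one r, ← sx_comm_mul m1 m2 hij, map_commutatorElement]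
    simp only [ioS, sm_sx]
    exact comm_commutator (comm0 _ _ (fun e => m2 e.1) (z1 _ _) (z2 _ _))
      (comm0 _ _ (fun e => m1 e.2.symm) (z1 _ _) (z2 _ _))
  · simp only [ioS, sm_sx]
    exact comm0 _ _ hne (z1 _ _) (z2 _ _)

end KT

open KT in
theorem piSt_inj {R : Type} [Ring R] (G : Good R) :
    Function.Injective (piSt : St (Fin 5) R →* _) := by
  refine (injective_iff_map_eq_one _).2 fun k hk => ?_
  let φ : St (Fin 5) R →* St (Fin 5) R := sm G.φ (map_add _) (map_mul _)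
  have h1 : φ = ((ioS G.h11).noncommCoprod (ioS G.h22) (ioS_comm G)).comp
      ((MonoidHom.id _).prod φ) := St.hom_ext fun i j h r => by
    simp only [φ, ioS, sm_sx, MonoidHom.comp_apply, MonoidHom.prod_apply, MonoidHom.id_apply,
      MonoidHom.noncommCoprod_apply, sx_add, ← G.hφ]
  have h2 : piSt.comp φ = (Units.map (G.φ.mapMatrix : Matrix (Fin 5) (Fin 5) R →+* _).toMonoidHom).comp
      piSt := St.hom_ext fun i j h r => by
    ext1
    simp [φ, sm_sx, piSt_sx, el_val, Matrix.map_add _ (map_add G.φ)]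
  have h3 : piSt (φ k) = 1 := by simpa [hk] using DFunLike.congr_fun h2 k
  have h4 := DFunLike.congr_fun h1 k
  simp only [MonoidHom.comp_apply, MonoidHom.prod_apply, MonoidHom.id_apply,
    MonoidHom.noncommCoprod_apply] at h4
  rw [ioS_ker G G.h11 G.h22 G.h12 G.h21 G.hsum hk,
    ioS_ker G G.h22 G.h11 G.h21 G.h12 (by rw [add_comm, G.hsum]) h3] at h4
  exact right_eq_mul.1 h4

end Vale.Agent.P193
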