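import Vale.Agent.P193.GLE

/-! Subgroups of the Steinberg group. -/

namespace Vale.Agent.P193

namespace KT

open Matrix Function
open scoped commutatorElement

variable {R : Type} [Ring R] {ι : Type}

/-- Subgroups generated by root elements. -/
def SP (R : Type) [Ring R] (p : ι → ι → Prop) : Subgroup (St ι R) :=
  Subgroup.closure {g | ∃ (i j : ι) (h : i ≠ j) (r : R), p i j ∧ g = sx h r}

lemma sp_mem {p : ι → ι → Prop} {i j : ι} (h : i ≠ j) (r : R) (hp : p i j) : sx h r ∈ SP R p :=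
  Subgroup.subset_closure ⟨i, j, h, r, hp, rfl⟩

lemma sp_le {p : ι → ι → Prop} {H : Subgroup (St ι R)}
    (h : ∀ i j (hij : i ≠ j) (r : R), p i j → sx hij r ∈ H) : SP R p ≤ H :=
  (Subgroup.closure_le H).2 (by rintro _ ⟨i, j, hij, r, hp, rfl⟩; exact h i j hij r hp)

lemma sp_mono {p q : ι → ι → Prop} (h : ∀ i j, i ≠ j → p i j → q i j) : SP R p ≤ SP R q :=
  sp_le fun i j hij r hp => sp_mem hij r (h i j hij hp)

lemma sp_ind {p : ι → ι → Prop} {C : St ι R → Prop} (one : C 1)
    (gen : ∀ i j (h : i ≠ j) (r : R), p i j → C (sx h r)) (mul : ∀ x y, C x → C y → C (x * y))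
    {g : St ι R} (hg : g ∈ SP R p) : C g := by
  induction hg using Subgroup.closure_induction'' with
  | mem x hx => obtain ⟨i, j, h, r, hp, rfl⟩ := hx; exact gen i j h r hp
  | inv_mem x hx => obtain ⟨i, j, h, r, hp, rfl⟩ := hx; rw [sx_inv]; exact gen i j h _ hp
  | one => exact one
  | mul x y _ _ hx hy => exact mul x y hx hy

lemma conj_mem {p q : ι → ι → Prop}
    (H : ∀ i j k l, p i j → q k l → ¬(j = k ∧ i = l) ∧ (j = k → q i l) ∧ (i = l → q k j))
    {a c : St ι R} (ha : a ∈ SP R p) (hc : c ∈ SP R q) : a * c * a⁻¹ ∈ SP R q := by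
  revert c
  refine sp_ind (C := fun a => ∀ {c}, c ∈ SP R q → a * c * a⁻¹ ∈ SP R q) (by simp) ?_ ?_ ha
  · intro i j h r hp c hc
    refine sp_le (H := (SP R q).comap (MulAut.conj (sx h r)).toMonoidHom) ?_ hc
    intro k l h' s hq
    show sx h r * sx h' s * (sx h r)⁻¹ ∈ SP R q
    obtain ⟨h1, h2, h3⟩ := H i j k l hp hq
    have e : sx h r * sx h' s * (sx h r)⁻¹ = ⁅sx h r, sx h' s⁆ * sx h' s := by
      rw [commutatorElement_def]; group
    rw [e]
    refine mul_mem ?_ (sp_mem _ _ hq)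
    by_cases hjk : j = k
    · subst hjk
      rw [sx_comm_mul h h' fun e => h1 ⟨rfl, e⟩]
      exact sp_mem _ _ (h2 rfl)
    · by_cases hil : i = l
      · subst hil
        rw [← commutatorElement_inv, sx_comm_mul h' h (Ne.symm hjk)]
        exact inv_mem (sp_mem _ _ (h3 rfl))
      · rw [(sx_commute h h' hjk hil r s).commutator_eq]
        exact one_mem _
  · intro x y hx hy c hc
    simpa [mul_assoc] using hx (hy hc)

/-- Root subgroups. -/
def rp {i j : ι} (h : i ≠ j) : Multiplicative R →* St ι R where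
  toFun r := sx h r.toAdd
  map_one' := sx_zero h
  map_mul' _ _ := (sx_add h _ _).symm

/-- Maps induced by nonunital ring maps. -/
def sm (f : R → R) (ha : ∀ r s, f (r + s) = f r + f s) (hm : ∀ r s, f (r * s) = f r * f s) :
    St ι R →* St ι R :=
  St.lift (fun _ _ h r => sx h (f r)) (fun _ _ h r s => by rw [sx_add, ha])
    (fun _ _ _ hij hjk hik r s => by rw [sx_comm_mul hij hjk hik, hm])
    fun _ _ _ _ hij hkl hjk hil _ _ => sx_commute hij hkl hjk hil _ _

lemma sm_sx (f : R → R) (ha hm) {i j : ι} (h : i ≠ j) (r : R) : sm f ha hm (sx h r) = sx h (f r) :=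
  St.lift_sx _ _ _ _ h r

lemma comm0 {i j k l : ι} (h : i ≠ j) (h' : k ≠ l) (hne : ¬(j = k ∧ i = l)) {a b : R}
    (hab : a * b = 0) (hba : b * a = 0) : Commute (sx h a) (sx h' b) := by
  by_cases hjk : j = k
  · subst hjk
    rw [← commutatorElement_eq_one_iff_commute, sx_comm_mul h h' fun e => hne ⟨rfl, e⟩, hab, sx_zero]
  · by_cases hil : i = l
    · subst hil
      symm
      rw [← commutatorElement_eq_one_iff_commute, sx_comm_mul h' h (Ne.symm hjk), hba, sx_zero]
    · exact sx_commute h h' hjk hil _ _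

lemma comm_commutator {Γ : Type*} [Group Γ] {x y z : Γ} (h1 : Commute x z) (h2 : Commute y z) :
    Commute ⁅x, y⁆ z := ((h1.mul_left h2).mul_left h1.inv_left).mul_left h2.inv_left

variable [Fintype ι] [DecidableEq ι]

lemma ab_inj {K : Type} [Fintype K] [DecidableEq K] (a b : K → ι) (hab : ∀ k k', a k ≠ b k')
    (hinj : ∀ k k', a k = a k' → b k = b k' → k = k') {c : St ι R}
    (hc : c ∈ SP R fun i j => ∃ k, a k = i ∧ b k = j) (h : piSt c = 1) : c = 1 := by
  let Φ := MonoidHom.noncommPiCoprod (fun k => rp (R := R) (hab k k)) fun k k' _ x y =>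
    sx_commute _ _ (hab k' k).symm (hab k k') _ _
  have h1 : c ∈ Φ.range := sp_le (by
    rintro _ _ hij r ⟨k, rfl, rfl⟩
    exact ⟨Pi.mulSingle k (Multiplicative.ofAdd r), MonoidHom.noncommPiCoprod_mulSingle _ _ _⟩) hc
  obtain ⟨w, rfl⟩ := h1
  have h2 : ∀ w, (piSt (Φ w)).1 = 1 + ∑ k, single (a k) (b k) (w k).toAdd := fun w => by
    induction w using Pi.mulSingle_induction with
    | one => simp
    | mul f g hf hg =>
      rw [map_mul, map_mul, Units.val_mul, hf, hg, add_mul, one_mul, mul_add, mul_one,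
        Finset.sum_mul_sum]
      simp only [single_mul_single_of_ne _ _ _ _ (hab _ _).symm, Finset.sum_const_zero, add_zero,
        Pi.mul_apply, toAdd_mul, single_add, Finset.sum_add_distrib]
      abel
    | mulSingle k m =>
      rw [show Φ (Pi.mulSingle k m) = _ from MonoidHom.noncommPiCoprod_mulSingle _ _ _,
        Finset.sum_eq_single k
        (fun k' _ hk => by simp [hk]) (by simp), Pi.mulSingle_eq_same]
      exact congrArg Units.val (piSt_sx _ _)
  have h3 : w = 1 := funext fun k => by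
    have := h2 w
    rw [h, Units.val_one, left_eq_add] at this
    have := congrFun (congrFun this (a k)) (b k)
    rw [Matrix.sum_apply, Finset.sum_eq_single k (fun k' _ hk => single_apply_of_ne _ _ _ _ _
      fun e => hk (hinj _ _ e.1 e.2)) (by simp), single_apply_same] at this
    exact this
  rw [h3, map_one]

lemma row_inj (o : ι) {c : St ι R} (hc : c ∈ SP R fun i _ => i = o) (h : piSt c = 1) : c = 1 :=
  ab_inj (K := {j // o ≠ j}) (fun _ => o) Subtype.val (fun _ k => k.2) (fun _ _ _ => Subtype.ext)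
    (sp_mono (fun i j hij hi => ⟨⟨j, hi ▸ hij⟩, hi.symm, rfl⟩) hc) h

lemma col_inj (o : ι) {c : St ι R} (hc : c ∈ SP R fun _ j => j = o) (h : piSt c = 1) : c = 1 :=
  ab_inj (K := {j // j ≠ o}) Subtype.val (fun _ => o) (fun k _ => k.2)
    (fun _ _ e _ => Subtype.ext e)
    (sp_mono (fun i j hij hj => ⟨⟨i, hj ▸ hij⟩, rfl, hj.symm⟩) hc) h

lemma row_fix {p : ι → ι → Prop} {o : ι} (hp : ∀ i j, p i j → i ≠ o) {a : St ι R}
    (ha : a ∈ SP R p) : (piSt a).1.row o = (1 : Matrix ι ι R).row o := by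
  refine sp_ind (C := fun a => (piSt a).1.row o = (1 : Matrix ι ι R).row o) (by simp)
    (fun i j h r hi => ?_) (fun x y hx hy => ?_) ha
  · ext k
    simp [piSt_sx, el_val, single_apply_of_row_ne (hp i j hi)]
  · rw [map_mul, Units.val_mul, ← single_one_vecMul, ← vecMul_vecMul, single_one_vecMul, hx,
      ← single_one_vecMul, vecMul_one, single_one_vecMul, hy, ← single_one_vecMul, vecMul_one]

lemma central (o : ι) {k : St ι R} (hk : k ∈ SP R fun i j => i ≠ o ∧ j ≠ o) (h : piSt k = 1)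
    (g : St ι R) : Commute g k := by
  have h1 : ∀ c ∈ SP R fun i _ => i = o, Commute c k := fun c hc => by
    have := row_inj o (mul_mem (conj_mem (by grind) hk hc) (inv_mem hc)) (by simp [h])
    exact (commutatorElement_eq_one_iff_commute.1 this).symm
  have h2 : ∀ c ∈ SP R fun _ j => j = o, Commute c k := fun c hc => by
    have := col_inj o (mul_mem (conj_mem (by grind) hk hc) (inv_mem hc)) (by simp [h])
    exact (commutatorElement_eq_one_iff_commute.1 this).symm
  refine Subgroup.mem_centralizer_singleton_iff.1 (St.mem_of _ (fun i j hij r => ?_) g)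
  rw [Subgroup.mem_centralizer_singleton_iff]
  by_cases hi : i = o
  · exact h1 _ (sp_mem _ _ hi)
  · by_cases hj : j = o
    · exact h2 _ (sp_mem _ _ hj)
    · rw [← mul_one r, ← sx_comm_mul hi (Ne.symm hj) hij]
      exact comm_commutator (h2 _ (sp_mem _ _ rfl)) (h1 _ (sp_mem _ _ rfl))

lemma par_ker (o : ι) {p : St ι R} (hp : p ∈ SP R fun _ j => j ∉ ({o} : Set ι)) (h : piSt p = 1) :
    p ∈ SP R fun i j => i ≠ o ∧ j ≠ o := by
  obtain ⟨a, ha, ρ, hρ, rfl⟩ : ∃ a ∈ SP R fun i j => i ≠ o ∧ j ≠ o,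
      ∃ ρ ∈ SP R fun i _ => i = o, p = a * ρ := by
    refine sp_ind (C := fun p => ∃ a ∈ SP R fun i j => i ≠ o ∧ j ≠ o,
      ∃ ρ ∈ SP R fun i _ => i = o, p = a * ρ) ⟨1, one_mem _, 1, one_mem _, by simp⟩
      (fun i j hij r hj => ?_) ?_ hp
    · by_cases hi : i = o
      · exact ⟨1, one_mem _, _, sp_mem hij r hi, by simp⟩
      · exact ⟨_, sp_mem hij r ⟨hi, hj⟩, 1, one_mem _, by simp⟩
    · rintro _ _ ⟨a, ha, ρ, hρ, rfl⟩ ⟨a', ha', ρ', hρ', rfl⟩
      exact ⟨_, mul_mem ha ha', _, mul_mem (conj_mem (by grind) (inv_mem ha') hρ) hρ', by group⟩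
  have e : piSt ρ = piSt a⁻¹ := by rw [map_inv, eq_inv_iff_mul_eq_one, mul_eq_one_comm, ← map_mul, h]
  have : piSt ρ = 1 := Units.ext (Matrix.ext_row fun i => by
    by_cases hi : i = o
    · rw [e, hi]; exact row_fix (fun _ _ h => h.1) (inv_mem ha)
    · exact row_fix (fun _ _ h e => hi (e.symm.trans h)) hρ)
  rw [row_inj o hρ this, mul_one]
  exact ha

lemma sp_lift {A : Set ι} {e : (Matrix ι ι R)ˣ} (he : e ∈ EA R A) :
    ∃ p ∈ SP R fun _ j => j ∉ A, piSt p = e := by
  refine (Subgroup.closure_le ((SP R fun _ j => j ∉ A).map piSt)).2 ?_ he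
  rintro _ ⟨i, j, h, r, hj, rfl⟩
  exact ⟨_, sp_mem h r hj, piSt_sx h r⟩

lemma sp_push {A : Set ι} {p : St ι R} (hp : p ∈ SP R fun _ j => j ∉ A) : piSt p ∈ EA R A :=
  sp_le (H := (EA R A).comap piSt) (fun i j h r hj => by
    rw [Subgroup.mem_comap, piSt_sx]; exact el_mem h r hj) hp

lemma pi_surj (G : Good R) {i j : ι} (h : i ≠ j) : Surjective (piSt : St ι R → _) := fun g =>
  let ⟨p, _, e⟩ := sp_lift (G.stab (A := ∅) h (by simp) (by simp) (g := g) (by simp))
  ⟨p, e⟩

end KT

end Vale.Agent.P193
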