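import Vale.Agent.P193.Red

/-! The Steinberg group of rank five over a finitely presented algebra is finitely presented. -/

namespace Vale.Agent.P193

open scoped commutatorElement

namespace SF

section
variable {Γ : Type*} [Group Γ]

theorem idI {A B C D E : Γ} (hD : ⁅A, B⁆ = D) (hE : ⁅B, C⁆ = E) (h1 : Commute A C)
    (h2 : Commute D E) (h3 : Commute E C) : ⁅A, E⁆ = ⁅D, C⁆ := by
  have a1 : A * B * A⁻¹ = D * B := by rw [← hD, commutatorElement_def]; group
  have a2 : B * C * B⁻¹ = E * C := by rw [← hE, commutatorElement_def]; group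
  have a3 : A * C * A⁻¹ = C := by rw [h1.eq]; group
  have a4 : A * E * A⁻¹ = D * (B * C * B⁻¹) * D⁻¹ * C⁻¹ := by
    calc A * E * A⁻¹ = (A * B * A⁻¹) * (A * C * A⁻¹) * (A * B * A⁻¹)⁻¹ * (A * C * A⁻¹)⁻¹ := by
          rw [← hE, commutatorElement_def]; group
      _ = _ := by rw [a1, a3]; group
  have a5 : Commute E ⁅D, C⁆ := by
    rw [commutatorElement_def]
    exact ((h2.symm.mul_right h3).mul_right h2.symm.inv_right).mul_right h3.inv_right
  calc ⁅A, E⁆ = A * E * A⁻¹ * E⁻¹ := rfl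
    _ = D * E * C * D⁻¹ * C⁻¹ * E⁻¹ := by rw [a4, a2]; group
    _ = E * ⁅D, C⁆ * E⁻¹ := by rw [h2.eq, commutatorElement_def]; group
    _ = ⁅D, C⁆ := by rw [a5.eq]; group

theorem comm_comm {A B C : Γ} (h1 : Commute A B) (h2 : Commute A C) : Commute A ⁅B, C⁆ := by
  rw [commutatorElement_def]
  exact ((h1.mul_right h2).mul_right h1.inv_right).mul_right h2.inv_right

theorem comm_mul_left {A B C : Γ} (h : Commute A ⁅B, C⁆) : ⁅A * B, C⁆ = ⁅B, C⁆ * ⁅A, C⁆ := by
  calc ⁅A * B, C⁆ = A * ⁅B, C⁆ * A⁻¹ * ⁅A, C⁆ := by simp only [commutatorElement_def]; group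
    _ = _ := by rw [h.eq]; group

theorem comm_mul_right {A B C : Γ} (h : Commute B ⁅A, C⁆) : ⁅A, B * C⁆ = ⁅A, B⁆ * ⁅A, C⁆ := by
  calc ⁅A, B * C⁆ = ⁅A, B⁆ * (B * ⁅A, C⁆ * B⁻¹) := by simp only [commutatorElement_def]; group
    _ = _ := by rw [h.eq]; group

theorem exists_add {X : Type} (g : List X → Γ) (hc : ∀ a b, Commute (g a) (g b))
    (h2 : ∀ a, g a * g a = 1) :
    ∃ f : FA X → Γ, f 0 = 1 ∧ (∀ a b, f (a + b) = f a * f b) ∧ ∀ l, f (wd l) = g l := by
  let K := Subgroup.closure (Set.range g)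
  haveI : IsMulCommutative K := Subgroup.isMulCommutative_closure (by
    rintro _ ⟨a, rfl⟩ _ ⟨b, rfl⟩; exact hc a b)
  letI : CommGroup K := { mul_comm := fun a b => IsMulCommutative.is_comm.comm a b }
  let k : List X → K := fun l => ⟨g l, Subgroup.subset_closure ⟨l, rfl⟩⟩
  let z : FreeMonoid X → (ZMod 2 →+ Additive K) := fun m =>
    ZMod.lift 2 ⟨zmultiplesHom _ (Additive.ofMul (k m.toList)), by
      change Additive.ofMul (k m.toList ^ (2 : ℤ)) = Additive.ofMul 1
      congr 1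
      rw [zpow_two]
      exact Subtype.ext (h2 _)⟩
  let F : FA X →+ Additive K := (Finsupp.liftAddHom z).comp
    MonoidAlgebra.coeffAddEquiv.toAddMonoidHom
  refine ⟨fun w => (Additive.toMul (F w)).1, by simp, fun a b => by simp, fun l => ?_⟩
  have : F (wd l) = Additive.ofMul (k l) := by
    have h1 : z (FreeMonoid.ofList l) ((1 : ℤ) : ZMod 2) = Additive.ofMul (k l) := by
      simp only [z]
      rw [ZMod.lift_coe]
      simp
    rw [← h1]
    simp [F, wd]
  simp [this, k]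

end

theorem fresh (i j k l : Fin 5) : ∃ q, q ≠ i ∧ q ≠ j ∧ q ≠ k ∧ q ≠ l := by
  revert i j k l; decide

/-- an auxiliary index -/
noncomputable def pp (i j : Fin 5) : Fin 5 := (fresh i j i j).choose

theorem pp1 (i j : Fin 5) : pp i j ≠ i := (fresh i j i j).choose_spec.1
theorem pp2 (i j : Fin 5) : pp i j ≠ j := (fresh i j i j).choose_spec.2.1

variable {X : Type} {Γ : Type*} [Group Γ]

/-- monomial elements -/
noncomputable def MM (y : Fin 5 → Fin 5 → Option X → Γ) : List X → Fin 5 → Fin 5 → Γ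
  | [], i, j => y i j none
  | x :: m, i, j => ⁅y i (pp i j) (some x), MM y m (pp i j) j⁆

/-- the finite set of relations -/
structure Rl (y : Fin 5 → Fin 5 → Option X → Γ) : Prop where
  r1 : ∀ i j k l a b, i ≠ j → k ≠ l → j ≠ k → i ≠ l → Commute (y i j a) (y k l b)
  r2 : ∀ i j k a, i ≠ j → j ≠ k → i ≠ k → ⁅y i j a, y j k none⁆ = y i k a
  r3 : ∀ i j k a, i ≠ j → j ≠ k → i ≠ k → ⁅y i j none, y j k a⁆ = y i k a
  r4 : ∀ i j, i ≠ j → y i j none * y i j none = 1

variable {y : Fin 5 → Fin 5 → Option X → Γ}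

/-- independence of the auxiliary index -/
def PX (y : Fin 5 → Fin 5 → Option X → Γ) (m : List X) : Prop :=
  ∀ x i j k, i ≠ j → j ≠ k → i ≠ k → ⁅y i j (some x), MM y m j k⁆ = MM y (x :: m) i k

/-- the unit relation -/
def P1 (y : Fin 5 → Fin 5 → Option X → Γ) (m : List X) : Prop :=
  ∀ i j k, i ≠ j → j ≠ k → i ≠ k → ⁅y i j none, MM y m j k⁆ = MM y m i k

theorem C0 (h : Rl y) {N : ℕ} (H : ∀ m, m.length < N → PX y m) (b : List X) (hb : b.length ≤ N) :
    ∀ o i j k l, i ≠ j → k ≠ l → j ≠ k → i ≠ l → Commute (y i j o) (MM y b k l) := by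
  induction b with
  | nil => exact fun o i j k l => h.r1 i j k l o none
  | cons x b ih =>
    intro o i j k l h1 h2 h3 h4
    obtain ⟨q, q1, q2, q3, q4⟩ := fresh i j k l
    rw [← H b hb x k q l q3.symm q4 h2]
    exact comm_comm (h.r1 _ _ _ _ _ _ h1 q3.symm h3 q1.symm)
      (ih (Nat.le_of_succ_le hb) o i j q l h1 q4 q2.symm h4)

theorem C1 (h : Rl y) {N : ℕ} (H : ∀ m, m.length < N → PX y m) (b : List X) (hb : b.length ≤ N)
    (a : List X) (ha : a.length ≤ N) :
    ∀ i j k l, i ≠ j → k ≠ l → j ≠ k → i ≠ l → Commute (MM y a i j) (MM y b k l) := by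
  induction a with
  | nil => exact C0 h H b hb none
  | cons x a ih =>
    intro i j k l h1 h2 h3 h4
    obtain ⟨q, q1, q2, q3, q4⟩ := fresh i j k l
    rw [← H a ha x i q j q1.symm q2 h1]
    exact (comm_comm (C0 h H b hb _ i q k l q1.symm h2 q3 h4).symm
      (ih (Nat.le_of_succ_le ha) q j k l q2 h2 h3 q4).symm).symm

theorem HN (h : Rl y) (N : ℕ) :
    (∀ m, m.length < N → PX y m) ∧ ∀ m, m.length ≤ N → P1 y m := by
  induction N with
  | zero =>
    refine ⟨fun m hm => absurd hm (Nat.not_lt_zero _), fun m hm => ?_⟩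
    obtain rfl := List.length_eq_zero_iff.1 (Nat.le_zero.1 hm)
    exact fun i j k => h.r3 i j k none
  | succ N ih =>
    have H : ∀ m, m.length < N + 1 → PX y m := by
      intro m hm x i j k h1 h2 h3
      have hm' := Nat.le_of_lt_succ hm
      by_cases hj : j = pp i k
      · subst hj; rfl
      · exact idI (h.r2 i j (pp i k) (some x) h1 hj (pp1 i k).symm)
          (ih.2 m hm' j (pp i k) k hj (pp2 i k) h2)
          (C0 h ih.1 m hm' _ _ _ _ _ h1 (pp2 i k) hj h3)
          (C0 h ih.1 m hm' _ _ _ _ _ (pp1 i k).symm h2 (Ne.symm hj) h3)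
          (C1 h ih.1 m hm' m hm' _ _ _ _ h2 (pp2 i k) (pp2 i k).symm h2)
    refine ⟨H, fun m hm => ?_⟩
    cases m with
    | nil => exact fun i j k => h.r3 i j k none
    | cons x m =>
      intro i j k h1 h2 h3
      obtain ⟨p, p1, p2, p3, -⟩ := fresh i j k k
      have hm' := Nat.le_of_succ_le hm
      rw [idI (h.r3 i j p (some x) h1 p2.symm p1.symm) (H m hm x j p k p2.symm p3 h2)
        (C0 h H m hm' _ _ _ _ _ h1 p3 p2.symm h3)
        (C0 h H _ hm _ _ _ _ _ p1.symm h2 p2 h3)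
        (C1 h H m hm' _ hm _ _ _ _ h2 p3 p3.symm h2)]
      exact H m hm x i p k p1.symm p3 h3

theorem hPX (h : Rl y) (m : List X) : PX y m := (HN h (m.length + 1)).1 m (Nat.lt_succ_self _)

theorem hP1 (h : Rl y) (m : List X) : P1 y m := (HN h m.length).2 m le_rfl

theorem hC0 (h : Rl y) (b : List X) (o : Option X) {i j k l : Fin 5} (h1 : i ≠ j) (h2 : k ≠ l)
    (h3 : j ≠ k) (h4 : i ≠ l) : Commute (y i j o) (MM y b k l) :=
  C0 h (fun m _ => hPX h m) b le_rfl o i j k l h1 h2 h3 h4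

theorem hC (h : Rl y) (a b : List X) {i j k l : Fin 5} (h1 : i ≠ j) (h2 : k ≠ l)
    (h3 : j ≠ k) (h4 : i ≠ l) : Commute (MM y a i j) (MM y b k l) :=
  C1 h (N := a.length + b.length) (fun m _ => hPX h m) b (by omega) a (by omega) i j k l h1 h2 h3 h4

theorem hP (h : Rl y) (b a : List X) : ∀ i j k, i ≠ j → j ≠ k → i ≠ k →
    ⁅MM y a i j, MM y b j k⁆ = MM y (a ++ b) i k := by
  induction a with
  | nil => exact hP1 h b
  | cons x a ih =>
    intro i j k h1 h2 h3
    obtain ⟨p, p1, p2, p3, -⟩ := fresh i j k k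
    rw [← idI (hPX h a x i p j p1.symm p2 h1) (ih p j k p2 h2 p3)
      (hC0 h _ _ p1.symm h2 p2 h3) (hC h _ _ h1 p3 p2.symm h3) (hC h _ _ p3 h2 h2.symm p3)]
    exact hPX h _ x i p k p1.symm p3 h3

theorem hsq (h : Rl y) (m : List X) {i j : Fin 5} (h1 : i ≠ j) : MM y m i j * MM y m i j = 1 := by
  obtain ⟨p, p1, p2, -⟩ := fresh i j j j
  have e := hP1 h m i p j p1.symm p2 h1
  have := comm_mul_left (A := y i p none) (B := y i p none) (C := MM y m p j)
    (by rw [e]; exact hC0 h _ _ p1.symm h1 p1 h1)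
  rw [e, h.r4 i p p1.symm, commutatorElement_one_left] at this
  exact this.symm

theorem exists_hom (h : Rl y) : ∃ ψ : St (Fin 5) (FA X) →* Γ,
    ∀ i j (hij : i ≠ j) l, ψ (sx hij (wd l)) = MM y l i j := by
  choose f f0 f1 f2 using fun (i j : Fin 5) (hij : i ≠ j) =>
    exists_add (fun l => MM y l i j) (fun a b => hC h a b hij hij hij.symm hij)
      (fun a => hsq h a hij)
  have c : ∀ i j k l hij hkl, j ≠ k → i ≠ l → ∀ r s, Commute (f i j hij r) (f k l hkl s) := by
    intro i j k l hij hkl h3 h4 r s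
    induction r using FA.ind with
    | h0 => rw [f0]; exact Commute.one_left _
    | ha a b ha hb => rw [f1]; exact ha.mul_left hb
    | hw a =>
      induction s using FA.ind with
      | h0 => rw [f0]; exact Commute.one_right _
      | ha a b ha hb => rw [f1]; exact ha.mul_right hb
      | hw b => rw [f2, f2]; exact hC h a b hij hkl h3 h4
  refine ⟨St.lift f (fun i j hij r s => (f1 i j hij r s).symm) ?_ c, fun i j hij l => by
    rw [St.lift_sx, f2]⟩
  intro i j k hij hjk hik r s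
  induction r using FA.ind with
  | h0 => rw [zero_mul, f0, f0, commutatorElement_one_left]
  | ha a b ha hb =>
    rw [add_comm a b, f1, comm_mul_left (by rw [ha]; exact c _ _ _ _ _ _ hij.symm hik _ _), ha, hb,
      ← f1, ← add_mul, add_comm]
  | hw a =>
    induction s using FA.ind with
    | h0 => rw [mul_zero, f0, f0, commutatorElement_one_right]
    | ha a b ha hb =>
      rw [f1, comm_mul_right (by rw [hb]; exact c _ _ _ _ _ _ hik.symm hjk _ _), ha, hb,
        ← f1, ← mul_add]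
    | hw b => rw [← wd_append, f2, f2, f2]; exact hP h b a i j k hij hjk hik

/-- generators -/
abbrev Gen (X : Type) : Type := {p : Fin 5 × Fin 5 // p.1 ≠ p.2} × Option X

/-- free generators -/
def Y (i j : Fin 5) (o : Option X) : FreeGroup (Gen X) :=
  if h : i ≠ j then FreeGroup.of (⟨(i, j), h⟩, o) else 1

/-- relators -/
def rels (X : Type) : Set (FreeGroup (Gen X)) :=
  Set.range (fun t : Fin 5 × Fin 5 × Fin 5 × Fin 5 × Option X × Option X =>
    if t.1 ≠ t.2.1 ∧ t.2.2.1 ≠ t.2.2.2.1 ∧ t.2.1 ≠ t.2.2.1 ∧ t.1 ≠ t.2.2.2.1 then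
      ⁅Y t.1 t.2.1 t.2.2.2.2.1, Y t.2.2.1 t.2.2.2.1 t.2.2.2.2.2⁆ else 1) ∪
  Set.range (fun t : Fin 5 × Fin 5 × Fin 5 × Option X =>
    if t.1 ≠ t.2.1 ∧ t.2.1 ≠ t.2.2.1 ∧ t.1 ≠ t.2.2.1 then
      ⁅Y t.1 t.2.1 t.2.2.2, Y t.2.1 t.2.2.1 (none : Option X)⁆ * (Y t.1 t.2.2.1 t.2.2.2)⁻¹ else 1) ∪
  Set.range (fun t : Fin 5 × Fin 5 × Fin 5 × Option X =>
    if t.1 ≠ t.2.1 ∧ t.2.1 ≠ t.2.2.1 ∧ t.1 ≠ t.2.2.1 then
      ⁅Y t.1 t.2.1 (none : Option X), Y t.2.1 t.2.2.1 t.2.2.2⁆ * (Y t.1 t.2.2.1 t.2.2.2)⁻¹ else 1) ∪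
  Set.range (fun t : Fin 5 × Fin 5 => Y t.1 t.2 (none : Option X) * Y t.1 t.2 none)

theorem rl_rels : Rl fun i j (o : Option X) => PresentedGroup.mk (rels X) (Y i j o) where
  r1 i j k l a b h1 h2 h3 h4 := by
    rw [← commutatorElement_eq_one_iff_commute, ← map_commutatorElement]
    exact PresentedGroup.one_of_mem
      (Or.inl (Or.inl (Or.inl ⟨(i, j, k, l, a, b), if_pos ⟨h1, h2, h3, h4⟩⟩)))
  r2 i j k a h1 h2 h3 := by
    rw [← map_commutatorElement]
    exact PresentedGroup.mk_eq_mk_of_mul_inv_mem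
      (Or.inl (Or.inl (Or.inr ⟨(i, j, k, a), if_pos ⟨h1, h2, h3⟩⟩)))
  r3 i j k a h1 h2 h3 := by
    rw [← map_commutatorElement]
    exact PresentedGroup.mk_eq_mk_of_mul_inv_mem
      (Or.inl (Or.inr ⟨(i, j, k, a), if_pos ⟨h1, h2, h3⟩⟩))
  r4 i j _ := by
    rw [← map_mul]
    exact PresentedGroup.one_of_mem (Or.inr ⟨(i, j), rfl⟩)

/-- value of a letter -/
noncomputable def vl (o : Option X) : FA X := wd o.toList

theorem St_free [Finite X] : Group.IsFinitelyPresented (St (Fin 5) (FA X)) := by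
  haveI : Finite (rels X) := Set.Finite.to_subtype
    ((((Set.finite_range _).union (Set.finite_range _)).union (Set.finite_range _)).union
      (Set.finite_range _))
  obtain ⟨ψ, hψ⟩ := exists_hom (rl_rels (X := X))
  let f : Gen X → St (Fin 5) (FA X) := fun g => sx g.1.2 (vl g.2)
  have hY : ∀ i j (h : i ≠ j) o, FreeGroup.lift f (Y i j o) = sx h (vl o) := fun i j h o => by
    simp [Y, h, f]
  have v0 : vl (none : Option X) = 1 := wd_nil
  let θ : PresentedGroup (rels X) →* St (Fin 5) (FA X) := PresentedGroup.toGroup (f := f) (by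
    rintro _ (((⟨⟨i, j, k, l, a, b⟩, rfl⟩ | ⟨⟨i, j, k, a⟩, rfl⟩) | ⟨⟨i, j, k, a⟩, rfl⟩) |
      ⟨⟨i, j⟩, rfl⟩)
    · dsimp only
      split_ifs with h
      · rw [map_commutatorElement, hY _ _ h.1, hY _ _ h.2.1, commutatorElement_eq_one_iff_commute]
        exact sx_commute _ _ h.2.2.1 h.2.2.2 _ _
      · exact map_one _
    · dsimp only
      split_ifs with h
      · rw [map_mul, map_inv, map_commutatorElement, hY _ _ h.1, hY _ _ h.2.1, hY _ _ h.2.2,
          sx_comm_mul _ _ h.2.2, v0, mul_one, mul_inv_cancel]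
      · exact map_one _
    · dsimp only
      split_ifs with h
      · rw [map_mul, map_inv, map_commutatorElement, hY _ _ h.1, hY _ _ h.2.1, hY _ _ h.2.2,
          sx_comm_mul _ _ h.2.2, v0, one_mul, mul_inv_cancel]
      · exact map_one _
    · dsimp only
      by_cases h : i ≠ j
      · rw [map_mul, hY _ _ h, sx_add, FA.two, sx_zero]
      · simp [Y, h])
  have hθ : ∀ i j (h : i ≠ j) o, θ (PresentedGroup.mk (rels X) (Y i j o)) = sx h (vl o) :=
    fun i j h o => hY i j h o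
  have hM : ∀ l i j (h : i ≠ j),
      θ (MM (fun i j (o : Option X) => PresentedGroup.mk (rels X) (Y i j o)) l i j) =
        sx h (wd l) := by
    intro l
    induction l with
    | nil => exact fun i j h => hθ i j h none
    | cons x l ih =>
      intro i j h
      rw [MM, map_commutatorElement, hθ _ _ (pp1 i j).symm, ih _ _ (pp2 i j), sx_comm_mul _ _ h,
        wd_cons x l]
      rfl
  refine .equiv (MonoidHom.toMulEquiv θ ψ ?_ ?_)
  · refine PresentedGroup.ext fun g => ?_
    obtain ⟨⟨⟨i, j⟩, h⟩, o⟩ := g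
    have e : PresentedGroup.of (rels := rels X) (⟨(i, j), h⟩, o) =
      PresentedGroup.mk (rels X) (Y i j o) := by simp only [Y]; rw [dif_pos h]; rfl
    rw [MonoidHom.comp_apply, MonoidHom.id_apply, e, hθ i j h, vl, hψ]
    cases o with
    | none => rfl
    | some x => exact rl_rels.r2 i _ j _ (pp1 i j).symm (pp2 i j) h
  · refine St.hom_ext fun i j h r => ?_
    rw [MonoidHom.comp_apply, MonoidHom.id_apply]
    induction r using FA.ind with
    | h0 => simp [sx_zero]
    | ha a b ha hb => rw [← sx_add, map_mul, map_mul, ha, hb]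
    | hw l => rw [hψ, hM]

end SF

theorem St_fp {R : Type} [Ring R] (hfp : FP R) : Group.IsFinitelyPresented (St (Fin 5) R) := by
  obtain ⟨X, _, Rel, π, hfin, hsurj, hker⟩ := hfp
  haveI := SF.St_free (X := X)
  let f : St (Fin 5) (FA X) →* St (Fin 5) R := St.lift (fun _ _ h w => sx h (π w))
    (fun i j h r s => by rw [sx_add, map_add])
    (fun i j k h1 h2 h3 r s => by rw [sx_comm_mul _ _ h3, map_mul])
    (fun i j k l h1 h2 h3 h4 r s => sx_commute h1 h2 h3 h4 _ _)
  have hf : ∀ i j (h : i ≠ j) w, f (sx h w) = sx h (π w) := fun i j h w => St.lift_sx _ _ _ _ h w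
  let T : Set (St (Fin 5) (FA X)) :=
    ⋃ p : {p : Fin 5 × Fin 5 // p.1 ≠ p.2}, (fun w => sx p.2 w) '' Rel
  let N := Subgroup.normalClosure T
  have hN : ∀ w ∈ TwoSidedIdeal.span Rel, ∀ i j (h : i ≠ j), sx h w ∈ N := by
    intro w hw
    induction hw using TwoSidedIdeal.span_induction with
    | mem x hx =>
      exact fun i j h => Subgroup.subset_normalClosure (Set.mem_iUnion.2 ⟨⟨(i, j), h⟩, x, hx, rfl⟩)
    | zero => intro i j h; rw [sx_zero]; exact one_mem _
    | add x y _ _ hx hy => intro i j h; rw [← sx_add]; exact mul_mem (hx i j h) (hy i j h)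
    | neg x _ hx => intro i j h; rw [← sx_inv]; exact inv_mem (hx i j h)
    | left_absorb a x _ hx =>
      intro i j h
      rw [← sx_comm_mul (SF.pp1 i j).symm (SF.pp2 i j) h, commutatorElement_def]
      exact mul_mem (Subgroup.normalClosure_normal.conj_mem _ (hx _ _ _) _) (inv_mem (hx _ _ _))
    | right_absorb a x _ hx =>
      intro i j h
      rw [← sx_comm_mul (SF.pp1 i j).symm (SF.pp2 i j) h, commutatorElement_def, mul_assoc,
        mul_assoc]
      refine mul_mem (hx _ _ _) ?_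
      rw [← mul_assoc]
      exact Subgroup.normalClosure_normal.conj_mem _ (inv_mem (hx _ _ _)) _
  have key : ∀ i j (h : i ≠ j) w w', π w = π w' →
      QuotientGroup.mk' N (sx h w) = QuotientGroup.mk' N (sx h w') := by
    intro i j h w w' e
    refine QuotientGroup.eq.2 ?_
    rw [sx_inv, sx_add]
    exact hN _ ((hker _).1 (by rw [map_add, map_neg, e, neg_add_cancel])) i j h
  choose σ hσ using hsurj
  let g : St (Fin 5) R →* St (Fin 5) (FA X) ⧸ N :=
    St.lift (fun _ _ h r => QuotientGroup.mk' N (sx h (σ r)))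
      (fun i j h r s => by
        rw [← map_mul, sx_add]; exact key _ _ _ _ _ (by rw [map_add, hσ, hσ, hσ]))
      (fun i j k h1 h2 h3 r s => by
        rw [← map_commutatorElement, sx_comm_mul _ _ h3]
        exact key _ _ _ _ _ (by rw [map_mul, hσ, hσ, hσ]))
      (fun i j k l h1 h2 h3 h4 r s => (sx_commute h1 h2 h3 h4 _ _).map _)
  have hg : g.comp f = QuotientGroup.mk' N := St.hom_ext fun i j h w => by
    rw [MonoidHom.comp_apply, hf, St.lift_sx]
    exact key _ _ _ _ _ (hσ _)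
  refine .of_surjective f (fun z => ?_) ⟨T, Set.finite_iUnion fun p => hfin.image _, ?_⟩
  · exact St.mem_of f.range (fun i j h r => ⟨sx h (σ r), by rw [hf, hσ]⟩) z
  · refine le_antisymm (Subgroup.normalClosure_le_normal ?_) fun z hz => ?_
    · intro z hz
      obtain ⟨p, w, hw, rfl⟩ := Set.mem_iUnion.1 hz
      change f _ = 1
      rw [hf, (hker w).2 (TwoSidedIdeal.subset_span hw), sx_zero]
    · have := DFunLike.congr_fun hg z
      rw [MonoidHom.comp_apply, show f z = 1 from hz, map_one] at this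
      exact (QuotientGroup.eq_one_iff z).1 this.symm

end Vale.Agent.P193
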