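import Vale.Agent.P193.K2
import Vale.Agent.P193.StFP

/-! From a good finitely presented ring to a finitely presented simple group. -/

namespace Vale.Agent.P193

theorem ring_to_group {R : Type} [Ring R] (G : Good R) (hfp : FP R) :
    ∃ (H : Type) (_ : Group H), Group.IsFinitelyPresented H ∧ IsSimpleGroup H ∧
      ∃ f : Rˣ →* H, Function.Injective f := by
  haveI := St_fp hfp
  exact ⟨(Matrix (Fin 5) (Fin 5) R)ˣ, inferInstance,
    .equiv (MulEquiv.ofBijective piSt ⟨piSt_inj G, KT.pi_surj G (show (0 : Fin 5) ≠ 1 by decide)⟩),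
    G.simple (a := 0) (b := 1) (c := 2) (by decide) (by decide) (by decide), dg 0, dg_inj 0⟩

end Vale.Agent.P193
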