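import Vale.Agent.P193.Defs

/-! A universal stack machine. -/

namespace Vale.Agent.P193

open Function

namespace Mc

section Micro

variable {Q K A : Type} [DecidableEq K] (kk : Q → K) (w : Q → Option A → List A)
  (nx : Q → Option A → Option Q)

/-- The stacks after one micro step. -/
def upd (q : Q) (L : K → List A) : K → List A :=
  update L (kk q) (w q (L (kk q)).head? ++ (L (kk q)).tail)

/-- Halting of a deterministic micro machine. -/
inductive MH : Option Q → (K → List A) → Prop
  | acc (L : K → List A) : MH none L
  | step (q : Q) (L : K → List A) : MH (nx q (L (kk q)).head?) (upd kk w q L) → MH (some q) L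

variable [Fintype K] [Finite Q] [Finite A] (q0 : Q) (j0 : K) (bit : Bool → A) (one : A)
  (pre suf : List A)

/-- Source state of a rule. -/
def src : Option Bool ⊕ (Q × Option A) → Option (Option Q)
  | .inl _ => none
  | .inr p => some (some p.1)

/-- Target state of a rule. -/
def tgt : Option Bool ⊕ (Q × Option A) → Option (Option Q)
  | .inl (some _) => none
  | .inl none => some (some q0)
  | .inr p => some (nx p.1 p.2)

/-- Stack symbols. -/
def sym (l : List A) : List (Option (Option Q) ⊕ Option A) := l.map fun a => .inr (some a)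

/-- The rule system of a micro machine. -/
@[reducible] def mk : Mach where
  κ := Option K
  Γ := Option (Option Q) ⊕ Option A
  Rl := Option Bool ⊕ (Q × Option A)
  fκ := inferInstance
  fΓ := inferInstance
  fR := inferInstance
  pop ρ j := match j, ρ with
    | none, ρ => [.inl (src ρ)]
    | some _, .inl _ => []
    | some j, .inr p => if j = kk p.1 then [.inr p.2] else []
  push ρ j := match j, ρ with
    | none, ρ => [.inl (tgt nx q0 ρ)]
    | some _, .inl none => []
    | some j, .inl (some b) => if j = j0 then sym [bit b] else []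
    | some j, .inr p =>
      if j = kk p.1 then sym (w p.1 p.2) ++ (if p.2.isSome then [] else [.inr none]) else []
  gen b := .inl (some b)
  go := .inl none
  gen_inj a b h := by simpa using h
  go_ne b := by simp
  j0 := some j0
  one := .inr (some one)
  pre j := match j with
    | none => [.inl none]
    | some j => if j = j0 then sym pre else []
  suf j := match j with
    | none => []
    | some j => (if j = j0 then sym suf else []) ++ [.inr none]
  acc j := match j with
    | none => [.inl (some none)]
    | some _ => []

/-- Encoding of micro configurations. -/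
def enc (s : Option (Option Q)) (L : K → List A)
    (junk : Option K → List (Option (Option Q) ⊕ Option A)) :
    Option K → List (Option (Option Q) ⊕ Option A)
  | none => .inl s :: junk none
  | some j => sym (L j) ++ .inr none :: junk (some j)

/-- The stacks after a rule. -/
def nst : Option Bool ⊕ (Q × Option A) → (K → List A) → K → List A
  | .inl none, L => L
  | .inl (some b), L => update L j0 (bit b :: L j0)
  | .inr p, L => upd kk w p.1 L

/-- Applicability of a rule. -/
def ok : Option Bool ⊕ (Q × Option A) → (K → List A) → Prop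
  | .inl _, _ => True
  | .inr p, L => p.2 = (L (kk p.1)).head?

variable {kk w nx q0 j0 bit one pre suf}

lemma step_inv (ρ : (mk kk w nx q0 j0 bit one pre suf).Rl) {rest s L junk}
    (h : app ((mk kk w nx q0 j0 bit one pre suf).pop ρ) rest = enc s L junk) :
    src ρ = s ∧ ok kk ρ L ∧ app ((mk kk w nx q0 j0 bit one pre suf).push ρ) rest =
      enc (tgt nx q0 ρ) (nst kk w j0 bit ρ L) junk := by
  have h0 := congrFun h none
  simp only [app, mk, enc, List.singleton_append, List.cons.injEq, Sum.inl.injEq] at h0
  have h1 := fun j => congrFun h (some j)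
  refine ⟨h0.1, ?_⟩
  rcases ρ with (_ | b) | ⟨q, o⟩
  · refine ⟨trivial, funext fun j => ?_⟩
    cases j with
    | none => simp [app, mk, enc, h0.2]
    | some j => exact h1 j
  · refine ⟨trivial, funext fun j => ?_⟩
    cases j with
    | none => simp [app, mk, enc, h0.2]
    | some j =>
      have := h1 j
      simp only [app, mk, enc, List.nil_append] at this
      by_cases hj : j = j0
      · subst hj; simp [app, mk, enc, nst, this, sym]
      · simp [app, mk, enc, nst, this, hj]
  · have h2 := h1 (kk q)
    simp only [app, mk, enc, if_true, List.singleton_append] at h2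
    have h3 : o = (L (kk q)).head? ∧ (if o.isSome then [] else [.inr none]) ++ rest (some (kk q)) =
        sym (L (kk q)).tail ++ .inr none :: junk (some (kk q)) := by
      generalize L (kk q) = l at h2
      cases l with
      | nil =>
        simp only [sym, List.map_nil, List.nil_append, List.cons.injEq, Sum.inr.injEq] at h2
        simp [h2.1, h2.2, sym]
      | cons a l =>
        simp only [sym, List.map_cons, List.cons_append, List.cons.injEq, Sum.inr.injEq] at h2
        simp [h2.1, h2.2, sym]
    refine ⟨h3.1, funext fun j => ?_⟩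
    cases j with
    | none => simp [app, mk, enc, h0.2]
    | some j =>
      by_cases hj : j = kk q
      · subst hj
        simp only [app, mk, enc, nst, upd, if_true, update_self, List.append_assoc, h3.2, ← h3.1]
        simp [sym]
      · have := h1 j
        simp only [app, mk, enc, if_neg hj, List.nil_append] at this
        simp [app, mk, enc, nst, upd, this, hj]

lemma step_ex (ρ : (mk kk w nx q0 j0 bit one pre suf).Rl) {L} (junk) (h : ok kk ρ L) :
    ∃ rest, app ((mk kk w nx q0 j0 bit one pre suf).pop ρ) rest = enc (src ρ) L junk := by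
  rcases ρ with b | ⟨q, o⟩
  · refine ⟨fun j => match j with
      | none => junk none
      | some j => enc none L junk (some j), funext fun j => ?_⟩
    cases j <;> rfl
  · refine ⟨fun j => match j with
      | none => junk none
      | some j => if j = kk q then (enc none L junk (some j)).tail else enc none L junk (some j),
        funext fun j => ?_⟩
    cases j with
    | none => rfl
    | some j =>
      by_cases hj : j = kk q
      · subst hj
        have h' : o = (L (kk q)).head? := h
        simp only [app, mk, enc, if_true, h']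
        cases L (kk q) <;> rfl
      · simp [app, mk, enc, hj]

lemma run_step (ρ : (mk kk w nx q0 j0 bit one pre suf).Rl) {L junk ρs c} (h : ok kk ρ L)
    (hr : (mk kk w nx q0 j0 bit one pre suf).Run ρs
      (enc (tgt nx q0 ρ) (nst kk w j0 bit ρ L) junk) c) :
    (mk kk w nx q0 j0 bit one pre suf).Run (ρ :: ρs) (enc (src ρ) L junk) c := by
  obtain ⟨rest, e⟩ := step_ex ρ junk h
  rw [← e]
  exact .cons ρ ρs rest c (by rw [(step_inv ρ e).2.2]; exact hr)

lemma run_sound {ρs c c'} (h : (mk kk w nx q0 j0 bit one pre suf).Run ρs c c')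
    (hc : (c' none).head? = some (.inl (some none))) {s L junk} (e : c = enc s L junk) :
    (∀ s', s = some s' → MH kk w nx s' L) ∧ (s = none → ∃ (u : List Bool) (ρs' : List _),
      ρs = u.map (mk kk w nx q0 j0 bit one pre suf).gen ++
        (mk kk w nx q0 j0 bit one pre suf).go :: ρs' ∧
        MH kk w nx (some q0) (update L j0 (u.reverse.map bit ++ L j0))) := by
  induction h generalizing s L with
  | nil c =>
    subst e
    have : s = some none := by simpa [enc] using hc
    subst this
    exact ⟨fun s' h => by cases h; exact .acc L, fun h => by cases h⟩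
  | cons ρ ρs rest c' _ ih =>
    obtain ⟨h1, h2, h3⟩ := step_inv ρ e
    obtain ⟨i1, i2⟩ := ih hc h3
    subst h1
    rcases ρ with (_ | b) | ⟨q, o⟩
    · exact ⟨fun s' h => (by cases h), fun _ => ⟨[], ρs, rfl, by simpa [nst] using i1 _ rfl⟩⟩
    · refine ⟨fun s' h => (by cases h), fun _ => ?_⟩
      obtain ⟨u, ρs', rfl, h4⟩ := i2 rfl
      exact ⟨b :: u, ρs', rfl, by simpa [nst] using h4⟩
    · refine ⟨fun s' h => ?_, fun h => by cases h⟩
      cases h
      have h' : o = (L (kk q)).head? := h2
      subst h'
      exact .step q L (i1 _ rfl)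

lemma run_complete {s L} (h : MH kk w nx s L) (junk) :
    ∃ ρs rest, (mk kk w nx q0 j0 bit one pre suf).Run ρs (enc (some s) L junk)
      (app (mk kk w nx q0 j0 bit one pre suf).acc rest) := by
  induction h with
  | acc L =>
    refine ⟨[], fun j => match j with
      | none => junk none
      | some j => enc none L junk (some j), ?_⟩
    have : app (mk kk w nx q0 j0 bit one pre suf).acc (fun j => match j with
      | none => junk none
      | some j => enc none L junk (some j)) = enc (some none) L junk := by
      funext j; cases j <;> rfl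
    rw [this]; exact .nil _
  | step q L _ ih =>
    obtain ⟨ρs, rest, h⟩ := ih
    exact ⟨_, rest, run_step (.inr (q, (L (kk q)).head?)) rfl h⟩

lemma run_gen (u : List Bool) {L junk ρs c}
    (h : (mk kk w nx q0 j0 bit one pre suf).Run ρs
      (enc none (update L j0 (u.reverse.map bit ++ L j0)) junk) c) :
    (mk kk w nx q0 j0 bit one pre suf).Run (u.map (mk kk w nx q0 j0 bit one pre suf).gen ++ ρs)
      (enc none L junk) c := by
  induction u generalizing L with
  | nil => simpa using h
  | cons b u ih => exact run_step (.inl (some b)) trivial (ih (by simpa [nst] using h))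

lemma start_eq (e : ℕ) (junk) : app ((mk kk w nx q0 j0 bit one pre suf).start e) junk =
    enc none (update (fun _ => []) j0 (pre ++ List.replicate e one ++ suf)) junk := by
  funext j
  cases j with
  | none => simp [app, Mach.start, mk, enc]
  | some j =>
    by_cases hj : j = j0
    · subst hj; simp [app, Mach.start, mk, enc, sym]
    · simp [app, Mach.start, mk, enc, sym, hj]

theorem univ_of (h : ∀ (e : ℕ) (u : List Bool), MH kk w nx (some q0) (update (fun _ => []) j0
      (u.reverse.map bit ++ (pre ++ List.replicate e one ++ suf))) ↔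
      ((Denumerable.ofNat Nat.Partrec.Code e).eval (bn u)).Dom) :
    (mk kk w nx q0 j0 bit one pre suf).Univ where
  sound e ρs junk rest hr := by
    obtain ⟨u, ρs', h1, h2⟩ := (run_sound hr rfl (start_eq e junk)).2 rfl
    exact ⟨u, ρs', h1, (h e u).1 (by simpa using h2)⟩
  complete e u hd := by
    obtain ⟨ρs, rest, hr⟩ := run_complete (q0 := q0) (j0 := j0) (bit := bit) (one := one)
      (pre := pre) (suf := suf) ((h e u).2 hd) fun _ => []
    refine ⟨ρs, rest, ?_⟩
    have e1 : (mk kk w nx q0 j0 bit one pre suf).start e =
        app ((mk kk w nx q0 j0 bit one pre suf).start e) fun _ => [] := by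
      funext j; simp [app]
    rw [e1, start_eq]
    exact run_gen u (run_step (.inl none) trivial (by simpa [nst, tgt] using hr))

end Micro

section Restrict

variable {Q K A : Type} [DecidableEq K] {kk : Q → K} {w : Q → Option A → List A}
  {nx : Q → Option A → Option Q} {T : Set Q}

open Classical in
/-- Restriction of the transition function to a set of states. -/
noncomputable def nxT (nx : Q → Option A → Option Q) (T : Set Q) (q : T) (o : Option A) :
    Option T := (nx q.1 o).bind fun q' => if h : q' ∈ T then some ⟨q', h⟩ else none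

lemma nxT_val (hT : ∀ q ∈ T, ∀ o, ∀ q' ∈ nx q o, q' ∈ T) (q : T) (o : Option A) :
    (nxT nx T q o).map Subtype.val = nx q.1 o := by
  unfold nxT
  cases e : nx q.1 o with
  | none => rfl
  | some q' => simp [hT q.1 q.2 o q' e]

lemma mh_restrict (hT : ∀ q ∈ T, ∀ o, ∀ q' ∈ nx q o, q' ∈ T) (s : Option T) (L : K → List A) :
    MH (fun q : T => kk q.1) (fun q => w q.1) (nxT nx T) s L ↔
      MH kk w nx (s.map Subtype.val) L := by
  constructor
  · intro h
    induction h with
    | acc L => exact .acc L
    | step q L _ ih => exact .step q.1 L (by rwa [nxT_val hT] at ih)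
  · intro h
    generalize e : s.map Subtype.val = s' at h
    induction h generalizing s with
    | acc L =>
      cases s with
      | none => exact .acc L
      | some q => cases e
    | step q L _ ih =>
      cases s with
      | none => cases e
      | some q' =>
        cases e
        exact .step q' L (ih _ (nxT_val hT _ _))

end Restrict

section TM

open Turing TM2 StateTransition

variable {K A Λ σ : Type} [DecidableEq K] (k0 : K) (M : Λ → Stmt (fun _ : K => A) Λ σ)

/-- The stack inspected by a statement. -/
def tk : Stmt (fun _ : K => A) Λ σ × σ → K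
  | (.push k _ _, _) => k
  | (.peek k _ _, _) => k
  | (.pop k _ _, _) => k
  | _ => k0

/-- The replacement of the top symbol. -/
def tw : Stmt (fun _ : K => A) Λ σ × σ → Option A → List A
  | (.push _ f _, v), o => f v :: o.toList
  | (.pop _ _ _, _), _ => []
  | _, o => o.toList

/-- The next statement. -/
def tn : Stmt (fun _ : K => A) Λ σ × σ → Option A → Option (Stmt (fun _ : K => A) Λ σ × σ)
  | (.push _ _ q, v), _ => some (q, v)
  | (.peek _ f q, v), o => some (q, f v o)
  | (.pop _ f q, v), o => some (q, f v o)
  | (.load a q, v), _ => some (q, a v)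
  | (.branch f q₁ q₂, v), _ => some (cond (f v) q₁ q₂, v)
  | (.goto f, v), _ => some (M (f v), v)
  | (.halt, _), _ => none

lemma toList_tail (l : List A) : l.head?.toList ++ l.tail = l := by cases l <;> rfl

lemma eval_step (l : Λ) (v : σ) (L : K → List A) :
    eval (step M) ⟨some l, v, L⟩ = eval (step M) (stepAux (M l) v L) :=
  reaches_eval (f := step M) (Relation.ReflTransGen.single rfl)

lemma dom_of_mh {s L} (h : MH (tk k0) tw (tn M) s L) :
    ∀ q v, s = some (q, v) → (eval (step M) (stepAux q v L)).Dom := by
  induction h with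
  | acc L => intro q v h; cases h
  | step p L _ ih =>
    intro q v h
    cases h
    cases q with
    | push k f q => simpa [upd, tk, tw, toList_tail] using ih _ _ rfl
    | peek k f q => simpa [upd, tk, tw, toList_tail] using ih _ _ rfl
    | pop k f q => simpa [upd, tk, tw, toList_tail] using ih _ _ rfl
    | load a q => simpa [upd, tk, tw, toList_tail] using ih _ _ rfl
    | branch f q₁ q₂ =>
      have := ih _ _ rfl
      simp only [upd, tk, tw, toList_tail, update_eq_self] at this
      rw [stepAux]
      revert this
      cases f v <;> exact id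
    | goto f =>
      have := ih _ _ rfl
      simp only [upd, tk, tw, toList_tail, update_eq_self] at this
      rw [stepAux, eval_step]
      exact this
    | halt => exact Part.dom_iff_mem.2 ⟨_, mem_eval.2 ⟨.refl, rfl⟩⟩

lemma mh_of_aux (q : Stmt (fun _ : K => A) Λ σ) (v : σ) (L : K → List A)
    (h : ∀ l ∈ (stepAux q v L).l,
      MH (tk k0) tw (tn M) (some (M l, (stepAux q v L).var)) (stepAux q v L).stk) :
    MH (tk k0) tw (tn M) (some (q, v)) L := by
  induction q generalizing v L with
  | push k f q ih => exact .step _ _ (by simpa [upd, tk, tw, tn, toList_tail] using ih _ _ h)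
  | peek k f q ih => exact .step _ _ (by simpa [upd, tk, tw, tn, toList_tail] using ih _ _ h)
  | pop k f q ih => exact .step _ _ (by simpa [upd, tk, tw, tn, toList_tail] using ih _ _ h)
  | load a q ih => exact .step _ _ (by simpa [upd, tk, tw, tn, toList_tail] using ih _ _ h)
  | branch f q₁ q₂ ih₁ ih₂ =>
    refine .step _ _ ?_
    simp only [upd, tk, tw, tn, toList_tail, update_eq_self]
    rw [stepAux] at h
    revert h
    cases f v
    · exact ih₂ _ _
    · exact ih₁ _ _
  | goto f => exact .step _ _ (by simpa [upd, tk, tw, tn, toList_tail] using h _ rfl)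
  | halt => exact .step _ _ (.acc _)

lemma mh_of_dom {c : Cfg (fun _ : K => A) Λ σ} (h : (eval (step M) c).Dom) :
    ∀ l ∈ c.l, MH (tk k0) tw (tn M) (some (M l, c.var)) c.stk := by
  obtain ⟨b, hb⟩ := Part.dom_iff_mem.1 h
  refine evalInduction hb fun a _ ih => ?_
  obtain ⟨l, v, L⟩ := a
  rintro l' ⟨⟩
  exact mh_of_aux k0 M _ _ _ (ih _ rfl)

lemma mh_iff (l : Λ) (v : σ) (L : K → List A) :
    MH (tk k0) tw (tn M) (some (M l, v)) L ↔ (eval (step M) ⟨some l, v, L⟩).Dom :=
  ⟨fun h => by
    rw [eval_step]
    exact dom_of_mh k0 M h _ _ rfl, fun h => mh_of_dom k0 M h l rfl⟩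

omit [DecidableEq K] in
lemma mem_stmts {S : Finset Λ} {l : Λ} (h : l ∈ S) : some (M l) ∈ stmts M S := by
  classical
  simp only [stmts, Finset.some_mem_insertNone, Finset.mem_biUnion]
  exact ⟨l, h, stmts₁_self⟩

omit [DecidableEq K] in
lemma tn_closed [Inhabited Λ] {S : Finset Λ} (hS : Supports M S)
    (p : Stmt (fun _ : K => A) Λ σ × σ) (hp : some p.1 ∈ stmts M S) (o : Option A)
    (p' : Stmt (fun _ : K => A) Λ σ × σ) (h : p' ∈ tn M p o) : some p'.1 ∈ stmts M S := by
  classical
  obtain ⟨q, v⟩ := p
  cases q with
  | goto f => cases h; exact mem_stmts M (stmts_supportsStmt hS hp v)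
  | halt => cases h
  | branch f q₁ q₂ =>
    cases h
    refine stmts_trans ?_ hp
    cases f v <;> simp [stmts₁, stmts₁_self]
  | _ => cases h; exact stmts_trans (by simp [stmts₁, stmts₁_self]) hp

end TM

open Turing PartrecToTM2

instance : Fintype K' := ⟨{.main, .rev, .aux, .stack}, by intro x; cases x <;> simp⟩

/-- Binary digits. -/
def dig (b : Bool) : Γ' := cond b .bit1 .bit0

lemma trNat_bit (n : ℕ) (hn : 0 < n) (b : Bool) : trNat (2 * n + b.toNat) = dig b :: trNat n := by
  have e : 2 * n + b.toNat = Nat.bit b n := by rw [Nat.bit_val]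
  have h0 : (n : Num) ≠ 0 := fun h => by
    have := Num.to_of_nat n
    rw [h] at this
    exact hn.ne this
  rw [trNat, trNat, e, ← Num.ofNat'_eq, Num.ofNat'_bit, Num.ofNat'_eq]
  generalize (n : Num) = m at h0
  cases m with
  | zero => exact absurd rfl h0
  | pos p => cases b <;> rfl

lemma trNat_foldl (u : List Bool) (n : ℕ) (hn : 0 < n) :
    trNat (u.foldl (fun n b => 2 * n + b.toNat) n) = u.reverse.map dig ++ trNat n := by
  induction u generalizing n with
  | nil => rfl
  | cons b u ih => rw [List.foldl_cons, ih _ (by omega), trNat_bit n hn]; simp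

lemma trNat_one : trNat 1 = [.bit1] := by rw [trNat, Nat.cast_one]; rfl

lemma trNat_pow (e : ℕ) : trNat (2 ^ e) = List.replicate e .bit0 ++ [.bit1] := by
  induction e with
  | zero => exact trNat_one
  | succ e ih =>
    have := trNat_bit (2 ^ e) (by positivity) false
    rw [pow_succ', List.replicate_succ, List.cons_append, ← ih]
    exact this

/-- The universal function. -/
def uf (n E : ℕ) : Part ℕ := (Nat.rfind fun m => Part.some (decide (2 ^ m = E))).bind
  fun m => (Denumerable.ofNat Nat.Partrec.Code m).eval n

lemma uf_part : Partrec₂ uf := by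
  have hp : Primrec₂ fun a b : ℕ => a ^ b := Primrec₂.unpaired'.1 Nat.Primrec.pow
  have h0 : Primrec fun x : (ℕ × ℕ) × ℕ => decide (2 ^ x.2 = x.1.2) :=
    Primrec.eq.decide.comp (hp.comp (.const 2) .snd) (Primrec.snd.comp .fst)
  have h1 : Partrec₂ fun (x : ℕ × ℕ) (m : ℕ) => Part.some (decide (2 ^ m = x.2)) :=
    h0.to_comp.partrec.of_eq fun _ => rfl
  have h2 : Partrec₂ fun (x : ℕ × ℕ) (m : ℕ) => (Denumerable.ofNat Nat.Partrec.Code m).eval x.1 :=
    Nat.Partrec.Code.eval_part.comp ((Computable.ofNat _).comp .snd) (Computable.fst.comp .fst)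
  exact ((Partrec.rfind h1).bind h2).of_eq fun _ => rfl

lemma uf_pow (n e : ℕ) : uf n (2 ^ e) = (Denumerable.ofNat Nat.Partrec.Code e).eval n := by
  have h3 : (Nat.rfind fun m => Part.some (decide (2 ^ m = 2 ^ e))) = Part.some e :=
    Part.eq_some_iff.2 (Nat.mem_rfind.2 ⟨by simp, fun {m} hm => by simp [hm.ne]⟩)
  rw [uf, h3, Part.bind_some]

lemma exists_univ : ∃ c : ToPartrec.Code, ∀ n e : ℕ,
    (c.eval [n, 2 ^ e]).Dom ↔ ((Denumerable.ofNat Nat.Partrec.Code e).eval n).Dom := by
  obtain ⟨c, hc⟩ := ToPartrec.Code.exists_code (Nat.Partrec'.part_iff₂.2 uf_part)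
  refine ⟨c, fun n e => ?_⟩
  have : c.eval [n, 2 ^ e] = pure <$> uf n (2 ^ e) := hc ⟨[n, 2 ^ e], rfl⟩
  rw [this, uf_pow]; rfl

end Mc

open Mc Turing PartrecToTM2 in
theorem mach_exists : ∃ M : Mach, M.Univ := by
  obtain ⟨c, hc⟩ := exists_univ
  let T : Set (TM2.Stmt (fun _ : K' => Γ') Λ' (Option Γ') × Option Γ') :=
    {p | some p.1 ∈ TM2.stmts tr (codeSupp c .halt)}
  have hT : ∀ q ∈ T, ∀ o, ∀ q' ∈ tn tr q o, q' ∈ T :=
    @tn_closed _ _ _ _ tr ⟨trNormal c .halt⟩ _ (tr_supports c .halt)
  have : Finite T := by
    refine Set.Finite.to_subtype ((((TM2.stmts tr (codeSupp c .halt)).finite_toSet.preimage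
      (Option.some_injective _).injOn).prod (Set.finite_univ (α := Option Γ'))).subset ?_)
    exact fun p hp => ⟨hp, trivial⟩
  refine ⟨_, univ_of (kk := fun q : T => tk .main q.1) (w := fun q => tw q.1) (nx := nxT (tn tr) T)
    (q0 := ⟨(tr (trNormal c .halt), none), mem_stmts tr (tr_supports c .halt).1⟩) (j0 := .main)
    (bit := dig) (one := .bit0) (pre := [.bit1, .cons]) (suf := [.bit1, .cons]) fun e u => ?_⟩
  refine (mh_restrict hT _ _).trans ((mh_iff .main tr (trNormal c .halt) none _).trans ?_)
  rw [← hc]
  have e1 : update (fun _ : K' => ([] : List Γ')) .main (u.reverse.map dig ++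
      ([.bit1, .cons] ++ List.replicate e .bit0 ++ [.bit1, .cons])) =
      K'.elim (trList [bn u, 2 ^ e]) [] [] [] := by
    funext j
    cases j <;> simp [bn, trNat_foldl, trNat_one, trNat_pow]
  rw [e1]
  have := congrArg Part.Dom (PartrecToTM2.tr_eval c [bn u, 2 ^ e])
  exact this.to_iff

end Vale.Agent.P193
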