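import Vale.Agent.P193.Red

/-! The model of the machine algebra over a left ideal. -/

namespace Vale.Agent.P193

open Classical

theorem app_inj {κ Γ : Type} {a r r' : κ → List Γ} (h : app a r = app a r') : r = r' := by
  funext j
  exact List.append_cancel_left (congrFun h j)

theorem app_assoc {κ Γ : Type} (a b c : κ → List Γ) : app (app a b) c = app a (app b c) := by
  funext j; simp [app]

theorem app_nil {κ Γ : Type} (a : κ → List Γ) : app a (fun _ => []) = a := by
  funext j; simp [app]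

/-- Tape contents. -/
structure Tape (M : Mach) where
  m : M.κ → List M.Γ
  c : List (Option M.Rl)
  h : List (Option M.Rl)

/-- The empty tape. -/
def Tape.nil (M : Mach) : Tape M := ⟨fun _ => [], [], []⟩

/-- Context of the model. -/
structure Ctx (k : ℕ) where
  S : Setup k
  e : ℕ
  L : Ideal (FA S.X)
  R : Red L

namespace Setup
variable {k : ℕ} (S : Setup k)

theorem l_pos : 0 < S.l := lt_of_le_of_lt (Nat.zero_le _) S.hl

theorem cl_len (w : List Bool) : (S.cl w).length = w.length := by simp [cl]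

theorem cl_append (w w' : List Bool) : S.cl (w ++ w') = S.cl w ++ S.cl w' := by simp [cl]

theorem cl_inj : Function.Injective S.cl := by
  apply List.map_injective_iff.2
  intro a b h
  exact S.M.gen_inj (Option.some.inj h)

theorem blk_cancel {o o' : Option S.X} {c c' : List (Option S.M.Rl)}
    (h : S.cl (S.bl o) ++ c = S.cl (S.bl o') ++ c') : o = o' ∧ c = c' := by
  have := List.append_inj h (by rw [cl_len, cl_len, S.bl_len, S.bl_len])
  exact ⟨S.bl_inj (S.cl_inj this.1), this.2⟩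

theorem blk_ne_go (o : Option S.X) (c c' : List (Option S.M.Rl)) :
    some S.M.go :: c' ≠ S.cl (S.bl o) ++ c := by
  have h1 := S.bl_len o
  have h2 := S.l_pos
  cases hb : S.bl o with
  | nil => rw [hb] at h1; simp at h1; omega
  | cons b w =>
    intro h
    simp [cl] at h
    exact S.M.go_ne b h.1.symm

theorem clock_ind {P : List (Option S.M.Rl) → Prop}
    (h1 : ∀ o c, P c → P (S.cl (S.bl o) ++ c)) (h2 : ∀ c, P (some S.M.go :: c))
    (h3 : ∀ c, (∀ o c', c ≠ S.cl (S.bl o) ++ c') → (∀ c', c ≠ some S.M.go :: c') → P c)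
    (c : List (Option S.M.Rl)) : P c := by
  induction hn : c.length using Nat.strong_induction_on generalizing c with
  | _ n ih =>
    by_cases h : ∃ o c', c = S.cl (S.bl o) ++ c'
    · obtain ⟨o, c', rfl⟩ := h
      refine h1 o c' (ih c'.length ?_ c' rfl)
      rw [← hn, List.length_append, cl_len, S.bl_len]
      have := S.l_pos; omega
    · by_cases h' : ∃ c', c = some S.M.go :: c'
      · obtain ⟨c', rfl⟩ := h'; exact h2 c'
      · push Not at h h'
        exact h3 c h h'

end Setup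

/-- Backward run to the root. -/
noncomputable def root {M : Mach} : List (Option M.Rl) → (M.κ → List M.Γ) →
    List (Option M.Rl) → Tape M
  | some ρ :: h, m, c =>
    if hh : ∃ rest, m = app (M.push ρ) rest then
      root h (app (M.pop ρ) hh.choose) (some ρ :: c) else ⟨m, c, some ρ :: h⟩
  | none :: h, m, c => ⟨m, c, none :: h⟩
  | [], m, c => ⟨m, c, []⟩

theorem root_back {M : Mach} (ρ : M.Rl) (h : List (Option M.Rl)) (rest : M.κ → List M.Γ)
    (c : List (Option M.Rl)) :
    root (some ρ :: h) (app (M.push ρ) rest) c = root h (app (M.pop ρ) rest) (some ρ :: c) := by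
  have hh : ∃ r, app (M.push ρ) rest = app (M.push ρ) r := ⟨rest, rfl⟩
  rw [root, dif_pos hh, ← app_inj hh.choose_spec]

theorem Mach.Run.snoc {M : Mach} {ρs : List M.Rl} {a : M.κ → List M.Γ} (ρ : M.Rl)
    (rest : M.κ → List M.Γ) (h : M.Run ρs a (app (M.pop ρ) rest)) :
    M.Run (ρs ++ [ρ]) a (app (M.push ρ) rest) := by
  generalize hb : app (M.pop ρ) rest = b at h
  induction h with
  | nil c => subst hb; exact .cons ρ [] rest _ (.nil _)
  | cons ρ' ρs r c' _ ih => exact .cons ρ' _ r _ (ih hb)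

theorem root_spec {M : Mach} (h : List (Option M.Rl)) (m : M.κ → List M.Γ)
    (c : List (Option M.Rl)) : ∃ ρs : List M.Rl, h = ρs.reverse.map some ++ (root h m c).h ∧
      (root h m c).c = ρs.map some ++ c ∧ M.Run ρs (root h m c).m m := by
  induction h generalizing m c with
  | nil => exact ⟨[], by simp [root], by simp [root], .nil _⟩
  | cons o h ih =>
    cases o with
    | none => exact ⟨[], by simp [root], by simp [root], .nil _⟩
    | some ρ =>
      by_cases hh : ∃ rest, m = app (M.push ρ) rest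
      · obtain ⟨rest, rfl⟩ := hh
        rw [root_back]
        obtain ⟨ρs, h1, h2, h3⟩ := ih (app (M.pop ρ) rest) (some ρ :: c)
        refine ⟨ρs ++ [ρ], ?_, ?_, h3.snoc ρ rest⟩
        · simp only [List.reverse_append, List.reverse_cons, List.reverse_nil, List.nil_append,
            List.cons_append, List.map_cons, List.cons.injEq, true_and]
          exact h1
        · rw [h2]; simp
      · refine ⟨[], ?_, ?_, ?_⟩ <;> rw [root, dif_neg hh]
        · simp
        · simp
        · exact .nil _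

namespace Ctx
variable {k : ℕ} (Z : Ctx k)

/-- Basis states. -/
structure Stt where
  t : Tape Z.S.M
  b : Z.R.B
  it : List (Hd × Tape Z.S.M × Z.R.B)

/-- The module. -/
abbrev V : Type := Z.Stt →₀ ZMod 2

variable {Z}

/-- Basis vector. -/
noncomputable def sg (x : Z.Stt) : Z.V := Finsupp.single x 1

/-- Linear extension. -/
noncomputable def lin (f : Z.Stt → Z.V) : Z.V →ₗ[ZMod 2] Z.V :=
  Finsupp.linearCombination (ZMod 2) f

@[simp] theorem lin_sg (f : Z.Stt → Z.V) (x : Z.Stt) : lin f (sg x) = f x := by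
  simp [lin, sg]

theorem V_ext {N : Type*} [AddCommGroup N] [Module (ZMod 2) N] {f g : Z.V →ₗ[ZMod 2] N}
    (h : ∀ x, f (sg x) = g (sg x)) : f = g := by
  ext x; simpa [sg] using h x

/-- Freeze a head. -/
noncomputable def fz (h : Hd) (x : Z.Stt) : Z.V :=
  sg ⟨Tape.nil _, Z.R.one, (h, x.t, x.b) :: x.it⟩

/-- Fill the slot. -/
noncomputable def slot (x : Z.Stt) : (Z.R.B →₀ ZMod 2) →ₗ[ZMod 2] Z.V :=
  Finsupp.lmapDomain _ _ fun β => ⟨x.t, β, x.it⟩

theorem slot_single (x : Z.Stt) (β : Z.R.B) (r : ZMod 2) :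
    slot x (Finsupp.single β r) = r • sg ⟨x.t, β, x.it⟩ := by
  simp [slot, sg]

/-- Multiplication inside the slot. -/
noncomputable def Bop (q : FA Z.S.X) : Z.V →ₗ[ZMod 2] Z.V :=
  lin fun x => slot x (Z.R.red (q * wd (Z.R.mon x.b)))

theorem Bop_sg (q : FA Z.S.X) (x : Z.Stt) :
    Bop q (sg x) = slot x (Z.R.red (q * wd (Z.R.mon x.b))) := lin_sg _ _

theorem Bop_slot (q : FA Z.S.X) (x : Z.Stt) (f : Z.R.B →₀ ZMod 2) :
    Bop q (slot x f) = slot x (Z.R.red (q * Z.R.inc f)) := by
  induction f using Finsupp.induction_linear with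
  | zero => simp
  | add f g hf hg => simp only [map_add, mul_add, hf, hg]
  | single β r =>
    rw [slot_single, map_smul, Bop_sg]
    simp [Red.inc, slot]

theorem Bop_mul (q q' : FA Z.S.X) (v : Z.V) : Bop q (Bop q' v) = Bop (q * q') v := by
  have : Bop q ∘ₗ Bop q' = Bop (Z := Z) (q * q') := V_ext fun x => by
    rw [LinearMap.comp_apply, Bop_sg, Bop_slot, Red.red_mul_inc, Bop_sg, mul_assoc]
  exact LinearMap.congr_fun this v

theorem Bop_one (v : Z.V) : Bop 1 v = v := by
  have : Bop (Z := Z) 1 = LinearMap.id := V_ext fun x => by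
    rw [Bop_sg, one_mul, Red.red_mon, slot_single, one_smul]; rfl
  rw [this]; rfl

theorem Bop_add (q q' : FA Z.S.X) (v : Z.V) : Bop (q + q') v = Bop q v + Bop q' v := by
  have : Bop (Z := Z) (q + q') = Bop q + Bop q' := V_ext fun x => by
    simp only [LinearMap.add_apply, Bop_sg, add_mul, map_add]
  rw [this]; rfl

theorem Bop_zero (v : Z.V) : Bop 0 v = 0 := by
  have : Bop (Z := Z) 0 = 0 := V_ext fun x => by simp [Bop_sg]
  rw [this]; rfl

/-- Replace the clock. -/
def setc (x : Z.Stt) (c : List (Option Z.S.M.Rl)) : Z.Stt := ⟨⟨x.t.m, c, x.t.h⟩, x.b, x.it⟩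

/-- The clearing head. -/
noncomputable def vCl (x : Z.Stt) : List (Option Z.S.M.Rl) → Z.V
  | [] => fz .Cl (setc x [])
  | none :: c => sg (setc x c)
  | some _ :: c => vCl x c

/-- The term head. -/
noncomputable def vT (x : Z.Stt) (c : List (Option Z.S.M.Rl)) : Z.V :=
  if h : ∃ oc : Option Z.S.X × List (Option Z.S.M.Rl), c = Z.S.cl (Z.S.bl oc.1) ++ oc.2 then
    h.choose.1.elim (vCl x h.choose.2) fun y => Bop (wd [y]) (vT x h.choose.2)
  else if c.head? = some (some Z.S.M.go) then vCl x c.tail else fz .T (setc x c)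
termination_by c.length
decreasing_by
  have h1 := congrArg List.length h.choose_spec
  rw [List.length_append, Setup.cl_len, Z.S.bl_len] at h1
  have := Z.S.l_pos; omega

/-- The sum head. -/
noncomputable def vK (x : Z.Stt) (c : List (Option Z.S.M.Rl)) : Z.V :=
  if h : ∃ oc : Option Z.S.X × List (Option Z.S.M.Rl), c = Z.S.cl (Z.S.bl oc.1) ++ oc.2 then
    h.choose.1.elim (vT x h.choose.2) (fun _ => 0) + vK x h.choose.2
  else if c.head? = some (some Z.S.M.go) then 0 else fz .K (setc x c)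
termination_by c.length
decreasing_by
  have h1 := congrArg List.length h.choose_spec
  rw [List.length_append, Setup.cl_len, Z.S.bl_len] at h1
  have := Z.S.l_pos; omega

theorem choose_blk (o : Option Z.S.X) (c : List (Option Z.S.M.Rl))
    (h : ∃ oc : Option Z.S.X × List (Option Z.S.M.Rl),
      Z.S.cl (Z.S.bl o) ++ c = Z.S.cl (Z.S.bl oc.1) ++ oc.2) : h.choose = (o, c) := by
  have := Z.S.blk_cancel h.choose_spec
  exact Prod.ext this.1.symm this.2.symm

theorem vT_blk (x : Z.Stt) (o : Option Z.S.X) (c : List (Option Z.S.M.Rl)) :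
    vT x (Z.S.cl (Z.S.bl o) ++ c) = o.elim (vCl x c) fun y => Bop (wd [y]) (vT x c) := by
  have h : ∃ oc : Option Z.S.X × List (Option Z.S.M.Rl),
      Z.S.cl (Z.S.bl o) ++ c = Z.S.cl (Z.S.bl oc.1) ++ oc.2 := ⟨(o, c), rfl⟩
  rw [vT, dif_pos h, choose_blk o c h]

theorem vK_blk (x : Z.Stt) (o : Option Z.S.X) (c : List (Option Z.S.M.Rl)) :
    vK x (Z.S.cl (Z.S.bl o) ++ c) = o.elim (vT x c) (fun _ => 0) + vK x c := by
  have h : ∃ oc : Option Z.S.X × List (Option Z.S.M.Rl),
      Z.S.cl (Z.S.bl o) ++ c = Z.S.cl (Z.S.bl oc.1) ++ oc.2 := ⟨(o, c), rfl⟩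
  rw [vK, dif_pos h, choose_blk o c h]

theorem vT_go (x : Z.Stt) (c : List (Option Z.S.M.Rl)) :
    vT x (some Z.S.M.go :: c) = vCl x c := by
  rw [vT, dif_neg (fun ⟨oc, h⟩ => Z.S.blk_ne_go _ _ _ h), if_pos List.head?_cons]; rfl

theorem vK_go (x : Z.Stt) (c : List (Option Z.S.M.Rl)) : vK x (some Z.S.M.go :: c) = 0 := by
  rw [vK, dif_neg (fun ⟨oc, h⟩ => Z.S.blk_ne_go _ _ _ h), if_pos List.head?_cons]

theorem head_ne {c : List (Option Z.S.M.Rl)} (h2 : ∀ c', c ≠ some Z.S.M.go :: c') :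
    ¬ c.head? = some (some Z.S.M.go) := by
  cases c with
  | nil => simp
  | cons a c => intro h; simp at h; exact h2 c (by rw [h])

theorem vT_else (x : Z.Stt) {c : List (Option Z.S.M.Rl)}
    (h1 : ∀ o c', c ≠ Z.S.cl (Z.S.bl o) ++ c') (h2 : ∀ c', c ≠ some Z.S.M.go :: c') :
    vT x c = fz .T (setc x c) := by
  rw [vT, dif_neg (fun ⟨oc, h⟩ => h1 _ _ h), if_neg (head_ne h2)]

theorem vK_else (x : Z.Stt) {c : List (Option Z.S.M.Rl)}
    (h1 : ∀ o c', c ≠ Z.S.cl (Z.S.bl o) ++ c') (h2 : ∀ c', c ≠ some Z.S.M.go :: c') :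
    vK x c = fz .K (setc x c) := by
  rw [vK, dif_neg (fun ⟨oc, h⟩ => h1 _ _ h), if_neg (head_ne h2)]

/-- Value of the machine head at a root tape. -/
noncomputable def vR (x : Z.Stt) (r : Tape Z.S.M) : Z.V :=
  if hl : ∃ q : (Z.S.M.κ → List Z.S.M.Γ) × List (Option Z.S.M.Rl),
      r.m = app (Z.S.M.start Z.e) q.1 ∧ r.h = none :: q.2 then
    vK ⟨⟨hl.choose.1, [], hl.choose.2⟩, x.b, x.it⟩ r.c
  else if ∃ (ρs : List Z.S.M.Rl) (c' : List (Option Z.S.M.Rl)) (rest : Z.S.M.κ → List Z.S.M.Γ),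
      r.c = ρs.map some ++ c' ∧ Z.S.M.Run ρs r.m (app Z.S.M.acc rest) then 0
  else fz .Y ⟨r, x.b, x.it⟩

theorem vR_link (x : Z.Stt) (m : Z.S.M.κ → List Z.S.M.Γ) (c h : List (Option Z.S.M.Rl)) :
    vR x ⟨app (Z.S.M.start Z.e) m, c, none :: h⟩ = vK ⟨⟨m, [], h⟩, x.b, x.it⟩ c := by
  have hl : ∃ q : (Z.S.M.κ → List Z.S.M.Γ) × List (Option Z.S.M.Rl),
      app (Z.S.M.start Z.e) m = app (Z.S.M.start Z.e) q.1 ∧ none :: h = none :: q.2 :=
    ⟨(m, h), rfl, rfl⟩
  have h1 := app_inj hl.choose_spec.1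
  have h2 := (List.cons.inj hl.choose_spec.2).2
  rw [vR, dif_pos hl]
  simp only [← h1, ← h2]

/-- The pivot. -/
noncomputable def piv (b : FA Z.S.X) : Z.R.B :=
  if h : (Z.R.red b).support.Nonempty then h.choose else Z.R.one

theorem piv_mem {b : FA Z.S.X} (hb : b ∉ Z.L) : piv b ∈ (Z.R.red b).support := by
  have h : (Z.R.red b).support.Nonempty := by
    rw [Finsupp.support_nonempty_iff]
    exact fun h => hb ((Z.R.red_eq_zero b).1 h)
  rw [piv, dif_pos h]; exact h.choose_spec

/-- The special condition of the inverting head. -/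
def Spec (x : Z.Stt) (p : Pl Z.S.X) : Prop :=
  x.t = ⟨fun _ => [], Z.S.cl (Z.S.enc p), []⟩ ∧ toW p ∉ Z.L ∧ x.b = piv (toW p)

/-- The inverting head. -/
noncomputable def vA (x : Z.Stt) : Z.V :=
  match x.it with
  | (.a, t', β') :: it' =>
    if h : ∃ p, Spec x p then sg ⟨t', β', it'⟩ +
      ∑ β ∈ (Z.R.red (toW h.choose)).support.erase x.b, fz .A ⟨x.t, β, x.it⟩
    else fz .A x
  | _ => fz .A x

variable (Z)

/-- Action of a letter on a basis state. -/
noncomputable def act1 : Z.S.X → Z.Stt → Z.V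
  | .m j γ, x => sg ⟨⟨fun i => if i = j then γ :: x.t.m i else x.t.m i, x.t.c, x.t.h⟩, x.b, x.it⟩
  | .c o, x => sg ⟨⟨x.t.m, o :: x.t.c, x.t.h⟩, x.b, x.it⟩
  | .h o, x => sg ⟨⟨x.t.m, x.t.c, o :: x.t.h⟩, x.b, x.it⟩
  | .hd .Y, x => vR x (root x.t.h x.t.m x.t.c)
  | .hd .K, x => vK x x.t.c
  | .hd .T, x => vT x x.t.c
  | .hd .Cl, x => vCl x x.t.c
  | .hd .A, x => vA x
  | .hd .a, x => fz .a x
  | .g _, x => sg x

/-- The action of the free algebra. -/
noncomputable def act : FA Z.S.X →ₐ[ZMod 2] Module.End (ZMod 2) Z.V :=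
  MonoidAlgebra.lift (ZMod 2) _ (FreeMonoid Z.S.X) (FreeMonoid.lift fun y => lin (Z.act1 y))

variable {Z}

theorem act_single (y : Z.S.X) : Z.act (wd [y]) = lin (Z.act1 y) := by
  unfold act wd
  rw [MonoidAlgebra.lift_of]
  exact FreeMonoid.lift_eval_of _ _

theorem act_nil (v : Z.V) : Z.act (wd []) v = v := by rw [wd_nil, map_one]; rfl

theorem act_append (l l' : List Z.S.X) (v : Z.V) :
    Z.act (wd (l ++ l')) v = Z.act (wd l) (Z.act (wd l') v) := by
  rw [wd_append, map_mul]; rfl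

theorem act_cons (y : Z.S.X) (l : List Z.S.X) (v : Z.V) :
    Z.act (wd (y :: l)) v = lin (Z.act1 y) (Z.act (wd l) v) := by
  rw [wd_cons, map_mul, act_single]; rfl

theorem act_c (l : List (Option Z.S.M.Rl)) (x : Z.Stt) :
    Z.act (wd (l.map Lt.c)) (sg x) = sg ⟨⟨x.t.m, l ++ x.t.c, x.t.h⟩, x.b, x.it⟩ := by
  induction l with
  | nil => exact act_nil _
  | cons o l ih => rw [List.map_cons, act_cons, ih, lin_sg]; rfl

theorem act_h (l : List (Option Z.S.M.Rl)) (x : Z.Stt) :
    Z.act (wd (l.map Lt.h)) (sg x) = sg ⟨⟨x.t.m, x.t.c, l ++ x.t.h⟩, x.b, x.it⟩ := by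
  induction l with
  | nil => exact act_nil _
  | cons o l ih => rw [List.map_cons, act_cons, ih, lin_sg]; rfl

theorem act_g (l : List (Fin k × Bool)) (v : Z.V) : Z.act (wd (l.map Lt.g)) v = v := by
  induction l with
  | nil => exact act_nil _
  | cons o l ih =>
    rw [List.map_cons, act_cons, ih]
    have : lin (Z.act1 (Lt.g o)) = LinearMap.id := V_ext fun x => by rw [lin_sg]; rfl
    rw [this]; rfl

theorem act_m1 (j : Z.S.M.κ) (l : List Z.S.M.Γ) (x : Z.Stt) :
    Z.act (wd (l.map (Lt.m j))) (sg x) =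
      sg ⟨⟨fun i => if i = j then l ++ x.t.m i else x.t.m i, x.t.c, x.t.h⟩, x.b, x.it⟩ := by
  induction l with
  | nil => simpa using act_nil _
  | cons o l ih =>
    rw [List.map_cons, act_cons, ih, lin_sg]
    simp only [act1]
    congr 3
    funext i
    split_ifs <;> simp

theorem act_mlist (s : Z.S.M.κ → List Z.S.M.Γ) (js : List Z.S.M.κ) (hn : js.Nodup) (x : Z.Stt) :
    Z.act (wd (js.flatMap fun j => (s j).map (Lt.m j))) (sg x) =
      sg ⟨⟨fun i => if i ∈ js then s i ++ x.t.m i else x.t.m i, x.t.c, x.t.h⟩, x.b, x.it⟩ := by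
  induction js with
  | nil => simpa using act_nil _
  | cons j js ih =>
    rw [List.nodup_cons] at hn
    rw [List.flatMap_cons, act_append, ih hn.2, act_m1]
    congr 3
    funext i
    by_cases h : i = j
    · subst h; simp [hn.1]
    · simp [h]

theorem act_mword (s : Z.S.M.κ → List Z.S.M.Γ) (x : Z.Stt) :
    Z.act (wd (mword s)) (sg x) = sg ⟨⟨app s x.t.m, x.t.c, x.t.h⟩, x.b, x.it⟩ := by
  rw [mword, act_mlist s _ (Finset.nodup_toList _)]
  simp only [Finset.mem_toList, Finset.mem_univ, if_true]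
  rfl

theorem act_bar (y : Z.S.X) (v : Z.V) : Z.act (wd (Z.S.bar y)) v = Bop (wd [y]) v := by
  have : Z.act (wd (Z.S.bar y)) = Bop (wd [y]) := V_ext fun x => by
    have e : Z.S.bar y = Lt.hd .T :: (Z.S.cl (Z.S.bl (some y)) ++
        [some Z.S.M.go, none]).map Lt.c := by
      simp [Setup.bar, Setup.blk, Setup.cw]
    rw [e, act_cons, act_c, lin_sg]
    simp only [act1, List.append_assoc, vT_blk, Option.elim, List.cons_append, vT_go, vCl]
    rfl
  rw [this]

theorem act_barw (m : List Z.S.X) (v : Z.V) : Z.act (wd (Z.S.barw m)) v = Bop (wd m) v := by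
  induction m with
  | nil => rw [wd_nil (X := Z.S.X), Bop_one]; exact act_nil _
  | cons y m ih =>
    rw [Setup.barw, List.flatMap_cons, act_append, ← Setup.barw, ih, act_bar, Bop_mul, ← wd_cons]

end Ctx

end Vale.Agent.P193
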