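import Vale.Agent.P193.Compl

/-! The group layer and the next left ideal. -/

namespace Vale.Agent.P193

open Classical

section
variable {k : ℕ} {G : Type*} [Group G] (s : Fin k → G)

theorem ev_nil : ev s [] = 1 := by
  unfold ev; exact map_one _

theorem ev_append (w w' : List (Fin k × Bool)) : ev s (w ++ w') = ev s w * ev s w' := by
  unfold ev; rw [← FreeGroup.mul_mk, map_mul]

/-- A shortest word for a group element. -/
noncomputable def rep (g : G) : List (Fin k × Bool) :=
  if h : ∃ n, ∃ w : List (Fin k × Bool), ev s w = g ∧ w.length = n then (Nat.find_spec h).choose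
  else []

theorem rep_spec (w : List (Fin k × Bool)) :
    ev s (rep s (ev s w)) = ev s w ∧ (rep s (ev s w)).length ≤ w.length := by
  have h : ∃ n, ∃ w' : List (Fin k × Bool), ev s w' = ev s w ∧ w'.length = n := ⟨_, w, rfl, rfl⟩
  rw [rep, dif_pos h]
  refine ⟨(Nat.find_spec h).choose_spec.1, ?_⟩
  rw [(Nat.find_spec h).choose_spec.2]
  exact Nat.find_min' h ⟨w, rfl, rfl⟩

variable {M : Mach}

/-- Group value of a letter. -/
def gv : Lt M k → G
  | .g i => ev s [i]
  | _ => 1

/-- Group value of a word. -/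
def gw (l : List (Lt M k)) : G := (l.map (gv s)).prod

theorem gw_nil : gw (M := M) s [] = 1 := rfl

theorem gw_cons (y : Lt M k) (l : List (Lt M k)) : gw s (y :: l) = gv s y * gw s l := by
  simp [gw]

theorem gw_append (l l' : List (Lt M k)) : gw s (l ++ l') = gw s l * gw s l' := by simp [gw]

theorem gw_g (w : List (Fin k × Bool)) : gw (M := M) s (w.map Lt.g) = ev s w := by
  induction w with
  | nil => exact (ev_nil s).symm
  | cons i w ih => rw [List.map_cons, gw_cons, ih, gv, ← ev_append]; rfl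

end

/-- Words without group letters. -/
def NoG {M : Mach} {k : ℕ} (l : List (Lt M k)) : Prop := ∀ y ∈ l, ∀ i, y ≠ Lt.g i

section
variable {k : ℕ} {M : Mach}

theorem NoG_nil : NoG ([] : List (Lt M k)) := by simp [NoG]

theorem NoG_append {a b : List (Lt M k)} : NoG (a ++ b) ↔ NoG a ∧ NoG b := by
  simp only [NoG, List.mem_append]
  exact ⟨fun h => ⟨fun y hy => h y (Or.inl hy), fun y hy => h y (Or.inr hy)⟩,
    fun h y hy => hy.elim (h.1 y) (h.2 y)⟩

theorem NoG_cons {y : Lt M k} {b : List (Lt M k)} : NoG (y :: b) ↔ (∀ i, y ≠ Lt.g i) ∧ NoG b := by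
  simp [NoG]

theorem NoG_stk {l : List (Lt M k)} (h : ∀ y ∈ l, ∃ b, y.stk = some b) : NoG l := by
  rintro y hy i rfl
  obtain ⟨b, hb⟩ := h _ hy
  simp [Lt.stk] at hb

theorem NoG.gw {G : Type*} [Group G] (s : Fin k → G) {l : List (Lt M k)} (h : NoG l) :
    gw s l = 1 := by
  induction l with
  | nil => rfl
  | cons y l ih =>
    rw [NoG_cons] at h
    rw [gw_cons, ih h.2, mul_one]
    cases y <;> first | rfl | exact absurd rfl (h.1 _)

end

namespace Setup
variable {k : ℕ} (S : Setup k)

theorem NoG_mword (m : S.M.κ → List S.M.Γ) : NoG (mword (k := k) m) :=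
  NoG_stk fun _ hy => let ⟨_, h⟩ := stk_mword hy; ⟨_, h⟩

theorem NoG_tw (t : Tape S.M) : NoG (S.tw t) := NoG_stk fun _ hy => stk_tw hy

theorem NoG_cw (w : List Bool) : NoG (S.cw w) := by
  intro y hy i
  obtain ⟨o, _, rfl⟩ := List.mem_map.1 hy
  simp

theorem NoG_blk (o : Option S.X) : NoG (S.blk o) := S.NoG_cw _

theorem NoG_bar (y : S.X) : NoG (S.bar y) := by
  simp [bar, NoG_cons, NoG_append, NoG_blk, NoG_nil]

theorem NoG_barw (m : List S.X) : NoG (S.barw m) := by
  intro y hy
  obtain ⟨z, _, hz⟩ := List.mem_flatMap.1 hy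
  exact S.NoG_bar z y hz

variable {G : Type*} [Group G] (s : Fin k → G)

theorem homog {e : ℕ} {Pos Neg : Pl S.X → Prop} {r : Pl S.X} (hr : S.Fam s e Pos Neg r) :
    ∃ γ, ∀ m ∈ r, gw s m = γ := by
  have H : (∀ m ∈ r, NoG m) → ∃ γ, ∀ m ∈ r, gw s m = γ :=
    fun h => ⟨1, fun m hm => (h m hm).gw s⟩
  rcases hr with hr | rfl | ⟨p, _, rfl⟩ | ⟨p, _, rfl⟩ | ⟨w, w', h, rfl⟩
  · cases hr with
    | commT x y a b ha hb _ =>
      have h1 : NoG [x, y] := NoG_stk (by
        simp only [List.mem_cons, List.not_mem_nil, or_false]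
        rintro _ (rfl | rfl) <;> exact ⟨_, by assumption⟩)
      have h2 : NoG [y, x] := NoG_stk (by
        simp only [List.mem_cons, List.not_mem_nil, or_false]
        rintro _ (rfl | rfl) <;> exact ⟨_, by assumption⟩)
      exact H (by simp [h1, h2])
    | commB x y b hb =>
      have h1 : NoG [y] := NoG_stk (by
        simp only [List.mem_cons, List.not_mem_nil, or_false]
        rintro _ rfl; exact ⟨_, hb⟩)
      have h2 := (NoG_cons.1 h1).1
      exact H (by simp [NoG_append, NoG_cons, h2, NoG_bar, NoG_nil])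
    | commG i y hy =>
      have : gv s y = 1 := by cases y <;> first | rfl | exact absurd rfl (hy _)
      exact ⟨gv s (Lt.g i : S.X), by simp [gw, this]⟩
    | _ => exact H (by simp [NoG_append, NoG_cons, NoG_bar, NoG_nil, NoG_mword, NoG_blk])
  · exact H (by simp [link, NoG_cons, NoG_nil, NoG_mword])
  · refine H fun m hm => ?_
    obtain ⟨m', _, rfl⟩ := List.mem_map.1 hm
    exact S.NoG_barw m'
  · refine H fun m hm => ?_
    rcases List.mem_cons.1 hm with rfl | hm
    · exact NoG_nil
    · obtain ⟨m', _, rfl⟩ := List.mem_map.1 hm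
      simp [NoG_append, NoG_cons, NoG_barw, NoG_nil, NoG_cw]
  · exact ⟨ev s w, by simp [grel, gw_g, h]⟩

end Setup

namespace Ctx
variable {k : ℕ} (Z : Ctx k) {G : Type*} [Group G] (s : Fin k → G)

/-- The action with the group component. -/
noncomputable def actG : FA Z.S.X →ₐ[ZMod 2] Module.End (ZMod 2) (G →₀ Z.V) :=
  MonoidAlgebra.lift (ZMod 2) _ (FreeMonoid Z.S.X) (FreeMonoid.lift fun y =>
    Finsupp.lmapDomain _ _ (fun g => gv s y * g) ∘ₗ Finsupp.mapRange.linearMap (Z.act (wd [y])))

theorem actG_wd (l : List Z.S.X) (g : G) (v : Z.V) :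
    Z.actG s (wd l) (Finsupp.single g v) = Finsupp.single (gw s l * g) (Z.act (wd l) v) := by
  induction l with
  | nil => rw [act_nil, wd_nil, map_one, gw_nil, one_mul]; rfl
  | cons y l ih =>
    rw [wd_cons, map_mul, map_mul, Module.End.mul_apply, ih, gw_cons, mul_assoc]
    have : Z.actG s (wd [y]) = Finsupp.lmapDomain _ _ (fun g => gv s y * g) ∘ₗ
        Finsupp.mapRange.linearMap (Z.act (wd [y])) := by
      unfold actG wd
      rw [MonoidAlgebra.lift_of]
      exact FreeMonoid.lift_eval_of _ _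
    rw [this]
    simp

theorem actG_homog {r : Pl Z.S.X} {γ : G} (h : ∀ m ∈ r, gw s m = γ) (g : G) (v : Z.V) :
    Z.actG s (toW r) (Finsupp.single g v) = Finsupp.single (γ * g) (Z.act (toW r) v) := by
  induction r with
  | nil => simp [toW_nil]
  | cons m r ih =>
    rw [act_toW_cons, toW_cons, map_add, LinearMap.add_apply, ih fun m hm => h m (by simp [hm]),
      actG_wd, h m (by simp), Finsupp.single_add]

/-- The vacuum vector. -/
noncomputable def v0 : G →₀ Z.V := Finsupp.single 1 (sg Z.x0)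

/-- The next left ideal. -/
noncomputable def nxt : Ideal (FA Z.S.X) where
  carrier := {b | Z.actG s b Z.v0 = 0}
  add_mem' := by
    intro a b ha hb
    simp only [Set.mem_setOf_eq] at *
    rw [map_add, LinearMap.add_apply, ha, hb, add_zero]
  zero_mem' := by simp
  smul_mem' := by
    intro a b hb
    simp only [Set.mem_setOf_eq, smul_eq_mul] at *
    rw [map_mul, Module.End.mul_apply, hb, map_zero]

theorem mem_nxt {b : FA Z.S.X} : b ∈ Z.nxt s ↔ Z.actG s b Z.v0 = 0 := Iff.rfl

theorem sub_mem_nxt {a b : FA Z.S.X} (h : a - b ∈ Z.nxt s) :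
    Z.actG s a Z.v0 = Z.actG s b Z.v0 := by
  have e : a = (a - b) + b := by abel
  conv_lhs => rw [e, map_add, LinearMap.add_apply, (Z.mem_nxt s).1 h, zero_add]

theorem sg_ne_zero (x : Z.Stt) : sg x ≠ 0 := by simp [sg]

theorem one_not_mem_nxt : (1 : FA Z.S.X) ∉ Z.nxt s := by
  rw [mem_nxt, map_one]
  simpa [v0] using Z.sg_ne_zero _

theorem sound {n N : ℕ} (hR : Z.RC n) (hA : Z.ACC n) (hN : (Z.S.d + 3) * N < Z.S.l * n)
    {b : FA Z.S.X} (hb : b ∈ Sp (Z.FamL s) N) : b ∈ Z.nxt s := by
  induction hb using Submodule.span_induction with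
  | mem x hx =>
    obtain ⟨u, v, r, h1, h2, rfl⟩ := hx
    rw [mul_assoc]
    refine Ideal.mul_mem_left _ _ ?_
    obtain ⟨γ, hγ⟩ := Z.S.homog s h1
    rw [mem_nxt, map_mul, Module.End.mul_apply, v0, actG_wd, Z.actG_homog s hγ,
      eq_sum (Z.act (wd v) _), map_sum, Finsupp.single_eq_zero]
    refine Finset.sum_eq_zero fun x hx => ?_
    have := Z.Bd_word v x hx
    rw [map_smul, sound0 s hR hA h1 x (by nlinarith), smul_zero]
  | zero => exact zero_mem _
  | add a b _ _ h1 h2 => exact add_mem h1 h2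
  | smul r a _ h =>
    rw [mem_nxt] at h ⊢
    rw [map_smul, LinearMap.smul_apply, h, smul_zero]

theorem NoG_iw (it : List (Hd × Tape Z.S.M × Z.R.B)) : NoG (iw it) := by
  induction it with
  | nil => exact NoG_nil
  | cons i r ih => simp [iw, NoG_cons, NoG_append, Setup.NoG_tw, Setup.NoG_barw, ih]

theorem NoG_lw (x : Z.Stt) : NoG (lw x) := by
  simp [lw, NoG_append, Setup.NoG_tw, Setup.NoG_barw, NoG_iw]

theorem ev_word (w : List Z.S.X) : ∃ u : List (Fin k × Bool), gw s w = ev s u ∧
    u.length ≤ w.length ∧ Ev (Z.FamL s) (Z.S.C * w.length) (wd w)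
      (Lf (Z.act (wd w) (sg Z.x0)) * wd ((rep s (gw s w)).map Lt.g)) := by
  induction w with
  | nil =>
    refine ⟨[], (ev_nil s).symm, le_rfl, Ev.of_eq ?_⟩
    have := (rep_spec s []).2
    rw [ev_nil] at this
    rw [act_nil, Lf_sg, gw_nil, List.length_eq_zero_iff.1 (Nat.le_zero.1 this), ← wd_append]
    simp [lw, x0, tw_nil, Z.R.mon_one, Setup.barw, iw]
  | cons y w ih =>
    obtain ⟨u, h1, h2, h3⟩ := ih
    have hb := Z.Bd_word w
    obtain ⟨h4, h5⟩ := rep_spec s u
    rw [← h1] at h4 h5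
    have hC : Z.S.C = (Z.S.d + 4) * (Z.S.d + 4) := rfl
    have e1 := (h3.left [y]).mono (N' := Z.S.C * (y :: w).length)
      (by rw [hC]; simp only [List.length_cons, List.length_nil]; nlinarith)
    rw [← wd_cons, ← mul_assoc] at e1
    by_cases hy : ∃ i, y = Lt.g i
    · obtain ⟨i, rfl⟩ := hy
      have h6 : gw s (Lt.g i :: w) = ev s (i :: rep s (gw s w)) := by
        rw [gw_cons, gv, ← List.singleton_append (l := rep s (gw s w)), ev_append, h4]
      refine ⟨i :: rep s (gw s w), h6, by simp; omega, e1.trans ?_⟩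
      obtain ⟨h7, h8⟩ := rep_spec s (i :: rep s (gw s w))
      rw [← h6] at h7 h8
      have ha : Z.act (wd (Lt.g i :: w)) (sg Z.x0) = Z.act (wd w) (sg Z.x0) := by
        rw [← List.singleton_append, act_append]; exact act_g [i] _
      rw [ha]
      generalize Z.act (wd w) (sg Z.x0) = v at hb
      rw [eq_sum v]
      simp only [map_sum, map_smul, Finset.mul_sum, Finset.sum_mul, mul_smul_comm, smul_mul_assoc,
        Lf_sg]
      refine Ev.sum _ fun x hx => Ev.smul ?_ _
      have hx1 := (lw_len x).trans (hb x hx)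
      have c1 : Cm (Z.FamL s) ([Lt.g i] ++ lw x) (lw x ++ [Lt.g i]) :=
        Cm.pass fun z hz => Cm.rule (hF0 s _ (.commG i z (Z.NoG_lw x z hz))) rfl
      have c2 : Z.FamL s (Z.S.grel (i :: rep s (gw s w)) (rep s (gw s (Lt.g i :: w)))) :=
        Or.inr (Or.inr (Or.inr (Or.inr ⟨_, _, h6.symm.trans h7.symm, rfl⟩)))
      have c3 := (Ev.rule2 c2 [] (N := w.length + 1) (by simp; omega)
        (by simp at h8 ⊢; omega)).left (lw x)
      simp only [← wd_append, List.append_nil] at c3 ⊢
      refine ((c1.right _).ev ?_).trans ?_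
      · rw [hC]; simp only [List.length_append, List.length_map, List.length_cons,
          List.length_nil]; nlinarith
      · simp only [List.append_assoc, List.map_cons, List.cons_append, List.nil_append] at c3 ⊢
        refine c3.mono ?_
        rw [hC]; simp only [List.length_cons]; nlinarith
    · push Not at hy
      have h6 : gw s (y :: w) = gw s w := by
        have : gv s y = 1 := by cases y <;> first | rfl | exact absurd rfl (hy _)
        rw [gw_cons, this, one_mul]
      refine ⟨u, h6.trans h1, by simp; omega, e1.trans ?_⟩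
      rw [h6, act_cons]
      refine ((ev_lin s hb (wd [y]) (lin (Z.act1 y))
        (N := (Z.S.d + 2) * ((Z.S.d + 3) * w.length + 1)) fun x hx => ?_).right _).mono ?_
      · rw [← wd_cons, lin_sg]
        exact (ev_act1 s y hy x).mono (Nat.mul_le_mul_left _ (by omega))
      · rw [hC]; simp only [List.length_cons, List.length_map]; nlinarith

/-- The lift with the group component. -/
noncomputable def LfG : (G →₀ Z.V) →ₗ[ZMod 2] FA Z.S.X :=
  Finsupp.lsum (ZMod 2) fun g => LinearMap.mulRight (ZMod 2) (wd ((rep s g).map Lt.g)) ∘ₗ Lf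

theorem complete {j : ℕ} {b : FA Z.S.X} (hb : b ∈ Wle Z.S.X j) (h : b ∈ Z.nxt s) :
    b ∈ Sp (Z.FamL s) (Z.S.C * j) := by
  have : Ev (Z.FamL s) (Z.S.C * j) b (Z.LfG s (Z.actG s b Z.v0)) := by
    clear h
    induction hb using Submodule.span_induction with
    | mem x hx =>
      obtain ⟨u, hu, rfl⟩ := hx
      obtain ⟨_, _, _, h3⟩ := Z.ev_word s u
      rw [v0, actG_wd, mul_one, LfG, Finsupp.lsum_single]
      exact h3.mono (Nat.mul_le_mul_left _ hu)
    | zero => simpa using Ev.refl _ _
    | add a b _ _ h1 h2 => simpa only [map_add, LinearMap.add_apply] using h1.add h2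
    | smul r a _ h => simpa only [map_smul, LinearMap.smul_apply] using h.smul r
  rw [(Z.mem_nxt s).1 h, map_zero] at this
  simpa [Ev] using this

theorem nxt_group {w : List (Fin k × Bool)} (h : wd (w.map Lt.g) - 1 ∈ Z.nxt s) : ev s w = 1 := by
  replace h := Z.sub_mem_nxt s h
  rw [map_one, v0, actG_wd, act_g, gw_g, mul_one] at h
  exact Finsupp.single_left_injective (Z.sg_ne_zero _) h

theorem homog_iop (p : Pl Z.S.X) : ∀ m ∈ Z.S.iop p, gw s m = 1 := by
  intro m hm
  obtain ⟨m', _, rfl⟩ := List.mem_map.1 hm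
  exact (Z.S.NoG_barw m').gw s

theorem nxt_center {p : Pl Z.S.X}
    (h : wd [Lt.hd .a] * toW (Z.S.iop p) - toW (Z.S.iop p) * wd [Lt.hd .a] ∈ Z.nxt s) :
    toW p ∈ Z.L ∨ toW p - 1 ∈ Z.L := by
  have hg : gw (M := Z.S.M) s [Lt.hd .a] = 1 := by simp [gw, gv]
  replace h := Z.sub_mem_nxt s h
  rw [map_mul, map_mul, Module.End.mul_apply,
    Module.End.mul_apply, v0, Z.actG_homog s (Z.homog_iop s p), actG_wd, actG_wd,
    Z.actG_homog s (Z.homog_iop s p), hg] at h
  have h2 := Finsupp.single_injective _ h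
  rw [act_iop, act_iop, act_one, Bop_sg, act_single] at h2
  simp only [act1, fz, Bop_sg, x0, Z.R.mon_one, wd_nil, mul_one] at h2
  have h3 : ∀ β ∈ (Z.R.red (toW p)).support, β = Z.R.one := by
    intro β hβ
    have h4 : (slot (Z := Z) ⟨Tape.nil _, Z.R.one, [(Hd.a, Tape.nil _, Z.R.one)]⟩
        (Z.R.red (toW p))) ⟨Tape.nil _, β, [(Hd.a, Tape.nil _, Z.R.one)]⟩ = 1 := by
      rw [slot, Finsupp.lmapDomain_apply, ← coeff_one hβ]
      exact Finsupp.mapDomain_apply (fun a b h => by simpa using h) _ _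
    rw [← h2, slot_eq, map_sum] at h4
    by_contra hne
    rw [Finsupp.finset_sum_apply, Finset.sum_eq_zero] at h4
    · exact zero_ne_one h4
    · intro β' _
      rw [map_smul, lin_sg]
      simp only [act1, fz, sg, Finsupp.smul_apply]
      rw [Finsupp.single_eq_of_ne, smul_zero]
      intro h5
      exact hne (congrArg Stt.b h5)
  by_cases h4 : Z.R.one ∈ (Z.R.red (toW p)).support
  · right
    rw [← Z.R.red_eq_zero, map_sub, Red.red_one, sub_eq_zero]
    ext β
    by_cases h5 : β = Z.R.one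
    · subst h5; rw [coeff_one h4, Finsupp.single_eq_same]
    · rw [Finsupp.single_eq_of_ne h5]
      by_contra h6
      exact h5 (h3 β (Finsupp.mem_support_iff.2 h6))
  · left
    rw [← Z.R.red_eq_zero]
    ext β
    by_contra h6
    have := Finsupp.mem_support_iff.2 h6
    exact h4 (h3 β this ▸ this)

end Ctx

end Vale.Agent.P193
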