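import Vale.Agent.P193.Model

/-! The length potential. -/

namespace Vale.Agent.P193

open Classical

theorem len_le_deg {X : Type} {p : Pl X} {m : List X} (h : m ∈ p) : m.length ≤ deg p := by
  induction p with
  | nil => simp at h
  | cons a p ih =>
    simp only [deg, List.map_cons, List.foldr_cons]
    rcases List.mem_cons.1 h with rfl | h
    · exact le_max_left _ _
    · exact (ih h).trans (le_max_right _ _)

theorem deg_le {X : Type} {p : Pl X} {n : ℕ} (h : ∀ m ∈ p, m.length ≤ n) : deg p ≤ n := by
  induction p with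
  | nil => simp [deg]
  | cons a p ih =>
    simp only [deg, List.map_cons, List.foldr_cons]
    exact max_le (h a (by simp)) (ih fun m hm => h m (by simp [hm]))

theorem deg_cons {X : Type} (a : List X) (p : Pl X) : deg (a :: p) = max a.length (deg p) := rfl

theorem toW_nil {X : Type} : toW ([] : Pl X) = 0 := rfl

theorem toW_cons {X : Type} (a : List X) (p : Pl X) : toW (a :: p) = wd a + toW p := by
  simp [toW]

theorem toW_append {X : Type} (p q : Pl X) : toW (p ++ q) = toW p + toW q := by
  simp [toW]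

theorem wd_mem_Wle {X : Type} {u : List X} {j : ℕ} (h : u.length ≤ j) : wd u ∈ Wle X j :=
  Submodule.subset_span ⟨u, h, rfl⟩

theorem toW_mem_Wle {X : Type} {p : Pl X} {j : ℕ} (h : deg p ≤ j) : toW p ∈ Wle X j := by
  refine list_sum_mem fun b hb => ?_
  obtain ⟨m, hm, rfl⟩ := List.mem_map.1 hb
  exact wd_mem_Wle ((len_le_deg hm).trans h)

theorem mword_len {M : Mach} {k : ℕ} (s : M.κ → List M.Γ) :
    (mword (k := k) s).length = ∑ j, (s j).length := by
  rw [mword, List.length_flatMap, ← Finset.sum_map_toList]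
  simp

theorem mword_app_len {M : Mach} {k : ℕ} (a b : M.κ → List M.Γ) :
    (mword (k := k) (app a b)).length = (mword (k := k) a).length + (mword (k := k) b).length := by
  simp [mword_len, app, Finset.sum_add_distrib]

theorem mword_nil {M : Mach} {k : ℕ} : mword (k := k) (M := M) (fun _ => []) = [] := by
  simp [mword]

namespace Setup
variable {k : ℕ} (S : Setup k)

theorem three_le : 3 ≤ S.l := by
  have := S.hl
  nlinarith [Nat.zero_le S.d]

theorem run_len {ρs : List S.M.Rl} {a b : S.M.κ → List S.M.Γ} (h : S.M.Run ρs a b) :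
    (mword (k := k) a).length ≤ (mword (k := k) b).length + S.d * ρs.length ∧
    (mword (k := k) b).length ≤ (mword (k := k) a).length + S.d * ρs.length := by
  induction h with
  | nil c => simp
  | cons ρ ρs r c' _ ih =>
    rw [mword_app_len] at ih ⊢
    have h1 := S.pop_le ρ
    have h2 := S.push_le ρ
    simp only [List.length_cons, mul_add, mul_one]
    omega

theorem blk_len (o : Option S.X) : (S.blk o).length = S.l := by
  simp [blk, cw, cl, S.bl_len]

theorem bar_len (x : S.X) : (S.bar x).length = S.l + 3 := by simp [bar, blk_len]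

theorem barw_len (m : List S.X) : (S.barw m).length = (S.l + 3) * m.length := by
  induction m with
  | nil => simp [barw]
  | cons y m ih =>
    rw [barw, List.flatMap_cons, List.length_append, ← barw, ih, bar_len, List.length_cons]; ring

theorem encm_len (m : List S.X) : (S.encm m).length = S.l * (m.length + 1) := by
  rw [encm, List.length_append, S.bl_len]
  induction m with
  | nil => simp
  | cons y m ih =>
    rw [List.flatMap_cons, List.length_append, S.bl_len, List.length_cons]
    linarith

theorem enc_len (p : Pl S.X) : S.l * deg p ≤ (S.enc p).length := by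
  induction p with
  | nil => simp [deg]
  | cons m p ih =>
    rw [enc, List.flatMap_cons, List.length_append, ← enc, encm_len, deg_cons]
    rcases le_total m.length (deg p) with h | h
    · rw [max_eq_right h]; omega
    · rw [max_eq_left h]; nlinarith

end Setup

namespace Ctx
variable {k : ℕ} {Z : Ctx k}

/-- Bound on the support. -/
def Bd (f : Z.Stt → ℕ) (n : ℕ) (v : Z.V) : Prop := ∀ y ∈ v.support, f y ≤ n

section
variable {f : Z.Stt → ℕ}

theorem Bd.mono {n m : ℕ} {v : Z.V} (h : Bd f n v) (hm : n ≤ m) : Bd f m v :=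
  fun y hy => (h y hy).trans hm

theorem Bd_zero (n : ℕ) : Bd f n 0 := by simp [Bd]

theorem Bd_sg {n : ℕ} {x : Z.Stt} (h : f x ≤ n) : Bd f n (sg x) := by
  intro y hy
  have := Finsupp.support_single_subset hy
  rw [Finset.mem_singleton] at this
  rwa [this]

theorem Bd.add {n : ℕ} {v w : Z.V} (h : Bd f n v) (h' : Bd f n w) : Bd f n (v + w) := by
  intro y hy
  rcases Finset.mem_union.1 (Finsupp.support_add hy) with h1 | h1
  · exact h y h1
  · exact h' y h1

theorem Bd.smul {n : ℕ} {v : Z.V} (h : Bd f n v) (r : ZMod 2) : Bd f n (r • v) :=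
  fun y hy => h y (Finsupp.support_smul hy)

theorem Bd_sum {ι : Type*} {n : ℕ} (s : Finset ι) {g : ι → Z.V} (h : ∀ i ∈ s, Bd f n (g i)) :
    Bd f n (∑ i ∈ s, g i) :=
  Finset.sum_induction g (Bd f n) (fun _ _ => Bd.add) (Bd_zero n) h

theorem eq_sum (v : Z.V) : v = ∑ x ∈ v.support, v x • sg x := by
  conv_lhs => rw [← Finsupp.sum_single v]
  simp [Finsupp.sum, sg]

theorem Bd.map {n m : ℕ} {v : Z.V} (h : Bd f n v) (F : Z.V →ₗ[ZMod 2] Z.V)
    (hF : ∀ x, f x ≤ n → Bd f m (F (sg x))) : Bd f m (F v) := by
  rw [eq_sum v, map_sum]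
  refine Bd_sum _ fun x hx => ?_
  rw [map_smul]
  exact (hF x (h x hx)).smul _

theorem slot_eq (x : Z.Stt) (g : Z.R.B →₀ ZMod 2) :
    slot x g = ∑ β ∈ g.support, g β • sg ⟨x.t, β, x.it⟩ := by
  conv_lhs => rw [← Finsupp.sum_single g]
  simp only [Finsupp.sum, map_sum, slot_single]

theorem Bd_slot {n : ℕ} (x : Z.Stt) (g : Z.R.B →₀ ZMod 2)
    (h : ∀ β ∈ g.support, f ⟨x.t, β, x.it⟩ ≤ n) : Bd f n (slot x g) := by
  rw [slot_eq]
  exact Bd_sum _ fun β hβ => (Bd_sg (h β hβ)).smul _

end

/-- Weight of a live part. -/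
noncomputable def U (t : Tape Z.S.M) (β : Z.R.B) : ℕ :=
  (mword (k := k) t.m).length + 3 * t.c.length + (3 + Z.S.d) * t.h.length +
    (Z.S.l + 3) * (Z.R.mon β).length

/-- Length of a dead part. -/
noncomputable def U0 (t : Tape Z.S.M) (β : Z.R.B) : ℕ :=
  (mword (k := k) t.m).length + t.c.length + t.h.length + (Z.S.l + 3) * (Z.R.mon β).length

theorem U0_le (t : Tape Z.S.M) (β : Z.R.B) : U0 t β ≤ U t β := by
  unfold U0 U; nlinarith [Nat.zero_le (Z.S.d * t.h.length)]

/-- Weight of the frozen items. -/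
noncomputable def wit : List (Hd × Tape Z.S.M × Z.R.B) → ℕ
  | [] => 0
  | i :: r => 1 + (if i.1 = .a then U i.2.1 i.2.2 else U0 i.2.1 i.2.2) + wit r

/-- The potential. -/
noncomputable def Th (x : Z.Stt) : ℕ := U x.t x.b + wit x.it

theorem U_nil : U (Z := Z) (Tape.nil _) Z.R.one = 0 := by
  simp [U, Tape.nil, mword_nil, Z.R.mon_one]

theorem Bd_fz (h : Hd) (x : Z.Stt) : Bd Th (Th x + 1) (fz h x) := by
  refine Bd_sg ?_
  have := U0_le x.t x.b
  simp only [Th, U_nil, wit]
  split_ifs <;> omega

theorem Th_setc (x : Z.Stt) (c c' : List (Option Z.S.M.Rl)) :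
    Th (setc x (c ++ c')) = Th (setc x c') + 3 * c.length := by
  simp only [Th, setc, U, List.length_append]; ring

theorem Bd_vCl (x : Z.Stt) (c : List (Option Z.S.M.Rl)) : Bd Th (Th (setc x c) + 1) (vCl x c) := by
  induction c with
  | nil => exact Bd_fz _ _
  | cons o c ih =>
    have := Th_setc x [o] c
    simp only [List.singleton_append] at this
    cases o with
    | none => exact Bd_sg (by omega)
    | some ρ => exact ih.mono (by omega)

theorem Bd_Bop {n : ℕ} {v : Z.V} (h : Bd Th n v) (y : Z.S.X) :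
    Bd Th (n + (Z.S.l + 3)) (Bop (wd [y]) v) := by
  refine h.map _ fun x hx => ?_
  rw [Bop_sg, ← wd_cons]
  refine Bd_slot _ _ fun β hβ => ?_
  have := Z.R.red_len _ β hβ
  simp only [Th, U, List.length_cons] at hx this ⊢
  nlinarith

theorem Bd_vT (x : Z.Stt) (c : List (Option Z.S.M.Rl)) : Bd Th (Th (setc x c) + 1) (vT x c) := by
  induction c using Z.S.clock_ind with
  | h1 o c ih =>
    rw [vT_blk, Th_setc, Setup.cl_len, Z.S.bl_len]
    have := Z.S.three_le
    cases o with
    | none => exact (Bd_vCl x c).mono (by omega)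
    | some y => exact (Bd_Bop ih y).mono (by omega)
  | h2 c =>
    rw [vT_go]
    have := Th_setc x [some Z.S.M.go] c
    simp only [List.singleton_append] at this
    exact (Bd_vCl x c).mono (by omega)
  | h3 c h1 h2 => rw [vT_else x h1 h2]; exact Bd_fz _ _

theorem Bd_vK (x : Z.Stt) (c : List (Option Z.S.M.Rl)) : Bd Th (Th (setc x c) + 1) (vK x c) := by
  induction c using Z.S.clock_ind with
  | h1 o c ih =>
    rw [vK_blk, Th_setc]
    refine Bd.add ?_ (ih.mono (by omega))
    cases o with
    | none => exact (Bd_vT x c).mono (by omega)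
    | some y => exact Bd_zero _
  | h2 c => rw [vK_go]; exact Bd_zero _
  | h3 c h1 h2 => rw [vK_else x h1 h2]; exact Bd_fz _ _

theorem Bd_vR (x : Z.Stt) (r : Tape Z.S.M) : Bd Th (Th ⟨r, x.b, x.it⟩ + 1) (vR x r) := by
  unfold vR
  split_ifs with hl h2
  · refine (Bd_vK _ _).mono ?_
    have h1 := congrArg (fun m => (mword (k := k) m).length) hl.choose_spec.1
    have h2 := congrArg List.length hl.choose_spec.2
    simp only [mword_app_len, List.length_cons] at h1 h2
    simp only [Th, setc, U, h1, h2]
    nlinarith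
  · exact Bd_zero _
  · exact Bd_fz _ _

theorem U_root (t : Tape Z.S.M) (β : Z.R.B) : U (root t.h t.m t.c) β ≤ U t β := by
  obtain ⟨ρs, h1, h2, h3⟩ := root_spec t.h t.m t.c
  have h4 := (Z.S.run_len h3).1
  have h5 := congrArg List.length h1
  have h6 := congrArg List.length h2
  simp only [List.length_append, List.length_map, List.length_reverse] at h5 h6
  simp only [U]
  rw [h6]
  conv_rhs => rw [h5]
  nlinarith

theorem spec_len {x : Z.Stt} {p : Pl Z.S.X} (h : Spec x p) {β : Z.R.B}
    (hβ : β ∈ (Z.R.red (toW p)).support) : U0 x.t β ≤ U x.t x.b := by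
  have h1 := Z.R.red_len' (toW_mem_Wle (le_refl (deg p))) β hβ
  have h2 := Z.S.enc_len p
  have h3 := Z.S.three_le
  simp only [U0, U, h.1, Setup.cl_len, List.length_nil]
  nlinarith [Nat.zero_le ((Z.S.l + 3) * (Z.R.mon x.b).length)]

theorem Bd_vA (x : Z.Stt) : Bd Th (Th x + 1) (vA x) := by
  unfold vA
  split
  · rename_i t' β' it' hit
    split_ifs with h
    · refine Bd.add (Bd_sg ?_) (Bd_sum _ fun β hβ => Bd_sg ?_)
      · simp only [Th, hit, wit, if_true]; omega
      · have := spec_len h.choose_spec (Finset.mem_of_mem_erase hβ)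
        simp only [Th, U_nil, wit]
        rw [if_neg (by decide)]
        omega
    · exact Bd_fz _ _
  · exact Bd_fz _ _

theorem upd_len (j : Z.S.M.κ) (γ : Z.S.M.Γ) (m : Z.S.M.κ → List Z.S.M.Γ) :
    (mword (k := k) fun i => if i = j then γ :: m i else m i).length =
      (mword (k := k) m).length + 1 := by
  simp only [mword_len]
  have : ∀ i, (if i = j then γ :: m i else m i).length = (m i).length + if i = j then 1 else 0 := by
    intro i; split_ifs <;> simp
  simp only [this, Finset.sum_add_distrib]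
  simp

theorem Bd_act1 (y : Z.S.X) (x : Z.Stt) : Bd Th (Th x + (Z.S.d + 3)) (Z.act1 y x) := by
  rcases y with ⟨j, γ⟩ | o | o | h | i
  · refine Bd_sg ?_
    simp only [Th, U, upd_len]; omega
  · refine Bd_sg ?_
    simp only [Th, U, List.length_cons]; omega
  · refine Bd_sg ?_
    simp only [Th, U, List.length_cons]; nlinarith
  · cases h
    · refine (Bd_vR _ _).mono ?_
      have := U_root x.t x.b
      simp only [Th]; omega
    · exact (Bd_vK _ _).mono (by change Th x + 1 ≤ _; omega)
    · exact (Bd_vT _ _).mono (by change Th x + 1 ≤ _; omega)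
    · exact (Bd_vCl _ _).mono (by change Th x + 1 ≤ _; omega)
    · exact (Bd_vA _).mono (by omega)
    · exact (Bd_fz _ _).mono (by omega)
  · exact Bd_sg (by omega)

variable (Z)

/-- The vacuum state. -/
def x0 : Z.Stt := ⟨Tape.nil _, Z.R.one, []⟩

theorem Bd_word (w : List Z.S.X) :
    Bd Th ((Z.S.d + 3) * w.length) (Z.act (wd w) (sg Z.x0)) := by
  induction w with
  | nil =>
    rw [act_nil]
    exact Bd_sg (by simp [Th, x0, U_nil, wit])
  | cons y w ih =>
    rw [act_cons]
    refine ih.map _ fun x hx => ?_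
    rw [lin_sg]
    refine (Bd_act1 y x).mono ?_
    rw [List.length_cons]; linarith

end Ctx

end Vale.Agent.P193
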