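import Vale.Agent.P193.Defs

/-! Greedy monomial bases modulo a left ideal. -/

namespace Vale.Agent.P193

theorem wd_span_top (X : Type) : Submodule.span (ZMod 2) (Set.range (wd : List X → FA X)) = ⊤ := by
  rw [eq_top_iff]
  rintro b -
  induction b using MonoidAlgebra.induction_on with
  | of m => exact Submodule.subset_span ⟨FreeMonoid.toList m, rfl⟩
  | add a b ha hb => exact add_mem ha hb
  | smul r a ha => exact Submodule.smul_mem _ r ha

theorem FA.ind {X : Type} {P : FA X → Prop} (h0 : P 0) (hw : ∀ l, P (wd l))
    (ha : ∀ a b, P a → P b → P (a + b)) (b : FA X) : P b := by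
  have hb : b ∈ Submodule.span (ZMod 2) (Set.range (wd : List X → FA X)) := by
    rw [wd_span_top]; trivial
  induction hb using Submodule.span_induction with
  | mem x hx => obtain ⟨l, rfl⟩ := hx; exact hw l
  | zero => exact h0
  | add a b _ _ h1 h2 => exact ha a b h1 h2
  | smul r a _ h =>
    have : r = 0 ∨ r = 1 := by revert r; decide
    rcases this with rfl | rfl
    · simpa using h0
    · simpa using h

theorem FA.two {X : Type} (a : FA X) : a + a = 0 := by
  have : (2 : ZMod 2) • a = 0 := by
    have h : (2 : ZMod 2) = 0 := rfl
    rw [h, zero_smul]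
  rwa [two_smul] at this

/-- A monomial basis modulo a left ideal, compatible with the length. -/
structure Red {X : Type} (L : Ideal (FA X)) where
  B : Type
  mon : B → List X
  red : FA X →ₗ[ZMod 2] (B →₀ ZMod 2)
  one : B
  mon_one : mon one = []
  red_mon : ∀ β, red (wd (mon β)) = Finsupp.single β 1
  red_eq_zero : ∀ b, red b = 0 ↔ b ∈ L
  red_len : ∀ m : List X, ∀ β ∈ (red (wd m)).support, (mon β).length ≤ m.length

theorem red_exists {X : Type} (L : Ideal (FA X)) (h1 : (1 : FA X) ∉ L) : Nonempty (Red L) := by
  classical
  let L' : Submodule (ZMod 2) (FA X) := L.restrictScalars (ZMod 2)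
  let v : List X → FA X ⧸ L' := fun m => L'.mkQ (wd m)
  letI wo : LinearOrder (List X) := linearOrderOfSTO WellOrderingRel
  haveI wf : WellFoundedLT (List X) := ⟨(WellOrderingRel.isWellOrder (α := List X)).wf⟩
  let key : List X → ℕ ×ₗ List X := fun m => toLex (m.length, m)
  have kinj : Function.Injective key := fun a b h => congrArg (fun x => (ofLex x).2) h
  have klen : ∀ a b, key a < key b → a.length ≤ b.length := by
    intro a b h
    rcases (Prod.Lex.toLex_lt_toLex).1 h with h | h
    · exact h.le
    · exact h.1.le
  let B := {m : List X // v m ∉ Submodule.span (ZMod 2) (v '' {m' | key m' < key m})}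
  have hspan : ∀ m, v m ∈ Submodule.span (ZMod 2)
      ((fun β : B => v β.1) '' {β | β.1.length ≤ m.length}) := by
    intro m
    induction m using (InvImage.wf key (wellFounded_lt (α := ℕ ×ₗ List X))).induction with
    | _ m ih =>
      by_cases hm : v m ∈ Submodule.span (ZMod 2) (v '' {m' | key m' < key m})
      · refine Submodule.span_le.2 ?_ hm
        rintro _ ⟨m', hm', rfl⟩
        refine Submodule.span_mono (Set.image_mono ?_) (ih m' hm')
        intro β hβ
        exact le_trans hβ (klen _ _ hm')
      · exact Submodule.subset_span ⟨⟨m, hm⟩, (le_rfl : m.length ≤ m.length), rfl⟩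
  have hli : LinearIndependent (ZMod 2) (fun β : B => v β.1) := by
    rw [linearIndependent_iff']
    intro s
    induction s using Finset.induction_on_max_value (fun β : B => key β.1) with
    | empty => intro g _ i hi; simp at hi
    | insert a s has hs ih =>
      intro g hg
      rw [Finset.sum_insert has] at hg
      have ha : g a = 0 := by
        by_contra hne
        have h1 : g a = 1 := by
          revert hne; generalize g a = r; revert r; decide
        rw [h1, one_smul] at hg
        apply a.2
        rw [eq_neg_of_add_eq_zero_left hg]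
        refine neg_mem (Submodule.sum_mem _ fun i hi => Submodule.smul_mem _ _ ?_)
        refine Submodule.subset_span ⟨i.1, lt_of_le_of_ne (hs i hi) fun h => ?_, rfl⟩
        exact has (Subtype.ext (kinj h) ▸ hi)
      rw [ha, zero_smul, zero_add] at hg
      intro i hi
      rcases Finset.mem_insert.1 hi with rfl | hi
      · exact ha
      · exact ih g hg i hi
  have htop : ⊤ ≤ Submodule.span (ZMod 2) (Set.range fun β : B => v β.1) := by
    rintro q -
    obtain ⟨b, rfl⟩ := L'.mkQ_surjective q
    induction b using FA.ind with
    | h0 => simp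
    | hw l => exact Submodule.span_mono (Set.image_subset_range _ _) (hspan l)
    | ha a b h1 h2 => rw [map_add]; exact add_mem h1 h2
  let bs := Module.Basis.mk hli htop
  have hone : v [] ∉ Submodule.span (ZMod 2) (v '' {m' | key m' < key []}) := by
    have : {m' | key m' < key []} = ∅ := by
      ext m'
      simp only [Set.mem_setOf_eq, Set.mem_empty_iff_false, iff_false]
      intro h
      have h2 := klen _ _ h
      have : m' = [] := List.length_eq_zero_iff.1 (by simpa using h2)
      subst this
      exact lt_irrefl _ h
    rw [this, Set.image_empty, Submodule.span_empty, Submodule.mem_bot]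
    intro h
    apply h1
    have := (Submodule.Quotient.mk_eq_zero L').1 h
    rwa [wd_nil] at this
  refine ⟨⟨B, fun β => β.1, bs.repr.toLinearMap ∘ₗ L'.mkQ, ⟨[], hone⟩, rfl, ?_, ?_, ?_⟩⟩
  · intro β
    have : L'.mkQ (wd β.1) = bs β := by simp [bs, v]
    simp only [LinearMap.comp_apply, this]
    simp
  · intro b
    simp only [LinearMap.comp_apply, LinearEquiv.coe_coe, map_eq_zero_iff _ bs.repr.injective]
    exact Submodule.Quotient.mk_eq_zero L'
  · intro m β hβ
    have h := hspan m
    have h2 : (fun β : B => v β.1) = bs := by funext β; simp [bs]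
    rw [h2] at h
    exact bs.repr_support_subset_of_mem_span _ h hβ

namespace Red
variable {X : Type} {L : Ideal (FA X)} (R : Red L)

/-- The lift of a coefficient vector. -/
noncomputable def inc : (R.B →₀ ZMod 2) →ₗ[ZMod 2] FA X :=
  Finsupp.linearCombination (ZMod 2) fun β => wd (R.mon β)

theorem red_inc (f : R.B →₀ ZMod 2) : R.red (R.inc f) = f := by
  induction f using Finsupp.induction_linear with
  | zero => simp
  | add f g hf hg => rw [map_add, map_add, hf, hg]
  | single β r => simp [inc, R.red_mon]

theorem sub_inc_mem (b : FA X) : b - R.inc (R.red b) ∈ L := by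
  rw [← R.red_eq_zero, map_sub, red_inc, sub_self]

theorem red_mul_inc (a b : FA X) : R.red (a * R.inc (R.red b)) = R.red (a * b) := by
  have : R.red (a * (b - R.inc (R.red b))) = 0 :=
    (R.red_eq_zero _).2 (L.mul_mem_left a (R.sub_inc_mem b))
  rw [mul_sub, map_sub, sub_eq_zero] at this
  exact this.symm

theorem red_one : R.red 1 = Finsupp.single R.one 1 := by
  rw [← R.red_mon, R.mon_one, wd_nil]

theorem red_len' {j : ℕ} {b : FA X} (hb : b ∈ Wle X j) :
    ∀ β ∈ (R.red b).support, (R.mon β).length ≤ j := by
  classical
  induction hb using Submodule.span_induction with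
  | mem x hx =>
    obtain ⟨u, hu, rfl⟩ := hx
    exact fun β hβ => (R.red_len u β hβ).trans hu
  | zero => simp
  | add a b _ _ h1 h2 =>
    intro β hβ
    rw [map_add] at hβ
    rcases Finset.mem_union.1 (Finsupp.support_add hβ) with h | h
    · exact h1 β h
    · exact h2 β h
  | smul r a _ h =>
    intro β hβ
    rw [map_smul] at hβ
    exact h β (Finsupp.support_smul hβ)

end Red

end Vale.Agent.P193
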