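import Vale.Agent.P193.Sound

/-! Rewriting with length control. -/

namespace Vale.Agent.P193

open Classical

section
variable {X : Type} {F : Pl X → Prop}

theorem Sp_mono {N N' : ℕ} (h : N ≤ N') : Sp F N ≤ Sp F N' :=
  Submodule.span_mono fun _ ⟨u, v, r, h1, h2, h3⟩ => ⟨u, v, r, h1, h2.trans h, h3⟩

theorem Sp_mono_fam {F' : Pl X → Prop} (h : ∀ r, F r → F' r) (N : ℕ) : Sp F N ≤ Sp F' N :=
  Submodule.span_mono fun _ ⟨u, v, r, h1, h2, h3⟩ => ⟨u, v, r, h r h1, h2, h3⟩

theorem Sp_left {N : ℕ} {b : FA X} (hb : b ∈ Sp F N) (a : List X) :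
    wd a * b ∈ Sp F (a.length + N) := by
  induction hb using Submodule.span_induction with
  | mem x hx =>
    obtain ⟨u, v, r, h1, h2, rfl⟩ := hx
    refine Submodule.subset_span ⟨a ++ u, v, r, h1, by simp; omega, ?_⟩
    simp only [wd_append, mul_assoc]
  | zero => simp
  | add a b _ _ h1 h2 => rw [mul_add]; exact add_mem h1 h2
  | smul r a _ h => rw [mul_smul_comm]; exact Submodule.smul_mem _ _ h

theorem Sp_right {N : ℕ} {b : FA X} (hb : b ∈ Sp F N) (a : List X) :
    b * wd a ∈ Sp F (N + a.length) := by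
  induction hb using Submodule.span_induction with
  | mem x hx =>
    obtain ⟨u, v, r, h1, h2, rfl⟩ := hx
    refine Submodule.subset_span ⟨u, v ++ a, r, h1, by simp; omega, ?_⟩
    simp only [wd_append, mul_assoc]
  | zero => simp
  | add a b _ _ h1 h2 => rw [add_mul]; exact add_mem h1 h2
  | smul r a _ h => rw [smul_mul_assoc]; exact Submodule.smul_mem _ _ h

theorem Sp_base {r : Pl X} (h : F r) : toW r ∈ Sp F (deg r) :=
  Submodule.subset_span ⟨[], [], r, h, by simp, by simp [wd_nil]⟩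

variable (F) in
/-- Equality modulo instances of bounded length. -/
def Ev (N : ℕ) (a b : FA X) : Prop := a + b ∈ Sp F N

theorem Ev.refl (N : ℕ) (a : FA X) : Ev F N a a := by
  unfold Ev; rw [FA.two]; exact zero_mem _

theorem Ev.of_eq {N : ℕ} {a b : FA X} (h : a = b) : Ev F N a b := h ▸ Ev.refl N a

theorem Ev.symm {N : ℕ} {a b : FA X} (h : Ev F N a b) : Ev F N b a := by
  unfold Ev at *; rwa [add_comm]

theorem Ev.trans {N : ℕ} {a b c : FA X} (h : Ev F N a b) (h' : Ev F N b c) : Ev F N a c := by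
  unfold Ev at *
  have : a + c = (a + b) + (b + c) := by
    rw [add_assoc, ← add_assoc b, FA.two, zero_add]
  rw [this]; exact add_mem h h'

theorem Ev.mono {N N' : ℕ} {a b : FA X} (h : Ev F N a b) (hN : N ≤ N') : Ev F N' a b :=
  Sp_mono hN h

theorem Ev.add {N : ℕ} {a b c d : FA X} (h : Ev F N a b) (h' : Ev F N c d) :
    Ev F N (a + c) (b + d) := by
  unfold Ev at *
  have : a + c + (b + d) = (a + b) + (c + d) := by abel
  rw [this]; exact add_mem h h'

theorem Ev.smul {N : ℕ} {a b : FA X} (h : Ev F N a b) (r : ZMod 2) : Ev F N (r • a) (r • b) := by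
  unfold Ev at *
  rw [← smul_add]; exact Submodule.smul_mem _ _ h

theorem Ev.left {N : ℕ} {a b : FA X} (h : Ev F N a b) (u : List X) :
    Ev F (u.length + N) (wd u * a) (wd u * b) := by
  unfold Ev at *
  rw [← mul_add]; exact Sp_left h u

theorem Ev.right {N : ℕ} {a b : FA X} (h : Ev F N a b) (u : List X) :
    Ev F (N + u.length) (a * wd u) (b * wd u) := by
  unfold Ev at *
  rw [← add_mul]; exact Sp_right h u

theorem Ev.sum {ι : Type*} {N : ℕ} (s : Finset ι) {f g : ι → FA X}
    (h : ∀ i ∈ s, Ev F N (f i) (g i)) : Ev F N (∑ i ∈ s, f i) (∑ i ∈ s, g i) := by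
  unfold Ev at *
  rw [← Finset.sum_add_distrib]; exact Submodule.sum_mem _ h

theorem Ev.rule {a : List X} {p : Pl X} (h : F (a :: p)) (v : List X) {N : ℕ}
    (hN : deg (a :: p) + v.length ≤ N) : Ev F N (wd (a ++ v)) (toW p * wd v) := by
  have : Ev F (deg (a :: p)) (wd a) (toW p) := by
    have := Sp_base h
    rwa [toW_cons] at this
  rw [wd_append]
  exact (this.right v).mono hN

theorem toW_single (a : List X) : toW [a] = wd a := by rw [toW_cons, toW_nil, add_zero]

theorem Ev.rule2 {a b : List X} (h : F [a, b]) (v : List X) {N : ℕ}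
    (h1 : a.length + v.length ≤ N) (h2 : b.length + v.length ≤ N) :
    Ev F N (wd (a ++ v)) (wd (b ++ v)) := by
  have := Ev.rule h v (N := N) (by simp only [deg, List.map, List.foldr]; omega)
  rwa [toW_single, ← wd_append] at this

variable (F) in
/-- Length preserving equivalence. -/
def Cm (u w : List X) : Prop := u.length = w.length ∧ Ev F u.length (wd u) (wd w)

theorem Cm.refl (u : List X) : Cm F u u := ⟨rfl, Ev.refl _ _⟩

theorem Cm.of_eq {u w : List X} (h : u = w) : Cm F u w := h ▸ Cm.refl u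

theorem Cm.symm {u w : List X} (h : Cm F u w) : Cm F w u := ⟨h.1.symm, h.1 ▸ h.2.symm⟩

theorem Cm.trans {u w z : List X} (h : Cm F u w) (h' : Cm F w z) : Cm F u z :=
  ⟨h.1.trans h'.1, h.2.trans (h.1 ▸ h'.2)⟩

theorem Cm.left {u w : List X} (h : Cm F u w) (a : List X) : Cm F (a ++ u) (a ++ w) := by
  refine ⟨by simp [h.1], ?_⟩
  rw [wd_append, wd_append, List.length_append]; exact h.2.left a

theorem Cm.cons {u w : List X} (h : Cm F u w) (a : X) : Cm F (a :: u) (a :: w) := h.left [a]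

theorem Cm.right {u w : List X} (h : Cm F u w) (a : List X) : Cm F (u ++ a) (w ++ a) := by
  refine ⟨by simp [h.1], ?_⟩
  rw [wd_append, wd_append, List.length_append]; exact h.2.right a

theorem Cm.ev {u w : List X} (h : Cm F u w) {N : ℕ} (hN : u.length ≤ N) :
    Ev F N (wd u) (wd w) := h.2.mono hN

theorem Cm.ev' {u w : List X} (h : Cm F u w) {N : ℕ} (hN : w.length ≤ N) :
    Ev F N (wd u) (wd w) := h.2.mono (h.1 ▸ hN)

theorem Cm.rule {a b : List X} (h : F [a, b]) (hl : a.length = b.length) : Cm F a b := by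
  refine ⟨hl, ?_⟩
  simpa using Ev.rule2 h [] (N := a.length) (by simp) (by simp [hl])

theorem Cm.pass {u w : List X} (h : ∀ z ∈ w, Cm F (u ++ [z]) (z :: u)) :
    Cm F (u ++ w) (w ++ u) := by
  induction w with
  | nil => exact Cm.of_eq (by simp)
  | cons z w ih =>
    have h1 := (h z (by simp)).right w
    have h2 := (ih fun z hz => h z (by simp [hz])).cons z
    simp only [List.append_assoc, List.cons_append, List.nil_append] at h1 ⊢
    exact h1.trans h2

theorem Cm.swap {u w : List X} (h : ∀ y ∈ u, ∀ z ∈ w, Cm F [y, z] [z, y]) :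
    Cm F (u ++ w) (w ++ u) := by
  refine Cm.pass fun z hz => Cm.symm ?_
  exact Cm.pass (u := [z]) fun y hy => (h y hy z hz).symm

end

namespace Setup
variable {k : ℕ} {S : Setup k} {F : Pl S.X → Prop} (hF : ∀ r, S.R0 r → F r)
include hF

theorem cm_dis {u w : List S.X} (P : S.M.κ ⊕ Bool → Prop)
    (hu : ∀ y ∈ u, ∃ a, y.stk = some a ∧ P a) (hw : ∀ y ∈ w, ∃ a, y.stk = some a ∧ ¬ P a) :
    Cm F (u ++ w) (w ++ u) := by
  refine Cm.swap fun y hy z hz => ?_
  obtain ⟨a, ha, ha'⟩ := hu y hy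
  obtain ⟨b, hb, hb'⟩ := hw z hz
  exact Cm.rule (hF _ (.commT y z a b ha hb fun h => hb' (h ▸ ha'))) rfl

theorem cm_flat (a b : S.M.κ → List S.M.Γ) (js : List S.M.κ) (hn : js.Nodup) :
    Cm F ((js.flatMap fun j => (a j).map (Lt.m j)) ++ js.flatMap fun j => (b j).map (Lt.m j))
      (js.flatMap fun j => (app a b j).map (Lt.m j)) := by
  induction js with
  | nil => exact Cm.refl _
  | cons j js ih =>
    rw [List.nodup_cons] at hn
    have h1 : Cm F ((js.flatMap fun j => (a j).map (Lt.m j)) ++ (b j).map (Lt.m j))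
        ((b j).map (Lt.m j) ++ js.flatMap fun j => (a j).map (Lt.m j)) := by
      refine cm_dis hF (fun s => s ≠ .inl j) ?_ ?_
      · intro y hy
        simp only [List.mem_flatMap, List.mem_map] at hy
        obtain ⟨i, hi, γ, _, rfl⟩ := hy
        exact ⟨_, rfl, fun h => hn.1 (Sum.inl.inj h ▸ hi)⟩
      · intro y hy
        obtain ⟨γ, _, rfl⟩ := List.mem_map.1 hy
        exact ⟨_, rfl, by simp⟩
    have h2 := ((h1.right (js.flatMap fun j => (b j).map (Lt.m j))).left ((a j).map (Lt.m j)))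
    have h3 := ((ih hn.2).left ((b j).map (Lt.m j))).left ((a j).map (Lt.m j))
    simp only [List.flatMap_cons, List.append_assoc, app, List.map_append] at h2 h3 ⊢
    exact h2.trans h3

theorem cm_mword (a b : S.M.κ → List S.M.Γ) :
    Cm F (mword a ++ mword b) (mword (app a b)) := cm_flat hF a b _ (Finset.nodup_toList _)

omit hF in
theorem stk_mword {s : S.M.κ → List S.M.Γ} {y : S.X} (hy : y ∈ mword (k := k) s) :
    ∃ j, y.stk = some (.inl j) := by
  simp only [mword, List.mem_flatMap, List.mem_map] at hy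
  obtain ⟨i, _, γ, _, rfl⟩ := hy
  exact ⟨_, rfl⟩

variable (S) in
omit hF in
/-- The word of a tape. -/
noncomputable def tw (t : Tape S.M) : List S.X := t.h.map Lt.h ++ t.c.map Lt.c ++ mword t.m

omit hF in
theorem tw_len (t : Tape S.M) :
    (S.tw t).length = (mword (k := k) t.m).length + t.c.length + t.h.length := by
  simp [tw]; omega

omit hF in
theorem stk_tw {t : Tape S.M} {y : S.X} (hy : y ∈ S.tw t) : ∃ b, y.stk = some b := by
  simp only [tw, List.mem_append, List.mem_map] at hy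
  rcases hy with (⟨o, _, rfl⟩ | ⟨o, _, rfl⟩) | hy
  · exact ⟨_, rfl⟩
  · exact ⟨_, rfl⟩
  · obtain ⟨j, hj⟩ := stk_mword hy; exact ⟨_, hj⟩

theorem cm_m (s m : S.M.κ → List S.M.Γ) (c h : List (Option S.M.Rl)) :
    Cm F (mword s ++ S.tw ⟨m, c, h⟩) (S.tw ⟨app s m, c, h⟩) := by
  have h1 : Cm F (mword s ++ (h.map Lt.h ++ c.map Lt.c)) ((h.map Lt.h ++ c.map Lt.c) ++ mword s) := by
    refine cm_dis hF (fun a => a.isLeft) ?_ ?_
    · intro y hy
      obtain ⟨j, hj⟩ := stk_mword hy
      exact ⟨_, hj, rfl⟩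
    · intro y hy
      simp only [List.mem_append, List.mem_map] at hy
      rcases hy with ⟨o, _, rfl⟩ | ⟨o, _, rfl⟩ <;> exact ⟨_, rfl, by simp⟩
  have h2 := h1.right (mword m)
  have h3 := (cm_mword hF s m).left (h.map Lt.h ++ c.map Lt.c)
  simp only [tw, List.append_assoc] at h2 h3 ⊢
  exact h2.trans h3

theorem cm_c (m : S.M.κ → List S.M.Γ) (c' c h : List (Option S.M.Rl)) :
    Cm F (c'.map Lt.c ++ S.tw ⟨m, c, h⟩) (S.tw ⟨m, c' ++ c, h⟩) := by
  have h1 : Cm F (c'.map Lt.c ++ h.map Lt.h) (h.map Lt.h ++ c'.map Lt.c) := by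
    refine cm_dis hF (fun a => a = .inr false) ?_ ?_
    · intro y hy
      obtain ⟨o, _, rfl⟩ := List.mem_map.1 hy
      exact ⟨_, rfl, rfl⟩
    · intro y hy
      obtain ⟨o, _, rfl⟩ := List.mem_map.1 hy
      exact ⟨_, rfl, by simp⟩
  have h2 := h1.right (c.map Lt.c ++ mword m)
  simpa only [tw, List.append_assoc, List.map_append] using h2

theorem cm_bar (y : S.X) (t : Tape S.M) : Cm F (S.bar y ++ S.tw t) (S.tw t ++ S.bar y) := by
  refine Cm.pass fun z hz => ?_
  obtain ⟨b, hb⟩ := stk_tw hz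
  exact Cm.rule (hF _ (.commB y z b hb)) (by simp)

theorem ev_run {ρs : List S.M.Rl} {m m' : S.M.κ → List S.M.Γ} (hr : S.M.Run ρs m m')
    (c h : List (Option S.M.Rl)) {N : ℕ}
    (hN : 1 + (mword (k := k) m).length + (1 + S.d) * ρs.length + c.length + h.length ≤ N) :
    Ev F N (wd (Lt.hd .Y :: S.tw ⟨m, ρs.map some ++ c, h⟩))
      (wd (Lt.hd .Y :: S.tw ⟨m', c, ρs.reverse.map some ++ h⟩)) := by
  induction hr generalizing h with
  | nil c => exact Ev.refl _ _
  | cons ρ ρs rest c' _ ih =>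
    have hp := S.pop_le ρ
    have hq := S.push_le ρ
    rw [mword_app_len, List.length_cons] at hN
    have h1 := ((((cm_m hF (S.M.pop ρ) rest (ρs.map some ++ c) h).cons (Lt.c (some ρ))).trans
      (cm_c hF _ [some ρ] _ h)).cons (Lt.hd .Y)).symm
    have h2 := Ev.rule2 (hF _ (.back ρ)) (S.tw ⟨rest, ρs.map some ++ c, h⟩) (N := N)
      (by simp [tw_len]; nlinarith) (by simp [tw_len]; nlinarith)
    have h3 := (((cm_m hF (S.M.push ρ) rest (ρs.map some ++ c) h).cons (Lt.h (some ρ))).cons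
      (Lt.hd .Y))
    have h4 := ih (some ρ :: h) (by rw [mword_app_len, List.length_cons]; nlinarith)
    refine ((h1.ev' (by simp [tw_len]; nlinarith)).trans h2.symm).trans
      ((h3.ev (by simp [tw_len]; nlinarith)).trans ?_)
    simpa [tw] using h4

end Setup

end Vale.Agent.P193
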