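import Vale.Agent.P193.Red

/-! The coordinate algebra: basic relations. -/

namespace Vale.Agent.P193

open Classical

namespace Hough
variable (Ho : Hough)

instance : DecidableEq Ho.I := Ho.dec

/-- The distinguished coordinate. -/
def top : Ho.I := Ho.e none

/-- The shift of coordinates. -/
def β (p : Ho.I) : Ho.I := Ho.e (some p)

theorem β_inj : Function.Injective Ho.β := fun _ _ h => Option.some.inj (Ho.e.injective h)

theorem β_ne (p : Ho.I) : Ho.β p ≠ Ho.top := fun h => by simpa using Ho.e.injective h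

theorem top_or (p : Ho.I) : p = Ho.top ∨ ∃ q, p = Ho.β q := by
  obtain ⟨o, rfl⟩ := Ho.e.surjective p
  cases o with
  | none => exact Or.inl rfl
  | some q => exact Or.inr ⟨q, rfl⟩

/-- The shift endomorphism of the group. -/
def φ : Ho.H →* Ho.H where
  toFun g := ⟨Ho.e.permCongr (Equiv.optionCongr g.1), Ho.h1 g.1 g.2⟩
  map_one' := by ext p; simp
  map_mul' g h := by
    ext p
    simp only [Subgroup.coe_mul, Equiv.permCongr_apply, Equiv.Perm.coe_mul, Function.comp_apply,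
      Equiv.symm_apply_apply, Equiv.optionCongr_apply, Option.map_map]

theorem φ_top (g : Ho.H) : (Ho.φ g).1 Ho.top = Ho.top := by simp [φ, top]

theorem φ_β (g : Ho.H) (p : Ho.I) : (Ho.φ g).1 (Ho.β p) = Ho.β (g.1 p) := by simp [φ, β]

theorem stab {g : Ho.H} (h : g.1 Ho.top = Ho.top) : ∃ g', g = Ho.φ g' := by
  obtain ⟨g', h1, h2⟩ := Ho.h2 g.1 g.2 h
  exact ⟨⟨g', h1⟩, Subtype.ext h2⟩

theorem trans1 (p : Ho.I) : ∃ g : Ho.H, g.1 Ho.top = p := by
  obtain ⟨g, h1, h2⟩ := Ho.h3 p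
  exact ⟨⟨g, h1⟩, h2⟩

/-- The basic transposition. -/
def σ : Ho.H := ⟨Equiv.swap Ho.top (Ho.β Ho.top), Ho.h4⟩

theorem σ_top : Ho.σ.1 Ho.top = Ho.β Ho.top := Equiv.swap_apply_left _ _

theorem σ_β : Ho.σ.1 (Ho.β Ho.top) = Ho.top := Equiv.swap_apply_right _ _

theorem σ_ββ (p : Ho.I) : Ho.σ.1 (Ho.β (Ho.β p)) = Ho.β (Ho.β p) :=
  Equiv.swap_apply_of_ne_of_ne (Ho.β_ne _) fun h => Ho.β_ne _ (Ho.β_inj h)

theorem σ_σ : Ho.σ * Ho.σ = 1 := Subtype.ext (Equiv.swap_mul_self _ _)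

theorem σ_inv : Ho.σ⁻¹ = Ho.σ := inv_eq_of_mul_eq_one_right Ho.σ_σ

theorem trans2 {p q : Ho.I} (h : p ≠ q) :
    ∃ g : Ho.H, g.1 Ho.top = p ∧ g.1 (Ho.β Ho.top) = q := by
  obtain ⟨g, rfl⟩ := Ho.trans1 p
  rcases Ho.top_or (g.1⁻¹ q) with h1 | ⟨q', h1⟩
  · exact absurd (by rw [← h1]; simp) h
  · obtain ⟨g', rfl⟩ := Ho.trans1 q'
    refine ⟨g * Ho.φ g', ?_, ?_⟩
    · simp [φ_top]
    · simp only [Subgroup.coe_mul, Equiv.Perm.coe_mul, Function.comp_apply, φ_β, ← h1]; simp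

theorem swap_mem (p q : Ho.I) : Equiv.swap p q ∈ Ho.H := by
  by_cases h : p = q
  · subst h; rw [Equiv.swap_self]; exact one_mem _
  · obtain ⟨g, rfl, rfl⟩ := Ho.trans2 h
    rw [Equiv.swap_apply_apply]
    exact mul_mem (mul_mem g.2 Ho.h4) (inv_mem g.2)

/-- Transpositions as group elements. -/
def sw (p q : Ho.I) : Ho.H := ⟨Equiv.swap p q, Ho.swap_mem p q⟩

theorem φ_sw (p q : Ho.I) : Ho.φ (Ho.sw p q) = Ho.sw (Ho.β p) (Ho.β q) := by
  ext x
  rcases Ho.top_or x with rfl | ⟨x, rfl⟩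
  · rw [φ_top]
    exact (Equiv.swap_apply_of_ne_of_ne (Ho.β_ne _).symm (Ho.β_ne _).symm).symm
  · rw [φ_β]; exact Ho.β_inj.map_swap _ _ _

theorem sw_conj (g : Ho.H) (p q : Ho.I) : Ho.sw (g.1 p) (g.1 q) = g * Ho.sw p q * g⁻¹ :=
  Subtype.ext (Equiv.swap_apply_apply _ _ _)

theorem braid : Ho.φ Ho.σ * Ho.σ * Ho.φ Ho.σ = Ho.σ * Ho.φ Ho.σ * Ho.σ := by
  have h1 : Ho.σ = Ho.sw Ho.top (Ho.β Ho.top) := rfl
  have h2 := Ho.sw_conj (Ho.φ Ho.σ) Ho.top (Ho.β Ho.top)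
  have h3 := Ho.sw_conj Ho.σ (Ho.β Ho.top) (Ho.β (Ho.β Ho.top))
  rw [φ_top, φ_β, σ_top, ← map_inv, σ_inv, ← h1] at h2
  rw [σ_β, σ_ββ, σ_inv, ← φ_sw, ← h1] at h3
  rw [← h2, ← h3]

theorem φφ_σ (g : Ho.H) : Ho.σ * Ho.φ (Ho.φ g) = Ho.φ (Ho.φ g) * Ho.σ := by
  have h := Ho.sw_conj (Ho.φ (Ho.φ g)) Ho.top (Ho.β Ho.top)
  rw [φ_top, φ_β, φ_top] at h
  have h1 : Ho.σ = Ho.sw Ho.top (Ho.β Ho.top) := rfl
  rw [← h1] at h
  conv_lhs => rw [h]
  group

end Hough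

/-- Relations of the coordinate algebra. -/
structure RD (Ho : Hough) {G : Type*} [Group G] {k : ℕ} {s : Fin k → G} (C : Core G s)
    (R : Type) [Ring R] where
  η : Ho.H →* R
  κ : FA C.X →+* R
  a : R
  a' : R
  b : R
  b' : R
  rel : ∀ r ∈ C.Rel, κ r = 0
  aa : a' * a = 1
  bb : b' * b = 1
  sum : b * b' + a * a' = 1
  a_phi : ∀ g, Commute a (η (Ho.φ g))
  a'_phi : ∀ g, Commute a' (η (Ho.φ g))
  c1 : Commute a (η Ho.σ * a * η Ho.σ)
  c2 : Commute a (η Ho.σ * a' * η Ho.σ)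
  c3 : Commute a' (η Ho.σ * a * η Ho.σ)
  c4 : Commute a' (η Ho.σ * a' * η Ho.σ)
  b_eta : ∀ g, b * η g = η (Ho.φ g) * b
  b_a : b * a = η Ho.σ * a * η Ho.σ * b
  b_a' : b * a' = η Ho.σ * a' * η Ho.σ * b
  sbb : η Ho.σ * b * b = b * b
  k_a : ∀ w, Commute (κ w) a
  k_a' : ∀ w, Commute (κ w) a'
  k_eta : ∀ w g, Commute (κ w) (η g)
  b_k : ∀ w, b * κ w = κ (C.io w) * b

namespace RD
variable {Ho : Hough} {G : Type*} [Group G] {k : ℕ} {s : Fin k → G} {C : Core G s}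
  {R : Type} [Ring R] (D : RD Ho C R)

include D in
theorem two (r : R) : r + r = 0 := by
  have : (1 : R) + 1 = 0 := by rw [← map_one D.κ, ← map_add, FA.two, map_zero]
  rw [← one_mul r, ← add_mul, this, zero_mul]

theorem eta_inv (g : Ho.H) : D.η g * D.η g⁻¹ = 1 := by rw [← map_mul, mul_inv_cancel, map_one]

theorem inv_eta (g : Ho.H) : D.η g⁻¹ * D.η g = 1 := by rw [← map_mul, inv_mul_cancel, map_one]

theorem bb' : D.b * D.b' = 1 - D.a * D.a' := eq_sub_of_add_eq D.sum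

theorem b'a : D.b' * D.a = 0 := by
  calc D.b' * D.a = D.b' * (D.b * D.b') * D.a := by rw [← mul_assoc, D.bb, one_mul]
    _ = 0 := by rw [D.bb', mul_assoc, sub_mul, mul_assoc, D.aa]; simp

theorem a'b : D.a' * D.b = 0 := by
  calc D.a' * D.b = D.a' * (D.b * D.b') * D.b := by rw [mul_assoc, mul_assoc, D.bb, mul_one]
    _ = 0 := by rw [D.bb', mul_sub, ← mul_assoc, D.aa]; simp

theorem flip {r r' : R} (h : D.b * r = r' * D.b) (h2 : Commute r' D.a) :
    r * D.b' = D.b' * r' := by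
  calc r * D.b' = D.b' * (D.b * r) * D.b' + D.b' * D.a * r' * D.a' := by
        rw [← mul_assoc, D.bb, D.b'a]; simp
    _ = D.b' * r' * (D.b * D.b' + D.a * D.a') := by
        rw [h, mul_assoc D.b' D.a, ← h2.eq]; noncomm_ring
    _ = _ := by rw [D.sum, mul_one]

/-- Transport of an element to a coordinate. -/
noncomputable def tr (x : R) (p : Ho.I) : R :=
  D.η (Ho.trans1 p).choose * x * D.η (Ho.trans1 p).choose⁻¹

theorem tr_eq {x : R} (hx : ∀ g, Commute x (D.η (Ho.φ g))) (g : Ho.H) :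
    D.tr x (g.1 Ho.top) = D.η g * x * D.η g⁻¹ := by
  unfold tr
  have h := (Ho.trans1 (g.1 Ho.top)).choose_spec
  generalize (Ho.trans1 (g.1 Ho.top)).choose = g' at h
  obtain ⟨h', e⟩ := Ho.stab (g := g⁻¹ * g') (by simp [h])
  have e2 : g' = g * Ho.φ h' := by rw [← e]; group
  rw [e2, map_mul, mul_assoc (D.η g), ← (hx h').eq, mul_inv_rev, map_mul]
  simp only [mul_assoc]
  rw [← mul_assoc (D.η (Ho.φ h')), eta_inv, one_mul]

theorem tr_top {x : R} (hx : ∀ g, Commute x (D.η (Ho.φ g))) : D.tr x Ho.top = x := by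
  simpa using D.tr_eq hx 1

theorem tr_β {x : R} (hx : ∀ g, Commute x (D.η (Ho.φ g))) :
    D.tr x (Ho.β Ho.top) = D.η Ho.σ * x * D.η Ho.σ := by
  rw [← Ho.σ_top, D.tr_eq hx, Ho.σ_inv]

theorem eta_tr {x : R} (hx : ∀ g, Commute x (D.η (Ho.φ g))) (g : Ho.H) (p : Ho.I) :
    D.η g * D.tr x p = D.tr x (g.1 p) * D.η g := by
  obtain ⟨h, rfl⟩ := Ho.trans1 p
  have := D.tr_eq hx (g * h)
  simp only [Subgroup.coe_mul, Equiv.Perm.coe_mul, Function.comp_apply] at this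
  rw [this, D.tr_eq hx, mul_inv_rev, map_mul, map_mul]
  simp only [mul_assoc, inv_eta, mul_one]

theorem tr_mul (x y : R) (p : Ho.I) : D.tr x p * D.tr y p = D.tr (x * y) p := by
  unfold tr
  simp only [mul_assoc]
  rw [← mul_assoc (D.η _⁻¹), inv_eta, one_mul]

theorem tr_comm {x y : R} (hx : ∀ g, Commute x (D.η (Ho.φ g)))
    (hy : ∀ g, Commute y (D.η (Ho.φ g))) (h : Commute x (D.η Ho.σ * y * D.η Ho.σ))
    {p q : Ho.I} (hpq : p ≠ q) : Commute (D.tr x p) (D.tr y q) := by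
  obtain ⟨g, rfl, rfl⟩ := Ho.trans2 hpq
  have e : D.tr y (g.1 (Ho.β Ho.top)) = D.η g * D.tr y (Ho.β Ho.top) * D.η g⁻¹ := by
    rw [D.eta_tr hy, mul_assoc, eta_inv, mul_one]
  rw [e, D.tr_eq hx, D.tr_β hy]
  generalize D.η Ho.σ * y * D.η Ho.σ = z at h
  unfold Commute SemiconjBy at *
  simp only [mul_assoc]
  rw [← mul_assoc (D.η g⁻¹), ← mul_assoc (D.η g⁻¹), inv_eta, one_mul, one_mul, ← mul_assoc x, h,
    mul_assoc]

theorem b_tr {x : R} (hx : ∀ g, Commute x (D.η (Ho.φ g)))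
    (h : D.b * x = D.η Ho.σ * x * D.η Ho.σ * D.b) (p : Ho.I) :
    D.b * D.tr x p = D.tr x (Ho.β p) * D.b := by
  obtain ⟨g, rfl⟩ := Ho.trans1 p
  rw [D.tr_eq hx, ← mul_assoc, ← mul_assoc, D.b_eta, mul_assoc (D.η _), h, ← D.tr_β hx,
    ← mul_assoc, D.eta_tr hx, Ho.φ_β, mul_assoc, mul_assoc, D.b_eta, ← mul_assoc (D.η _), map_inv,
    eta_inv, one_mul]

/-- The raising isometry at a coordinate. -/
noncomputable def A (p : Ho.I) : R := D.tr D.a p

/-- The lowering operator at a coordinate. -/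
noncomputable def A' (p : Ho.I) : R := D.tr D.a' p

theorem A_top : D.A Ho.top = D.a := D.tr_top D.a_phi
theorem A'_top : D.A' Ho.top = D.a' := D.tr_top D.a'_phi
theorem A_β : D.A (Ho.β Ho.top) = D.η Ho.σ * D.a * D.η Ho.σ := D.tr_β D.a_phi
theorem A'_β : D.A' (Ho.β Ho.top) = D.η Ho.σ * D.a' * D.η Ho.σ := D.tr_β D.a'_phi
theorem eta_A (g : Ho.H) (p : Ho.I) : D.η g * D.A p = D.A (g.1 p) * D.η g := D.eta_tr D.a_phi g p
theorem eta_A' (g : Ho.H) (p : Ho.I) : D.η g * D.A' p = D.A' (g.1 p) * D.η g :=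
  D.eta_tr D.a'_phi g p
theorem b_A (p : Ho.I) : D.b * D.A p = D.A (Ho.β p) * D.b := D.b_tr D.a_phi D.b_a p
theorem b_A' (p : Ho.I) : D.b * D.A' p = D.A' (Ho.β p) * D.b := D.b_tr D.a'_phi D.b_a' p

theorem A'A (p : Ho.I) : D.A' p * D.A p = 1 := by
  rw [A, A', tr_mul, D.aa, tr, mul_one, eta_inv]

theorem AA (p q : Ho.I) : Commute (D.A p) (D.A q) := by
  by_cases h : p = q
  · rw [h]
  · exact D.tr_comm D.a_phi D.a_phi D.c1 h

theorem A'A' (p q : Ho.I) : Commute (D.A' p) (D.A' q) := by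
  by_cases h : p = q
  · rw [h]
  · exact D.tr_comm D.a'_phi D.a'_phi D.c4 h

theorem AA' {p q : Ho.I} (h : p ≠ q) : Commute (D.A p) (D.A' q) :=
  D.tr_comm D.a_phi D.a'_phi D.c2 h

theorem A_b' (p : Ho.I) : D.A p * D.b' = D.b' * D.A (Ho.β p) :=
  D.flip (D.b_A p) (D.A_top ▸ D.AA _ _)

theorem A'_b' (p : Ho.I) : D.A' p * D.b' = D.b' * D.A' (Ho.β p) :=
  D.flip (D.b_A' p) (D.A_top ▸ (D.AA' (Ho.β_ne p).symm).symm)

theorem eta_b' (g : Ho.H) : D.η g * D.b' = D.b' * D.η (Ho.φ g) :=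
  D.flip (D.b_eta g) (D.a_phi g).symm

theorem kill_D {d : FA C.X} (hd : d ∈ C.D) : D.κ d = 0 := by
  have h1 : ∀ x ∈ TwoSidedIdeal.span C.Rel, D.κ x = 0 := by
    intro x hx
    have : TwoSidedIdeal.span C.Rel ≤ TwoSidedIdeal.ker D.κ :=
      TwoSidedIdeal.span_le.2 fun r hr => (TwoSidedIdeal.mem_ker _).2 (D.rel r hr)
    exact (TwoSidedIdeal.mem_ker _).1 (this hx)
  have h2 := D.b_k d
  rw [h1 _ (C.d2 d hd), zero_mul] at h2
  rw [← one_mul (D.κ d), ← D.bb, mul_assoc, h2, mul_zero]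

theorem kill_b : ∀ (r : ℕ) (q : Ho.I), q ∉ Set.range Ho.β^[r] →
    D.A' q * D.b ^ r = 0 ∧ D.b' ^ r * D.A q = 0 := by
  intro r
  induction r with
  | zero => intro q hq; exact absurd ⟨q, rfl⟩ hq
  | succ r ih =>
    intro q hq
    rw [pow_succ' D.b, pow_succ D.b']
    rcases Ho.top_or q with rfl | ⟨q, rfl⟩
    · rw [A_top, A'_top, ← mul_assoc, a'b, mul_assoc, b'a]; simp
    · have := ih q fun ⟨p, hp⟩ => hq ⟨p, by rw [Function.iterate_succ_apply', hp]⟩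
      rw [← mul_assoc, ← b_A', mul_assoc, this.1, mul_assoc, ← A_b', ← mul_assoc, this.2]
      simp

theorem sw_b : ∀ (r : ℕ) (q : Ho.I), q ∉ Set.range Ho.β^[r] →
    D.η (Ho.sw Ho.top q) * D.b ^ r = D.b ^ r := by
  intro r
  induction r with
  | zero => intro q hq; exact absurd ⟨q, rfl⟩ hq
  | succ r ih =>
    intro q hq
    rcases Ho.top_or q with rfl | ⟨q, rfl⟩
    · have : Ho.sw Ho.top Ho.top = 1 := Subtype.ext (Equiv.swap_self _)
      rw [this, map_one, one_mul]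
    · have hq' : q ∉ Set.range Ho.β^[r] :=
        fun ⟨p, hp⟩ => hq ⟨p, by rw [Function.iterate_succ_apply', hp]⟩
      have h1 := ih q hq'
      have h2 : D.η Ho.σ * D.b ^ (r + 1) = D.b ^ (r + 1) := by
        cases r with
        | zero => exact absurd ⟨q, rfl⟩ hq'
        | succ r => rw [pow_succ', pow_succ', ← mul_assoc, ← mul_assoc, D.sbb, mul_assoc]
      rcases Ho.top_or q with rfl | ⟨q, rfl⟩
      · exact h2
      · have h3 := Ho.sw_conj Ho.σ (Ho.β Ho.top) (Ho.β (Ho.β q))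
        rw [Ho.σ_β, Ho.σ_ββ, Ho.σ_inv, ← Ho.φ_sw] at h3
        rw [h3, map_mul, map_mul, mul_assoc, mul_assoc, h2, pow_succ', ← mul_assoc (D.η (Ho.φ _)),
          ← D.b_eta, mul_assoc, h1, ← pow_succ', h2]

theorem same_shape : ∀ (r r' : ℕ) (g : Ho.H), (∀ p, g.1 (Ho.β^[r] p) = Ho.β^[r'] p) →
    r = r' ∧ D.η g * D.b ^ r = D.b ^ r := by
  intro r
  induction r with
  | zero =>
    intro r' g h
    cases r' with
    | zero =>
      have : g = 1 := by ext p; exact h p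
      simp [this]
    | succ r' =>
      have := h (g.1⁻¹ Ho.top)
      rw [Function.iterate_succ_apply'] at this
      simp at this
      exact absurd this.symm (Ho.β_ne _)
  | succ r ih =>
    intro r' g h
    cases r' with
    | zero =>
      have := h (g.1 Ho.top)
      rw [Function.iterate_succ_apply'] at this
      exact absurd (g.1.injective this) (Ho.β_ne _)
    | succ r' =>
      have hq : g.1⁻¹ Ho.top ∉ Set.range Ho.β^[r + 1] := by
        rintro ⟨p, hp⟩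
        have := h p
        rw [hp, Function.iterate_succ_apply'] at this
        simp at this
        exact Ho.β_ne _ this.symm
      obtain ⟨g', hg⟩ := Ho.stab (g := g * Ho.sw Ho.top (g.1⁻¹ Ho.top)) (by simp [Hough.sw])
      have h1 := ih r' g' fun p => by
        apply Ho.β_inj
        rw [← Ho.φ_β, ← hg, ← Function.iterate_succ_apply' Ho.β, ← Function.iterate_succ_apply' Ho.β,
          ← h p]
        simp only [Subgroup.coe_mul, Equiv.Perm.coe_mul, Function.comp_apply, Hough.sw]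
        rw [Equiv.swap_apply_of_ne_of_ne]
        · rw [Function.iterate_succ_apply']; exact Ho.β_ne _
        · exact fun h' => hq ⟨p, h'⟩
      refine ⟨by rw [h1.1], ?_⟩
      conv_lhs => rw [← D.sw_b _ _ hq, ← mul_assoc, ← map_mul, hg, pow_succ', ← mul_assoc,
        ← D.b_eta, mul_assoc, h1.2, ← pow_succ']

/-- Centraliser of the coordinate operators. -/
def C0 (y : R) : Prop := Commute y D.a ∧ Commute y D.a' ∧ ∀ g, Commute y (D.η g)

theorem C0.A {D : RD Ho C R} {y : R} (h : D.C0 y) (p : Ho.I) : Commute y (D.A p) :=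
  ((h.2.2 _).mul_right h.1).mul_right (h.2.2 _)

theorem C0.A' {D : RD Ho C R} {y : R} (h : D.C0 y) (p : Ho.I) : Commute y (D.A' p) :=
  ((h.2.2 _).mul_right h.2.1).mul_right (h.2.2 _)

/-- Compression by `b`. -/
def cb (y : R) : R := D.b' * y * D.b

theorem C0.cb {D : RD Ho C R} {y : R} (h : D.C0 y) : D.C0 (D.cb y) := by
  have key : ∀ r r', D.b * r = r' * D.b → r * D.b' = D.b' * r' → Commute y r' →
      Commute (D.cb y) r := by
    intro r r' h1 h2 h3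
    unfold Commute SemiconjBy RD.cb at *
    rw [mul_assoc, h1, ← mul_assoc, mul_assoc D.b', h3, ← mul_assoc, ← h2]
    simp only [mul_assoc]
  refine ⟨?_, ?_, fun g => key _ _ (D.b_eta g) (D.eta_b' g) (h.2.2 _)⟩
  · exact D.A_top ▸ key _ _ (D.b_A _) (D.A_b' _) (h.A _)
  · exact D.A'_top ▸ key _ _ (D.b_A' _) (D.A'_b' _) (h.A' _)

theorem C0.bb' {D : RD Ho C R} {y : R} (h : D.C0 y) : Commute y (D.b * D.b') := by
  rw [D.bb']
  exact (Commute.one_right y).sub_right (h.1.mul_right h.2.1)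

theorem C0.mul_b {D : RD Ho C R} {y : R} (h : D.C0 y) : y * D.b = D.b * D.cb y := by
  rw [RD.cb, ← mul_assoc, ← mul_assoc, ← h.bb'.eq, mul_assoc, mul_assoc, D.bb, mul_one]

theorem C0.b'_mul {D : RD Ho C R} {y : R} (h : D.C0 y) : D.b' * y = D.cb y * D.b' := by
  rw [RD.cb, mul_assoc, mul_assoc, h.bb'.eq, ← mul_assoc, ← mul_assoc, D.bb, one_mul]

theorem C0_iter {y : R} (h : D.C0 y) (i : ℕ) : D.C0 (D.cb^[i] y) := by
  induction i with
  | zero => exact h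
  | succ i ih => rw [Function.iterate_succ_apply']; exact ih.cb

theorem C0_k (w : FA C.X) : D.C0 (D.κ w) := ⟨D.k_a w, D.k_a' w, D.k_eta w⟩

/-- The iterated compression of the machine algebra. -/
noncomputable def cj (i : ℕ) : FA C.X →+* R where
  toFun w := D.cb^[i] (D.κ w)
  map_one' := by
    rw [map_one]
    exact Function.iterate_fixed (by rw [cb, mul_one, D.bb]) i
  map_zero' := by
    rw [map_zero]
    exact Function.iterate_fixed (by simp [cb]) i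
  map_add' x y := by
    induction i with
    | zero => exact map_add _ _ _
    | succ i ih => simp only [Function.iterate_succ_apply', ih, cb, mul_add, add_mul]
  map_mul' x y := by
    induction i with
    | zero => exact map_mul _ _ _
    | succ i ih =>
      simp only [Function.iterate_succ_apply', ih]
      rw [cb, mul_assoc, mul_assoc, (D.C0_iter (D.C0_k y) i).mul_b, ← mul_assoc, ← mul_assoc]
      rfl

theorem cj_apply (i : ℕ) (w : FA C.X) : D.cj i w = D.cb^[i] (D.κ w) := rfl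

theorem cj_io (i : ℕ) (w : FA C.X) : D.cj (i + 1) (C.io w) = D.cj i w := by
  rw [cj_apply, Function.iterate_succ_apply, cb, mul_assoc, ← D.b_k, ← mul_assoc, D.bb, one_mul,
    cj_apply]

theorem cj_D (i : ℕ) {w : FA C.X} (h : w ∈ C.D) : D.cj i w = 0 := by
  rw [cj_apply, D.kill_D h]
  exact Function.iterate_fixed (by simp [cb]) i

theorem cj_inv (i : ℕ) {w : FA C.X} (h : w ∉ C.D) : ∃ α β, α * D.cj i w * β = 1 := by
  obtain ⟨α, β, h1⟩ := C.d3 w h
  have := D.cj_D (i + 1) h1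
  rw [map_sub, map_mul, map_mul, cj_io, map_one, sub_eq_zero] at this
  exact ⟨_, _, this⟩

/-- The coefficient ring. -/
def Cs (y : R) : Prop := ∃ i w, y = D.cj i w

theorem cj_up (i n : ℕ) (w : FA C.X) : ∃ w', D.cj i w = D.cj (i + n) w' := by
  induction n with
  | zero => exact ⟨w, rfl⟩
  | succ n ih => obtain ⟨w', h⟩ := ih; exact ⟨C.io w', by rw [h, ← add_assoc, cj_io]⟩

theorem Cs.add {D : RD Ho C R} {x y : R} (hx : D.Cs x) (hy : D.Cs y) : D.Cs (x + y) := by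
  obtain ⟨i, w, rfl⟩ := hx
  obtain ⟨j, v, rfl⟩ := hy
  obtain ⟨w', h1⟩ := D.cj_up i j w
  obtain ⟨v', h2⟩ := D.cj_up j i v
  exact ⟨i + j, w' + v', by rw [h1, h2, add_comm j i, map_add]⟩

theorem Cs.mul {D : RD Ho C R} {x y : R} (hx : D.Cs x) (hy : D.Cs y) : D.Cs (x * y) := by
  obtain ⟨i, w, rfl⟩ := hx
  obtain ⟨j, v, rfl⟩ := hy
  obtain ⟨w', h1⟩ := D.cj_up i j w
  obtain ⟨v', h2⟩ := D.cj_up j i v
  exact ⟨i + j, w' * v', by rw [h1, h2, add_comm j i, map_mul]⟩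

theorem Cs_zero : D.Cs 0 := ⟨0, 0, (map_zero _).symm⟩
theorem Cs_one : D.Cs 1 := ⟨0, 1, (map_one _).symm⟩
theorem Cs_k (w : FA C.X) : D.Cs (D.κ w) := ⟨0, w, rfl⟩

theorem Cs.c0 {D : RD Ho C R} {y : R} (h : D.Cs y) : D.C0 y := by
  obtain ⟨i, w, rfl⟩ := h; exact D.C0_iter (D.C0_k w) i

theorem Cs.iter {D : RD Ho C R} {y : R} (h : D.Cs y) (r : ℕ) : D.Cs (D.cb^[r] y) := by
  obtain ⟨i, w, rfl⟩ := h
  exact ⟨r + i, w, by rw [cj_apply, cj_apply, Function.iterate_add_apply]⟩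

theorem Cs.pre {D : RD Ho C R} {y : R} (h : D.Cs y) (r : ℕ) : ∃ y', D.Cs y' ∧ D.cb^[r] y' = y := by
  obtain ⟨i, w, rfl⟩ := h
  obtain ⟨w', h⟩ := D.cj_up i r w
  exact ⟨D.cj i w', ⟨i, w', rfl⟩, by
    rw [h, cj_apply, cj_apply, add_comm, Function.iterate_add_apply]⟩

theorem Cs.inv {D : RD Ho C R} {y : R} (h : D.Cs y) (hy : y ≠ 0) (r : ℕ) :
    ∃ α β, α * D.cb^[r] y * β = 1 := by
  obtain ⟨i, w, rfl⟩ := h
  rw [cj_apply, ← Function.iterate_add_apply, ← cj_apply]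
  exact D.cj_inv _ fun h => hy (D.cj_D i h)

theorem Cs.center {D : RD Ho C R} (h1 : (1 : R) ≠ 0) {z : R} (h : D.Cs z)
    (hz : ∀ r, z * r = r * z) : z = 0 ∨ z = 1 := by
  obtain ⟨i, w, rfl⟩ := h
  have h2 : C.a * C.io w - C.io w * C.a ∈ C.D := by
    by_contra h3
    obtain ⟨α, β, h4⟩ := D.cj_inv (i + 1) h3
    rw [map_sub, map_mul, map_mul, cj_io, hz, sub_self] at h4
    exact h1 (by rw [← h4]; simp)
  rcases C.d4 w h2 with h3 | h3
  · exact Or.inl (D.cj_D i h3)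
  · have := D.cj_D i h3
    rw [map_sub, map_one, sub_eq_zero] at this
    exact Or.inr this

theorem C0.mul_pow {D : RD Ho C R} {y : R} (h : D.C0 y) (r : ℕ) :
    y * D.b ^ r = D.b ^ r * D.cb^[r] y := by
  induction r with
  | zero => simp
  | succ r ih =>
    rw [pow_succ, ← mul_assoc, ih, mul_assoc, (D.C0_iter h r).mul_b, Function.iterate_succ_apply',
      mul_assoc]

theorem C0.pow_mul {D : RD Ho C R} {y : R} (h : D.C0 y) (r : ℕ) :
    D.b' ^ r * y = D.cb^[r] y * D.b' ^ r := by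
  induction r with
  | zero => simp
  | succ r ih =>
    rw [pow_succ', mul_assoc, ih, ← mul_assoc, (D.C0_iter h r).b'_mul, Function.iterate_succ_apply',
      mul_assoc]

end RD

end Vale.Agent.P193
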