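import Vale.Agent.P193.RingA

/-! The coordinate algebra is purely infinite simple with trivial centre. -/

namespace Vale.Agent.P193

open Classical

/-- Commutative product over a multiset. -/
noncomputable def mp {I R : Type} [Ring R] (f : I → R) (hf : ∀ p q, Commute (f p) (f q))
    (m : Multiset I) : R :=
  haveI : LeftCommutative fun (p : I) (r : R) => f p * r :=
    ⟨fun p q r => by simp only [← mul_assoc, (hf p q).eq]⟩
  Multiset.foldr (fun p r => f p * r) 1 m

section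
variable {I R : Type} [Ring R] {f : I → R} {hf : ∀ p q, Commute (f p) (f q)}

theorem mp_zero : mp f hf 0 = 1 := by simp [mp]

theorem mp_cons (p : I) (m : Multiset I) : mp f hf (p ::ₘ m) = f p * mp f hf m := by simp [mp]

theorem mp_add (m n : Multiset I) : mp f hf (m + n) = mp f hf m * mp f hf n := by
  induction m using Multiset.induction_on with
  | empty => simp [mp_zero]
  | cons p m ih => rw [Multiset.cons_add, mp_cons, mp_cons, ih, mul_assoc]

theorem mp_comm {x : R} {m : Multiset I} (h : ∀ p ∈ m, Commute x (f p)) :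
    Commute x (mp f hf m) := by
  induction m using Multiset.induction_on with
  | empty => rw [mp_zero]; exact Commute.one_right x
  | cons p m ih =>
    rw [mp_cons]
    exact (h p (by simp)).mul_right (ih fun q hq => h q (by simp [hq]))

theorem mp_cons' (p : I) (m : Multiset I) : mp f hf (p ::ₘ m) = mp f hf m * f p := by
  rw [mp_cons, (mp_comm fun q _ => hf p q).eq]

theorem mp_semi {x : R} {j : I → I} (h : ∀ p, x * f p = f (j p) * x) (m : Multiset I) :
    x * mp f hf m = mp f hf (m.map j) * x := by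
  induction m using Multiset.induction_on with
  | empty => simp [mp_zero]
  | cons p m ih => rw [Multiset.map_cons, mp_cons, mp_cons, ← mul_assoc, h, mul_assoc, ih, mul_assoc]

theorem mp_semi' {x : R} {j : I → I} (h : ∀ p, f p * x = x * f (j p)) (m : Multiset I) :
    mp f hf m * x = x * mp f hf (m.map j) := by
  induction m using Multiset.induction_on with
  | empty => simp [mp_zero]
  | cons p m ih =>
    rw [Multiset.map_cons, mp_cons, mp_cons, mul_assoc, ih, ← mul_assoc, h, mul_assoc]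

end

/-- Normal form data of an isometry. -/
structure Ud (Ho : Hough) where
  m : Multiset Ho.I
  g : Ho.H
  r : ℕ

namespace Ud
variable {Ho : Hough}

/-- The coordinate injection. -/
def j (x : Ud Ho) (p : Ho.I) : Ho.I := x.g.1 (Ho.β^[x.r] p)

theorem j_inj (x : Ud Ho) : Function.Injective x.j :=
  x.g.1.injective.comp (Ho.β_inj.iterate _)

/-- Product. -/
def mul (x y : Ud Ho) : Ud Ho := ⟨x.m + y.m.map x.j, x.g * Ho.φ^[x.r] y.g, x.r + y.r⟩

/-- Unit. -/
def one : Ud Ho := ⟨0, 1, 0⟩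

theorem φ_iter (r : ℕ) (g : Ho.H) (p : Ho.I) :
    (Ho.φ^[r] g).1 (Ho.β^[r] p) = Ho.β^[r] (g.1 p) := by
  induction r with
  | zero => rfl
  | succ r ih => simp only [Function.iterate_succ_apply', Ho.φ_β, ih]

theorem j_mul (x y : Ud Ho) (p : Ho.I) : (x.mul y).j p = x.j (y.j p) := by
  simp only [j, mul, Subgroup.coe_mul, Equiv.Perm.coe_mul, Function.comp_apply,
    Function.iterate_add_apply, φ_iter]

/-- The shape. -/
def sh (x : Ud Ho) : Multiset Ho.I × (Ho.I → Ho.I) := (x.m, x.j)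

/-- The top coordinate is determined. -/
def Det (x : Ud Ho) : Prop := Ho.top ∈ x.m ∨ Ho.top ∉ Set.range x.j

theorem avoid (Q : Finset Ho.I) : ∃ w : Ud Ho, ∀ q ∈ Q, q ∉ Set.range w.j := by
  induction Q using Finset.induction_on with
  | empty => exact ⟨one, by simp⟩
  | insert q Q _ ih =>
    obtain ⟨w, hw⟩ := ih
    by_cases h : q ∈ Set.range w.j
    · obtain ⟨q', rfl⟩ := h
      obtain ⟨g, rfl⟩ := Ho.trans1 q'
      refine ⟨w.mul ⟨0, g, 1⟩, fun p hp ⟨z, hz⟩ => ?_⟩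
      rw [j_mul] at hz
      rcases Finset.mem_insert.1 hp with rfl | hp
      · exact Ho.β_ne _ (g.1.injective (w.j_inj hz))
      · exact hw p hp ⟨_, hz⟩
    · exact ⟨w, fun p hp => (Finset.mem_insert.1 hp).elim (fun e => e ▸ h) (hw p)⟩

theorem count_map (x : Ud Ho) (m : Multiset Ho.I) (q : Ho.I) :
    (m.map x.j).count (x.j q) = m.count q := Multiset.count_map_eq_count' _ _ x.j_inj _

theorem count_map_zero (x : Ud Ho) (m : Multiset Ho.I) {p : Ho.I} (h : p ∉ Set.range x.j) :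
    (m.map x.j).count p = 0 := by
  rw [Multiset.count_eq_zero]
  intro h'
  obtain ⟨q, _, hq⟩ := Multiset.mem_map.1 h'
  exact h ⟨q, hq⟩

theorem sep (x0 : Ud Ho) (F : Finset (Ud Ho)) : ∃ w : Ud Ho, ∀ x ∈ F, x.sh ≠ x0.sh →
    ∃ p, p ∉ Set.range (x0.mul w).j ∧ p ∉ Set.range (x.mul w).j ∧
      (x0.mul w).m.count p ≠ (x.mul w).m.count p := by
  have h1 : ∀ x : Ud Ho, ∃ p, x.sh ≠ x0.sh → (x.j = x0.j ∧ x0.m.count p ≠ x.m.count p) ∨
      ∃ q, x0.j q = p ∧ x.j q ≠ p := by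
    intro x
    by_cases hj : x.j = x0.j
    · by_cases hm : x.m = x0.m
      · exact ⟨Ho.top, fun h => absurd (Prod.ext hm hj) h⟩
      · obtain ⟨p, hp⟩ := not_forall.1 fun h => hm (Multiset.ext.2 h)
        exact ⟨p, fun _ => Or.inl ⟨hj, Ne.symm hp⟩⟩
    · obtain ⟨q, hq⟩ := not_forall.1 fun h => hj (funext h)
      exact ⟨x0.j q, fun _ => Or.inr ⟨q, rfl, hq⟩⟩
  choose P hP using h1
  let Q : Finset Ho.I := (insert x0 F).biUnion fun x => (F.image P).preimage x.j x.j_inj.injOn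
  have hQ : ∀ x ∈ insert x0 F, ∀ y ∈ F, ∀ q, x.j q = P y → q ∈ Q := by
    intro x hx y hy q hq
    exact Finset.mem_biUnion.2 ⟨x, hx, Finset.mem_preimage.2 (hq ▸ Finset.mem_image_of_mem _ hy)⟩
  obtain ⟨w0, hw⟩ := avoid Q
  let M := (insert x0 F).sup (fun x => x.m.card) + 1
  have hM : ∀ x ∈ insert x0 F, ∀ p, x.m.count p < M := fun x hx p =>
    Nat.lt_succ_of_le ((Multiset.count_le_card _ _).trans
      (Finset.le_sup (f := fun x : Ud Ho => x.m.card) hx))
  let ω : Ho.I → ℕ := fun q => M * (Q.toList.idxOf q + 1)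
  let m : Multiset Ho.I := ∑ q ∈ Q, Multiset.replicate (ω q) q
  have hm : ∀ q ∈ Q, m.count q = ω q := by
    intro q hq
    rw [Multiset.count_sum', Finset.sum_eq_single q]
    · simp
    · intro b _ hb; simp [Multiset.count_replicate, hb]
    · exact fun h => absurd hq h
  refine ⟨⟨m, w0.g, w0.r⟩, fun x hx hne => ⟨P x, ?_, ?_, ?_⟩⟩
  · rintro ⟨z, hz⟩
    rw [j_mul] at hz
    exact hw _ (hQ x0 (by simp) x hx _ hz) ⟨z, rfl⟩
  · rintro ⟨z, hz⟩
    rw [j_mul] at hz
    exact hw _ (hQ x (by simp [hx]) x hx _ hz) ⟨z, rfl⟩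
  · simp only [mul, Multiset.count_add]
    rcases hP x hne with ⟨h1, h2⟩ | ⟨q, h1, h2⟩
    · rw [h1]; omega
    · have hq := hQ x0 (by simp) x hx q h1
      have e1 : (m.map x0.j).count (P x) = ω q := by rw [← h1, count_map, hm q hq]
      have b1 := hM x0 (by simp) (P x)
      have b2 := hM x (by simp [hx]) (P x)
      rw [e1]
      by_cases h3 : P x ∈ Set.range x.j
      · obtain ⟨q2, h3⟩ := h3
        have hq2 := hQ x (by simp [hx]) x hx q2 h3
        have e2 : (m.map x.j).count (P x) = ω q2 := by rw [← h3, count_map, hm q2 hq2]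
        rw [e2]
        have hne2 : Q.toList.idxOf q ≠ Q.toList.idxOf q2 := by
          intro h
          rw [List.idxOf_inj (Finset.mem_toList.2 hq)] at h
          exact h2 (h ▸ h3)
        simp only [ω]
        rcases lt_or_gt_of_ne hne2 with h | h
        · have := Nat.mul_le_mul_left M (Nat.succ_le_of_lt h)
          intro h'; nlinarith
        · have := Nat.mul_le_mul_left M (Nat.succ_le_of_lt h)
          intro h'; nlinarith
      · rw [count_map_zero _ _ h3]
        simp only [ω]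
        intro h'; nlinarith [Nat.zero_le (M * Q.toList.idxOf q)]

end Ud

namespace RD
variable {Ho : Hough} {G : Type*} [Group G] {k : ℕ} {s : Fin k → G} {C : Core G s}
  {R : Type} [Ring R] (D : RD Ho C R)

/-- Product of raising isometries. -/
noncomputable def AM (m : Multiset Ho.I) : R := mp D.A D.AA m

/-- Product of lowering operators. -/
noncomputable def AM' (m : Multiset Ho.I) : R := mp D.A' D.A'A' m

/-- The isometry. -/
noncomputable def u (x : Ud Ho) : R := D.AM x.m * D.η x.g * D.b ^ x.r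

/-- Its left inverse. -/
noncomputable def u' (x : Ud Ho) : R := D.b' ^ x.r * D.η x.g⁻¹ * D.AM' x.m

theorem AM'_AM (m : Multiset Ho.I) : D.AM' m * D.AM m = 1 := by
  induction m using Multiset.induction_on with
  | empty => simp [AM, AM', mp_zero]
  | cons p m ih =>
    rw [AM, AM', mp_cons', mp_cons, mul_assoc, ← mul_assoc (D.A' p), A'A, one_mul]; exact ih

theorem bb_pow (r : ℕ) : D.b' ^ r * D.b ^ r = 1 := by
  induction r with
  | zero => simp
  | succ r ih => rw [pow_succ, pow_succ', mul_assoc, ← mul_assoc D.b', D.bb, one_mul, ih]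

theorem u'u (x : Ud Ho) : D.u' x * D.u x = 1 := by
  simp only [u, u', mul_assoc]
  rw [← mul_assoc (D.AM' _), AM'_AM, one_mul, ← mul_assoc (D.η _), inv_eta, one_mul, bb_pow]

theorem pow_A (r : ℕ) (p : Ho.I) : D.b ^ r * D.A p = D.A (Ho.β^[r] p) * D.b ^ r := by
  induction r with
  | zero => simp
  | succ r ih =>
    rw [pow_succ', mul_assoc, ih, ← mul_assoc, b_A, Function.iterate_succ_apply', mul_assoc]

theorem pow_eta (r : ℕ) (g : Ho.H) : D.b ^ r * D.η g = D.η (Ho.φ^[r] g) * D.b ^ r := by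
  induction r with
  | zero => simp
  | succ r ih =>
    rw [pow_succ', mul_assoc, ih, ← mul_assoc, D.b_eta, Function.iterate_succ_apply', mul_assoc]

theorem u_mul (x y : Ud Ho) : D.u (x.mul y) = D.u x * D.u y := by
  have h : D.η x.g * D.b ^ x.r * D.AM y.m = D.AM (y.m.map x.j) * (D.η x.g * D.b ^ x.r) :=
    mp_semi (fun p => by rw [mul_assoc, pow_A, ← mul_assoc, eta_A, mul_assoc]; rfl) _
  simp only [u, Ud.mul, AM, mp_add, map_mul, pow_add] at h ⊢
  simp only [mul_assoc] at h ⊢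
  congr 1
  rw [← mul_assoc (D.η (Ho.φ^[x.r] y.g)), ← pow_eta]
  simp only [← mul_assoc] at h ⊢
  rw [h]

theorem u_one : D.u Ud.one = 1 := by simp [u, Ud.one, AM, mp_zero]

theorem u_sh {x y : Ud Ho} (h : x.sh = y.sh) : D.u x = D.u y := by
  have hm : x.m = y.m := congrArg Prod.fst h
  have hj : x.j = y.j := congrArg Prod.snd h
  have := D.same_shape x.r y.r (y.g⁻¹ * x.g) fun p => by
    have := congrFun hj p
    simp only [Ud.j] at this
    simp [this]
  rw [u, u, hm, ← this.1, mul_assoc, mul_assoc]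
  conv_rhs => rw [← this.2, ← mul_assoc (D.η _), ← map_mul, mul_inv_cancel_left]

theorem AM'_AM_lt {p : Ho.I} : ∀ (m n : Multiset Ho.I), m.count p < n.count p →
    ∃ z, D.AM' m * D.AM n = D.A p * z := by
  intro m
  induction m using Multiset.induction_on with
  | empty =>
    intro n h
    obtain ⟨n', rfl⟩ := Multiset.exists_cons_of_mem (Multiset.count_pos.1 (by omega) : p ∈ n)
    exact ⟨_, by rw [AM', mp_zero, one_mul, AM, mp_cons]⟩
  | cons q m ih =>
    intro n h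
    by_cases hq : q = p
    · subst hq
      obtain ⟨n', rfl⟩ := Multiset.exists_cons_of_mem (Multiset.count_pos.1 (by omega) : q ∈ n)
      obtain ⟨z, hz⟩ := ih n' (by simpa using h)
      refine ⟨z, ?_⟩
      rw [AM, AM', mp_cons', mp_cons, mul_assoc, ← mul_assoc (D.A' q), A'A, one_mul]; exact hz
    · obtain ⟨z, hz⟩ := ih n (by rwa [Multiset.count_cons_of_ne (Ne.symm hq)] at h)
      refine ⟨D.A' q * z, ?_⟩
      rw [AM', mp_cons, mul_assoc, ← AM', hz, ← mul_assoc, ← (D.AA' (Ne.symm hq)).eq, mul_assoc]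

theorem AM'_AM_gt {p : Ho.I} : ∀ (n m : Multiset Ho.I), n.count p < m.count p →
    ∃ z, D.AM' m * D.AM n = z * D.A' p := by
  intro n
  induction n using Multiset.induction_on with
  | empty =>
    intro m h
    obtain ⟨m', rfl⟩ := Multiset.exists_cons_of_mem (Multiset.count_pos.1 (by omega) : p ∈ m)
    exact ⟨_, by rw [AM, mp_zero, mul_one, AM', mp_cons']⟩
  | cons q n ih =>
    intro m h
    by_cases hq : q = p
    · subst hq
      obtain ⟨m', rfl⟩ := Multiset.exists_cons_of_mem (Multiset.count_pos.1 (by omega) : q ∈ m)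
      obtain ⟨z, hz⟩ := ih m' (by simpa using h)
      refine ⟨z, ?_⟩
      rw [AM, AM', mp_cons', mp_cons, mul_assoc, ← mul_assoc (D.A' q), A'A, one_mul]; exact hz
    · obtain ⟨z, hz⟩ := ih m (by rwa [Multiset.count_cons_of_ne (Ne.symm hq)] at h)
      refine ⟨z * D.A q, ?_⟩
      rw [AM, mp_cons', ← mul_assoc, ← AM, hz, mul_assoc, ← (D.AA' hq).eq, mul_assoc]

theorem not_range {x : Ud Ho} {p : Ho.I} (h : p ∉ Set.range x.j) :
    x.g.1⁻¹ p ∉ Set.range Ho.β^[x.r] := fun ⟨q, hq⟩ => h ⟨q, by simp [Ud.j, hq]⟩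

theorem A'_kill {x : Ud Ho} {p : Ho.I} (h : p ∉ Set.range x.j) :
    D.A' p * (D.η x.g * D.b ^ x.r) = 0 := by
  have := D.eta_A' x.g (x.g.1⁻¹ p)
  rw [show x.g.1 (x.g.1⁻¹ p) = p by simp] at this
  rw [← mul_assoc, ← this, mul_assoc, (D.kill_b _ _ (not_range h)).1, mul_zero]

theorem orth {x y : Ud Ho} {p : Ho.I} (hx : p ∉ Set.range x.j) (hy : p ∉ Set.range y.j)
    (h : x.m.count p ≠ y.m.count p) : D.u' x * D.u y = 0 := by
  simp only [u, u', mul_assoc]
  rw [← mul_assoc (D.AM' _)]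
  rcases lt_or_gt_of_ne h with h | h
  · obtain ⟨z, hz⟩ := D.AM'_AM_lt _ _ h
    rw [hz, mul_assoc, ← mul_assoc (D.η _), eta_A, mul_assoc, ← mul_assoc]
    rw [show (x.g⁻¹).1 p = x.g.1⁻¹ p from rfl, (D.kill_b _ _ (not_range hx)).2, zero_mul]
  · obtain ⟨z, hz⟩ := D.AM'_AM_gt _ _ h
    rw [hz, mul_assoc, D.A'_kill hy]; simp

theorem C0.mul_u {D : RD Ho C R} {y : R} (h : D.C0 y) (x : Ud Ho) :
    y * D.u x = D.u x * D.cb^[x.r] y := by
  have h1 : Commute y (D.AM x.m * D.η x.g) := (mp_comm fun p _ => h.A p).mul_right (h.2.2 _)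
  rw [u, ← mul_assoc, h1.eq, mul_assoc, h.mul_pow, ← mul_assoc]

theorem C0.u'_mul {D : RD Ho C R} {y : R} (h : D.C0 y) (x : Ud Ho) :
    D.u' x * y = D.cb^[x.r] y * D.u' x := by
  have h1 : Commute y (D.η x.g⁻¹ * D.AM' x.m) := (h.2.2 _).mul_right (mp_comm fun p _ => h.A' p)
  rw [u', mul_assoc (D.b' ^ x.r), mul_assoc, ← h1.eq, ← mul_assoc, h.pow_mul, mul_assoc]

theorem det_a' {x : Ud Ho} (h : x.Det) : D.a' * D.u x = 0 ∨ ∃ y, D.a' * D.u x = D.u y := by
  by_cases h1 : Ho.top ∈ x.m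
  · obtain ⟨m, hm⟩ := Multiset.exists_cons_of_mem h1
    refine Or.inr ⟨⟨m, x.g, x.r⟩, ?_⟩
    rw [u, u, hm, AM, mp_cons, A_top]
    simp only [← mul_assoc, D.aa, one_mul, AM]
  · left
    have h2 : Commute (D.A' Ho.top) (D.AM x.m) :=
      mp_comm fun p hp => (D.AA' (p := p) (q := Ho.top) fun e => h1 (e ▸ hp)).symm
    rw [u, ← A'_top, mul_assoc, ← mul_assoc, h2.eq, mul_assoc, D.A'_kill (h.resolve_left h1),
      mul_zero]

theorem det_b' {x : Ud Ho} (h : x.Det) : D.b' * D.u x = 0 ∨ ∃ y, D.b' * D.u x = D.u y := by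
  by_cases h1 : Ho.top ∈ x.m
  · obtain ⟨m, hm⟩ := Multiset.exists_cons_of_mem h1
    left
    rw [u, hm, AM, mp_cons, A_top]
    simp only [← mul_assoc, D.b'a, zero_mul]
  · right
    have h2 := not_range (h.resolve_left h1)
    obtain ⟨m, g, r⟩ := x
    simp only at h1 h2
    obtain ⟨g', hg⟩ := Ho.stab (g := g * Ho.sw Ho.top (g.1⁻¹ Ho.top)) (by simp [Hough.sw])
    haveI : Nonempty Ho.I := ⟨Ho.top⟩
    have hm : (m.map (Function.invFun Ho.β)).map Ho.β = m := by
      rw [Multiset.map_map]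
      conv_rhs => rw [← Multiset.map_id m]
      refine Multiset.map_congr rfl fun p hp => ?_
      rcases Ho.top_or p with rfl | ⟨q, rfl⟩
      · exact absurd hp h1
      · exact Function.invFun_eq ⟨q, rfl⟩
    cases r with
    | zero => exact absurd ⟨_, rfl⟩ h2
    | succ r =>
      refine ⟨⟨m.map (Function.invFun Ho.β), g', r⟩, ?_⟩
      have h3 : D.AM (m.map (Function.invFun Ho.β)) * D.b' = D.b' * D.AM m := by
        conv_rhs => rw [← hm]
        exact mp_semi' D.A_b' _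
      simp only [u]
      rw [← D.sw_b _ _ h2, mul_assoc (D.AM m), ← mul_assoc (D.η g), ← map_mul, hg, ← mul_assoc, ← h3,
        pow_succ', ← mul_assoc (D.η _), ← D.b_eta]
      simp only [mul_assoc]
      rw [← mul_assoc D.b', D.bb, one_mul]

theorem refine (x : Ud Ho) {z : R} (hz : z ≠ 0) : ∃ w, z * D.u w ≠ 0 ∧ (x.mul w).Det := by
  by_cases h : Ho.top ∈ Set.range x.j
  · obtain ⟨q, hq⟩ := h
    obtain ⟨g, rfl⟩ := Ho.trans1 q
    have e1 : D.u ⟨{g.1 Ho.top}, 1, 0⟩ = D.η g * D.a * D.η g⁻¹ := by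
      rw [← D.tr_eq D.a_phi, u, AM, ← Multiset.cons_zero, mp_cons, mp_zero]; simp [A]
    have e2 : D.u ⟨0, g, 1⟩ = D.η g * D.b := by simp [u, AM, mp_zero]
    by_cases h1 : z * D.u ⟨{g.1 Ho.top}, 1, 0⟩ = 0
    · refine ⟨⟨0, g, 1⟩, fun h2 => hz ?_, Or.inr ?_⟩
      · rw [e1] at h1
        rw [e2] at h2
        have h3 : z * (D.η g * D.a) = 0 := by
          rw [← mul_one (D.η g * D.a), ← D.inv_eta g, ← mul_assoc (D.η g * D.a), ← mul_assoc z, h1,
            zero_mul]
        calc z = z * (D.η g * (D.b * D.b' + D.a * D.a') * D.η g⁻¹) := by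
              rw [D.sum, mul_one, eta_inv, mul_one]
          _ = z * (D.η g * D.b) * (D.b' * D.η g⁻¹) + z * (D.η g * D.a) * (D.a' * D.η g⁻¹) := by
              noncomm_ring
          _ = 0 := by rw [h2, h3]; simp
      · rintro ⟨p, hp⟩
        rw [Ud.j_mul, ← hq] at hp
        exact Ho.β_ne _ (g.1.injective (x.j_inj hp))
    · exact ⟨_, h1, Or.inl (by simp [Ud.mul, hq])⟩
  · exact ⟨Ud.one, by rwa [u_one, mul_one], Or.inr fun ⟨p, hp⟩ => h ⟨_, (x.j_mul _ p).symm.trans hp⟩⟩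

/-- Pure elements. -/
def Pur : AddSubmonoid R := AddSubmonoid.closure {y | ∃ c x, D.Cs c ∧ y = c * D.u x}

theorem pur_gen {c : R} (hc : D.Cs c) (x : Ud Ho) : c * D.u x ∈ D.Pur :=
  AddSubmonoid.subset_closure ⟨c, x, hc, rfl⟩

theorem pur_right {y : R} (hy : y ∈ D.Pur) (w : Ud Ho) : y * D.u w ∈ D.Pur := by
  induction hy using AddSubmonoid.closure_induction with
  | mem y h => obtain ⟨c, x, hc, rfl⟩ := h; rw [mul_assoc, ← u_mul]; exact D.pur_gen hc _
  | zero => simp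
  | add a b _ _ h1 h2 => rw [add_mul]; exact add_mem h1 h2

/-- Locally pure elements. -/
def LP (y : R) : Prop := ∀ (v : Ud Ho) (z : R), z ≠ 0 → ∃ w, z * D.u w ≠ 0 ∧ y * D.u v * D.u w ∈ D.Pur

theorem LP.add {D : RD Ho C R} {x y : R} (hx : D.LP x) (hy : D.LP y) : D.LP (x + y) := by
  intro v z hz
  obtain ⟨w1, h1, h2⟩ := hx v z hz
  obtain ⟨w2, h3, h4⟩ := hy (v.mul w1) _ h1
  refine ⟨w1.mul w2, by rwa [u_mul, ← mul_assoc], ?_⟩
  rw [u_mul] at h4 ⊢
  rw [add_mul, add_mul]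
  refine add_mem ?_ (by simpa only [mul_assoc] using h4)
  simpa only [mul_assoc] using D.pur_right h2 w2

theorem LP_zero : D.LP 0 := fun _ z hz => ⟨Ud.one, by rwa [u_one, mul_one], by simp⟩

theorem LP_left {γ : R} (h : ∀ c x, D.Cs c → D.LP (γ * (c * D.u x))) {y : R} (hy : D.LP y) :
    D.LP (γ * y) := by
  have key : ∀ t ∈ D.Pur, D.LP (γ * t) := by
    intro t ht
    induction ht using AddSubmonoid.closure_induction with
    | mem y h' => obtain ⟨c, x, hc, rfl⟩ := h'; exact h c x hc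
    | zero => rw [mul_zero]; exact D.LP_zero
    | add a b _ _ h1 h2 => rw [mul_add]; exact h1.add h2
  intro v z hz
  obtain ⟨w1, h1, h2⟩ := hy v z hz
  obtain ⟨w2, h3, h4⟩ := key _ h2 Ud.one _ h1
  refine ⟨w1.mul w2, by rwa [u_mul, ← mul_assoc], ?_⟩
  rw [u_one, mul_one] at h4
  rw [u_mul]
  simpa only [mul_assoc] using h4

theorem LP_pur {y : R} (hy : y ∈ D.Pur) : D.LP y := fun v z hz =>
  ⟨Ud.one, by rwa [u_one, mul_one], D.pur_right (D.pur_right hy v) _⟩

theorem LP_det {γ : R} (h1 : ∀ x : Ud Ho, x.Det → γ * D.u x = 0 ∨ ∃ y, γ * D.u x = D.u y)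
    (h2 : ∀ c, D.Cs c → ∃ c', D.Cs c' ∧ γ * c = c' * γ) (c : R) (x : Ud Ho) (hc : D.Cs c) :
    D.LP (γ * (c * D.u x)) := by
  intro v z hz
  obtain ⟨w, h3, h4⟩ := D.refine (x.mul v) hz
  obtain ⟨c', hc', h5⟩ := h2 c hc
  refine ⟨w, h3, ?_⟩
  have : γ * (c * D.u x) * D.u v * D.u w = c' * (γ * D.u ((x.mul v).mul w)) := by
    rw [u_mul, u_mul, ← mul_assoc γ c, h5]; simp only [mul_assoc]
  rw [this]
  rcases h1 _ h4 with h | ⟨y, h⟩ <;> rw [h]
  · simp
  · exact D.pur_gen hc' y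

theorem LP_u (y : Ud Ho) (c : R) (x : Ud Ho) (hc : D.Cs c) : D.LP (D.u y * (c * D.u x)) := by
  obtain ⟨c', hc', h⟩ := hc.pre y.r
  rw [← mul_assoc, ← h, ← hc'.c0.mul_u, mul_assoc, ← u_mul]
  exact D.LP_pur (D.pur_gen hc' _)

/-- The ring is generated by the given elements. -/
def Gen : Prop := ∀ P : R → Prop, P 0 → (∀ x y, P x → P y → P (x + y)) →
  (∀ x y, P x → P y → P (x * y)) → (∀ w, P (D.κ w)) → (∀ g, P (D.η g)) → P D.a → P D.a' → P D.b →
  P D.b' → ∀ r, P r

theorem LP_all (hg : D.Gen) (r : R) : D.LP r := by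
  have : ∀ y, D.LP y → D.LP (r * y) := by
    refine hg (fun r => ∀ y, D.LP y → D.LP (r * y)) ?_ ?_ ?_ ?_ ?_ ?_ ?_ ?_ ?_ r
    · intro y _; rw [zero_mul]; exact D.LP_zero
    · intro a b ha hb y hy; rw [add_mul]; exact (ha y hy).add (hb y hy)
    · intro a b ha hb y hy; rw [mul_assoc]; exact ha _ (hb y hy)
    · refine fun w y => D.LP_left fun c x hc => D.LP_pur ?_
      rw [← mul_assoc]; exact D.pur_gen ((D.Cs_k w).mul hc) x
    · intro g y
      have : D.η g = D.u ⟨0, g, 0⟩ := by simp [u, AM, mp_zero]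
      rw [this]; exact D.LP_left (D.LP_u _)
    · intro y
      have : D.a = D.u ⟨{Ho.top}, 1, 0⟩ := by
        rw [u, AM, ← Multiset.cons_zero, mp_cons, mp_zero]; simp [A_top]
      rw [this]; exact D.LP_left (D.LP_u _)
    · exact fun y => D.LP_left (D.LP_det (fun _ => D.det_a') fun c hc => ⟨c, hc, hc.c0.2.1.eq.symm⟩)
    · intro y
      have : D.b = D.u ⟨0, 1, 1⟩ := by simp [u, AM, mp_zero]
      rw [this]; exact D.LP_left (D.LP_u _)
    · exact fun y => D.LP_left (D.LP_det (fun _ => D.det_b') fun c hc =>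
        ⟨_, hc.iter 1, hc.c0.b'_mul⟩)
  have h := this 1 (D.LP_pur (by simpa [u_one] using D.pur_gen D.Cs_one Ud.one))
  rwa [mul_one] at h

/-- A representative of a shape. -/
noncomputable def rp (t : Multiset Ho.I × (Ho.I → Ho.I)) : Ud Ho :=
  if h : ∃ x : Ud Ho, x.sh = t then h.choose else Ud.one

theorem rp_sh (x : Ud Ho) : (rp x.sh).sh = x.sh := by
  have h : ∃ y : Ud Ho, y.sh = x.sh := ⟨x, rfl⟩
  rw [rp, dif_pos h]; exact h.choose_spec

theorem pur_rep {y : R} (hy : y ∈ D.Pur) : ∃ f : (Multiset Ho.I × (Ho.I → Ho.I)) →₀ R,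
    (∀ t, D.Cs (f t)) ∧ (∀ t ∈ f.support, (rp t).sh = t) ∧
      y = f.sum fun t c => c * D.u (rp t) := by
  induction hy using AddSubmonoid.closure_induction with
  | mem y h =>
    obtain ⟨c, x, hc, rfl⟩ := h
    refine ⟨Finsupp.single x.sh c, fun t => ?_, fun t ht => ?_, ?_⟩
    · rw [Finsupp.single_apply]; split_ifs
      · exact hc
      · exact D.Cs_zero
    · rw [Finset.mem_singleton.1 (Finsupp.support_single_subset ht)]; exact rp_sh x
    · rw [Finsupp.sum_single_index (zero_mul _), D.u_sh (rp_sh x)]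
  | zero => exact ⟨0, fun _ => D.Cs_zero, by simp, by simp⟩
  | add a b _ _ h1 h2 =>
    obtain ⟨f, f1, f2, rfl⟩ := h1
    obtain ⟨g, g1, g2, rfl⟩ := h2
    refine ⟨f + g, fun t => (f1 t).add (g1 t), fun t ht => ?_, ?_⟩
    · rcases Finset.mem_union.1 (Finsupp.support_add ht) with h | h
      · exact f2 t h
      · exact g2 t h
    · rw [Finsupp.sum_add_index' (fun _ => zero_mul _) fun _ _ _ => add_mul _ _ _]

theorem key (f : (Multiset Ho.I × (Ho.I → Ho.I)) →₀ R) (f1 : ∀ t, D.Cs (f t))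
    (f2 : ∀ t ∈ f.support, (rp t).sh = t) (x0 : Ud Ho) : ∃ w,
      D.u' (x0.mul w) * (f.sum fun t c => c * D.u (rp t)) * D.u w =
        D.cb^[(x0.mul w).r] (f x0.sh) := by
  obtain ⟨w, hw⟩ := Ud.sep x0 (f.support.image rp)
  refine ⟨w, ?_⟩
  rw [Finsupp.sum, Finset.mul_sum, Finset.sum_mul, Finset.sum_eq_single x0.sh]
  · rw [D.u_sh (rp_sh x0), mul_assoc, mul_assoc, ← u_mul, ← mul_assoc, (f1 _).c0.u'_mul, mul_assoc,
      u'u, mul_one]
  · intro t ht hne
    obtain ⟨p, h1, h2, h3⟩ := hw (rp t) (Finset.mem_image_of_mem _ ht) (by rwa [f2 t ht])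
    rw [mul_assoc, mul_assoc, ← u_mul, ← mul_assoc, (f1 _).c0.u'_mul, mul_assoc, D.orth h1 h2 h3,
      mul_zero]
  · intro h
    rw [Finsupp.notMem_support_iff.1 h]; simp

theorem p2 (hg : D.Gen) (y : R) (hy : y ≠ 0) : ∃ α β : R, α * y * β = 1 := by
  obtain ⟨w, h1, h2⟩ := D.LP_all hg y Ud.one y hy
  rw [u_one, mul_one] at h2
  obtain ⟨f, f1, f2, h3⟩ := D.pur_rep h2
  have : f.support.Nonempty := by
    rw [Finsupp.support_nonempty_iff]
    rintro rfl
    exact h1 (by simpa using h3)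
  obtain ⟨t, ht⟩ := this
  obtain ⟨w2, h4⟩ := D.key f f1 f2 (rp t)
  rw [← h3, f2 t ht] at h4
  obtain ⟨α, β, h5⟩ := (f1 t).inv (Finsupp.mem_support_iff.1 ht) ((rp t).mul w2).r
  rw [← h4] at h5
  exact ⟨α * D.u' ((rp t).mul w2), D.u w * D.u w2 * β, by simpa only [mul_assoc] using h5⟩

theorem center (hg : D.Gen) (h1 : (1 : R) ≠ 0) (z : R) (hz : ∀ r, z * r = r * z) :
    z = 0 ∨ z = 1 := by
  obtain ⟨w, -, h2⟩ := D.LP_all hg z Ud.one 1 h1
  rw [u_one, mul_one] at h2
  obtain ⟨f, f1, f2, h3⟩ := D.pur_rep h2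
  obtain ⟨w2, h4⟩ := D.key f f1 f2 w
  rw [← h3, mul_assoc, mul_assoc, ← u_mul, ← mul_assoc, ← hz, mul_assoc, u'u, mul_one] at h4
  exact Cs.center h1 (h4 ▸ (f1 _).iter _) hz

end RD

end Vale.Agent.P193
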