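import Vale.Agent.P193.RingB

/-! The shift endomorphism and a nonzero model. -/

namespace Vale.Agent.P193

open Classical

namespace RD
variable {Ho : Hough} {G : Type*} [Group G] {k : ℕ} {s : Fin k → G} {C : Core G s}
  {R : Type} [Ring R] (D : RD Ho C R)

theorem eta_A_fix {g : Ho.H} {p : Ho.I} (h : g.1 p = p) : Commute (D.A p) (D.η g) := by
  have := D.eta_A g p
  rw [h] at this
  exact this.symm

theorem eta_A'_fix {g : Ho.H} {p : Ho.I} (h : g.1 p = p) : Commute (D.A' p) (D.η g) := by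
  have := D.eta_A' g p
  rw [h] at this
  exact this.symm

theorem σσ : D.η Ho.σ * D.η Ho.σ = 1 := by rw [← map_mul, Ho.σ_σ, map_one]

theorem φσ_A : D.η (Ho.φ Ho.σ) * D.A (Ho.β Ho.top) * D.η (Ho.φ Ho.σ) = D.A (Ho.β (Ho.β Ho.top)) := by
  rw [eta_A, Ho.φ_β, Ho.σ_top, mul_assoc, ← map_mul, ← map_mul, Ho.σ_σ, map_one, map_one, mul_one]

theorem φσ_A' :
    D.η (Ho.φ Ho.σ) * D.A' (Ho.β Ho.top) * D.η (Ho.φ Ho.σ) = D.A' (Ho.β (Ho.β Ho.top)) := by
  rw [eta_A', Ho.φ_β, Ho.σ_top, mul_assoc, ← map_mul, ← map_mul, Ho.σ_σ, map_one, map_one, mul_one]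

/-- The shifted structure. -/
noncomputable def shift : RD Ho C R where
  η := D.η.comp Ho.φ
  κ := D.κ.comp C.io
  a := D.A (Ho.β Ho.top)
  a' := D.A' (Ho.β Ho.top)
  b := D.η Ho.σ * D.b
  b' := D.b' * D.η Ho.σ
  rel r hr := by
    have h1 : TwoSidedIdeal.span C.Rel ≤ TwoSidedIdeal.ker D.κ :=
      TwoSidedIdeal.span_le.2 fun r hr => (TwoSidedIdeal.mem_ker _).2 (D.rel r hr)
    exact (TwoSidedIdeal.mem_ker D.κ).1 (h1 (C.d2 r (C.d1 r hr)))
  aa := D.A'A _
  bb := by rw [mul_assoc, ← mul_assoc (D.η _), σσ, one_mul, D.bb]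
  sum := by
    rw [A_β, A'_β]
    calc _ = D.η Ho.σ * (D.b * D.b' + D.a * (D.η Ho.σ * D.η Ho.σ) * D.a') * D.η Ho.σ := by
          noncomm_ring
      _ = 1 := by rw [σσ, mul_one, D.sum, mul_one, σσ]
  a_phi g := D.eta_A_fix (by rw [Ho.φ_β, Ho.φ_top])
  a'_phi g := D.eta_A'_fix (by rw [Ho.φ_β, Ho.φ_top])
  c1 := by rw [MonoidHom.comp_apply, φσ_A]; exact D.AA _ _
  c2 := by rw [MonoidHom.comp_apply, φσ_A']; exact D.AA' fun h => Ho.β_ne _ (Ho.β_inj h).symm
  c3 := by
    rw [MonoidHom.comp_apply, φσ_A]; exact (D.AA' fun h => Ho.β_ne _ (Ho.β_inj h)).symm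
  c4 := by rw [MonoidHom.comp_apply, φσ_A']; exact D.A'A' _ _
  b_eta g := by
    simp only [MonoidHom.comp_apply]
    rw [mul_assoc, D.b_eta, ← mul_assoc, ← map_mul, Ho.φφ_σ, map_mul, mul_assoc]
  b_a := by
    rw [MonoidHom.comp_apply, φσ_A, mul_assoc, b_A, ← mul_assoc, eta_A, Ho.σ_ββ, mul_assoc]
  b_a' := by
    rw [MonoidHom.comp_apply, φσ_A', mul_assoc, b_A', ← mul_assoc, eta_A', Ho.σ_ββ, mul_assoc]
  sbb := by
    have h : D.η Ho.σ * D.b * (D.η Ho.σ * D.b) = D.η Ho.σ * D.η (Ho.φ Ho.σ) * (D.b * D.b) := by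
      rw [mul_assoc, ← mul_assoc D.b, D.b_eta]; simp only [mul_assoc]
    rw [MonoidHom.comp_apply, mul_assoc, h, ← mul_assoc, ← mul_assoc (D.η _), ← map_mul, ← map_mul,
      Ho.braid, map_mul, map_mul, mul_assoc, ← mul_assoc (D.η Ho.σ) D.b, D.sbb]
  k_a w := (D.C0_k _).A _
  k_a' w := (D.C0_k _).A' _
  k_eta w g := D.k_eta _ _
  b_k w := by
    simp only [RingHom.comp_apply]
    rw [mul_assoc, D.b_k, ← mul_assoc, ← (D.k_eta _ _).eq, mul_assoc]

theorem hphi (hg : D.Gen) (φ : R →+* R) (h1 : ∀ w, φ (D.κ w) = D.shift.κ w)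
    (h2 : ∀ g, φ (D.η g) = D.shift.η g) (h3 : φ D.a = D.shift.a) (h4 : φ D.a' = D.shift.a')
    (h5 : φ D.b = D.shift.b) (h6 : φ D.b' = D.shift.b') (r : R) :
    φ r = D.b * r * D.b' + D.a * φ r * D.a' := by
  have : D.b * r = φ r * D.b ∧ Commute (φ r) D.a := by
    refine hg (fun r => D.b * r = φ r * D.b ∧ Commute (φ r) D.a) ?_ ?_ ?_ ?_ ?_ ?_ ?_ ?_ ?_ r
    · simp
    · intro x y hx hy
      exact ⟨by rw [mul_add, map_add, add_mul, hx.1, hy.1], by rw [map_add]; exact hx.2.add_left hy.2⟩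
    · intro x y hx hy
      exact ⟨by rw [← mul_assoc, hx.1, mul_assoc, hy.1, map_mul, mul_assoc],
        by rw [map_mul]; exact hx.2.mul_left hy.2⟩
    · intro w; rw [h1]; exact ⟨D.b_k w, D.k_a _⟩
    · intro g; rw [h2]; exact ⟨D.b_eta g, (D.a_phi g).symm⟩
    · rw [h3]; exact ⟨D.A_top ▸ D.b_A _, D.A_top ▸ D.AA _ _⟩
    · rw [h4]; exact ⟨D.A'_top ▸ D.b_A' _, D.A_top ▸ (D.AA' (Ho.β_ne _).symm).symm⟩
    · rw [h5]
      refine ⟨D.sbb.symm, ?_⟩
      change D.η Ho.σ * D.b * D.a = D.a * (D.η Ho.σ * D.b)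
      rw [← A_top, mul_assoc, b_A, ← mul_assoc, eta_A, Ho.σ_β, mul_assoc]
    · rw [h6]
      have e : D.b' * D.η Ho.σ * D.a = D.a * (D.b' * D.η Ho.σ) := by
        rw [← A_top, mul_assoc, eta_A, Ho.σ_top, ← mul_assoc, ← A_b', mul_assoc]
      refine ⟨?_, e⟩
      change D.b * D.b' = D.b' * D.η Ho.σ * D.b
      have e2 : D.b' * D.η Ho.σ * D.b * D.a = 0 := by
        rw [← A_top, mul_assoc, b_A, mul_assoc, ← mul_assoc (D.η _), eta_A, Ho.σ_β, A_top,
          ← mul_assoc, ← mul_assoc, b'a]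
        simp
      calc D.b * D.b' = D.b' * (D.η Ho.σ * D.b * D.b) * D.b' + D.b' * D.η Ho.σ * D.b * D.a * D.a' := by
            rw [D.sbb, e2, ← mul_assoc, D.bb]; simp
        _ = D.b' * D.η Ho.σ * D.b * (D.b * D.b' + D.a * D.a') := by noncomm_ring
        _ = _ := by rw [D.sum, mul_one]
  rw [this.1, ← this.2.eq, mul_assoc, mul_assoc, ← mul_add, D.sum, mul_one]

end RD

section Model
variable {I S : Type} [Ring S]

/-- Weighted partial composition operators. -/
noncomputable def op (T : (I → ℕ) → Prop) (τ : (I → ℕ) → (I → ℕ)) (θ : S →+ S) :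
    AddMonoid.End ((I → ℕ) → S) where
  toFun f ω := if T ω then θ (f (τ ω)) else 0
  map_zero' := by funext ω; simp
  map_add' f g := by funext ω; simp only [Pi.add_apply, map_add]; split_ifs <;> simp

theorem op_apply (T : (I → ℕ) → Prop) (τ : (I → ℕ) → (I → ℕ)) (θ : S →+ S) (f : (I → ℕ) → S)
    (ω : I → ℕ) : op T τ θ f ω = if T ω then θ (f (τ ω)) else 0 := rfl

theorem op_mul (T T' : (I → ℕ) → Prop) (τ τ' : (I → ℕ) → (I → ℕ)) (θ θ' : S →+ S) :
    op T τ θ * op T' τ' θ' = op (fun ω => T ω ∧ T' (τ ω)) (fun ω => τ' (τ ω)) (θ.comp θ') := by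
  ext f ω
  simp only [AddMonoid.End.coe_mul, Function.comp_apply, op_apply, AddMonoidHom.comp_apply]
  by_cases h : T ω <;> by_cases h' : T' (τ ω) <;> simp [h, h']

theorem op_congr {T T' : (I → ℕ) → Prop} {τ τ' : (I → ℕ) → (I → ℕ)} {θ θ' : S →+ S}
    (h1 : ∀ ω, T ω ↔ T' ω) (h2 : ∀ ω, T ω → τ ω = τ' ω) (h3 : ∀ m, θ m = θ' m) :
    op T τ θ = op T' τ' θ' := by
  ext f ω
  simp only [op_apply]
  by_cases h : T ω
  · rw [if_pos h, if_pos ((h1 ω).1 h), h2 ω h, h3]
  · rw [if_neg h, if_neg (fun h' => h ((h1 ω).2 h'))]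

theorem op_one : (1 : AddMonoid.End ((I → ℕ) → S)) = op (fun _ => True) id (AddMonoidHom.id S) := by
  ext f ω; simp [op_apply]

theorem end_add (x y : AddMonoid.End ((I → ℕ) → S)) (f : (I → ℕ) → S) (ω : I → ℕ) :
    (x + y) f ω = x f ω + y f ω := rfl

end Model

theorem model_of {Ho : Hough} {G : Type*} [Group G] {k : ℕ} {s : Fin k → G} (C : Core G s)
    {S : Type} [Ring S] (κS : FA C.X →+* S) (hk : ∀ r ∈ C.Rel, κS r = 0) (sh us : S →+ S)
    (h1 : ∀ m, sh (us m) = m) (h2 : ∀ m, us (sh m) = m)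
    (h3 : ∀ w m, sh (κS w * m) = κS (C.io w) * sh m) :
    Nonempty (RD Ho C (AddMonoid.End ((Ho.I → ℕ) → S))) := by
  let η : Ho.H →* AddMonoid.End ((Ho.I → ℕ) → S) :=
    { toFun := fun g => op (fun _ => True) (fun ω => ω ∘ g.1) (AddMonoidHom.id S)
      map_one' := by rw [op_one]; exact op_congr (by simp) (by simp) (by simp)
      map_mul' := fun g h => by
        rw [op_mul]; exact op_congr (by simp) (fun _ _ => rfl) (by simp) }
  let κ : FA C.X →+* AddMonoid.End ((Ho.I → ℕ) → S) :=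
    { toFun := fun w => op (fun _ => True) id (AddMonoidHom.mulLeft (κS w))
      map_one' := by rw [op_one]; exact op_congr (by simp) (by simp) (by simp)
      map_mul' := fun g h => by
        rw [op_mul]; exact op_congr (by simp) (fun _ _ => rfl) (by simp [mul_assoc])
      map_zero' := by ext f ω; simp [op_apply]
      map_add' := fun x y => by ext f ω; simp [end_add, op_apply, add_mul] }
  have hη : ∀ g, η g = op (fun _ => True) (fun ω => ω ∘ g.1) (AddMonoidHom.id S) := fun _ => rfl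
  have hκ : ∀ w, κ w = op (fun _ => True) id (AddMonoidHom.mulLeft (κS w)) := fun _ => rfl
  let aP : Ho.I → AddMonoid.End ((Ho.I → ℕ) → S) := fun p =>
    op (fun ω => ω p ≠ 0) (fun ω => Function.update ω p (ω p - 1)) (AddMonoidHom.id S)
  let aQ : Ho.I → AddMonoid.End ((Ho.I → ℕ) → S) := fun p =>
    op (fun _ => True) (fun ω => Function.update ω p (ω p + 1)) (AddMonoidHom.id S)
  have upd : ∀ (g : Ho.H) (ω : Ho.I → ℕ) (p : Ho.I) (n : ℕ),
      Function.update (ω ∘ g.1) p n = Function.update ω (g.1 p) n ∘ g.1 := fun g ω p n =>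
    (Function.update_comp_eq_of_injective ω g.1.injective p n).symm
  have eP : ∀ g p, η g * aP p = aP (g.1 p) * η g := fun g p => by
    simp only [hη, aP, op_mul]
    exact op_congr (by simp) (fun ω _ => upd g ω p _) (by simp)
  have eQ : ∀ g p, η g * aQ p = aQ (g.1 p) * η g := fun g p => by
    simp only [hη, aQ, op_mul]
    exact op_congr (by simp) (fun ω _ => upd g ω p _) (by simp)
  have σσ : η Ho.σ * η Ho.σ = 1 := by rw [← map_mul, Ho.σ_σ, map_one]
  have sP : η Ho.σ * aP Ho.top * η Ho.σ = aP (Ho.β Ho.top) := by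
    rw [eP, Ho.σ_top, mul_assoc, σσ, mul_one]
  have sQ : η Ho.σ * aQ Ho.top * η Ho.σ = aQ (Ho.β Ho.top) := by
    rw [eQ, Ho.σ_top, mul_assoc, σσ, mul_one]
  have hne := Ho.β_ne Ho.top
  let ins : (Ho.I → ℕ) → (Ho.I → ℕ) := fun ω p => (Ho.e.symm p).elim 0 ω
  have ins1 : ∀ ω, ins ω Ho.top = 0 := fun ω => by simp [ins, Hough.top]
  have ins2 : ∀ ω p, ins ω (Ho.β p) = ω p := fun ω p => by simp [ins, Hough.β]
  have updβ : ∀ (ω : Ho.I → ℕ) (p : Ho.I) (n : ℕ),
      Function.update (ω ∘ Ho.β) p n = Function.update ω (Ho.β p) n ∘ Ho.β := fun ω p n =>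
    (Function.update_comp_eq_of_injective ω Ho.β_inj p n).symm
  refine ⟨⟨η, κ, aP Ho.top, aQ Ho.top, op (fun ω => ω Ho.top = 0) (fun ω => ω ∘ Ho.β) sh,
    op (fun _ => True) ins us, ?_, ?_, ?_, ?_, ?_, ?_, ?_, ?_, ?_, ?_, ?_, ?_, ?_, ?_, ?_, ?_, ?_,
    ?_⟩⟩
  · intro r hr
    ext f ω
    simp [hκ, op_apply, hk r hr]
  · simp only [aP, aQ, op_mul, op_one]
    exact op_congr (by simp) (by simp) (by simp)
  · simp only [op_mul, op_one]
    exact op_congr (by simp [ins1]) (fun ω _ => funext (ins2 ω)) (by simp [h2])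
  · ext f ω
    simp only [aP, aQ, op_mul, end_add, op_apply]
    by_cases h : ω Ho.top = 0
    · have : ins (ω ∘ Ho.β) = ω := by
        funext p
        rcases Ho.top_or p with rfl | ⟨p, rfl⟩
        · rw [ins1, h]
        · rw [ins2]; rfl
      simp [h, this, h1]
    · have : ω Ho.top - 1 + 1 = ω Ho.top := by omega
      simp [h, this]
  · intro g
    have := eP (Ho.φ g) Ho.top
    rw [Ho.φ_top] at this
    exact this.symm
  · intro g
    have := eQ (Ho.φ g) Ho.top
    rw [Ho.φ_top] at this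
    exact this.symm
  · rw [sP]
    simp only [Commute, SemiconjBy, aP, op_mul]
    exact op_congr (by simp [hne, hne.symm, and_comm])
      (by simp [hne, hne.symm, Function.update_comm hne]) (by simp)
  · rw [sQ]
    simp only [Commute, SemiconjBy, aP, aQ, op_mul]
    exact op_congr (by simp [hne, hne.symm, and_comm])
      (by simp [hne, hne.symm, Function.update_comm hne]) (by simp)
  · rw [sP]
    simp only [Commute, SemiconjBy, aP, aQ, op_mul]
    exact op_congr (by simp [hne, hne.symm, and_comm])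
      (by simp [hne, hne.symm, Function.update_comm hne]) (by simp)
  · rw [sQ]
    simp only [Commute, SemiconjBy, aQ, op_mul]
    exact op_congr (by simp [hne, hne.symm, and_comm])
      (by simp [hne, hne.symm, Function.update_comm hne]) (by simp)
  · intro g
    simp only [hη, op_mul]
    exact op_congr (by simp [Ho.φ_top]) (fun ω _ => funext fun p => by simp [Ho.φ_β]) (by simp)
  · rw [sP]
    simp only [aP, op_mul]
    exact op_congr (by simp [hne.symm, and_comm]) (fun ω _ => updβ ω _ _) (by simp)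
  · rw [sQ]
    simp only [aQ, op_mul]
    exact op_congr (by simp [hne.symm, and_comm]) (fun ω _ => updβ ω _ _) (by simp)
  · simp only [hη, op_mul]
    exact op_congr (by simp [Ho.σ_top, Ho.σ_β, and_comm])
      (fun ω _ => funext fun p => by simp [Ho.σ_ββ]) (by simp)
  · intro w
    simp only [Commute, SemiconjBy, hκ, aP, op_mul]
    exact op_congr (by simp) (by simp) (by simp)
  · intro w
    simp only [Commute, SemiconjBy, hκ, aQ, op_mul]
    exact op_congr (by simp) (by simp) (by simp)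
  · intro w g
    simp only [Commute, SemiconjBy, hκ, hη, op_mul]
    exact op_congr (by simp) (by simp) (by simp)
  · intro w
    simp only [hκ, op_mul]
    exact op_congr (by simp) (by simp) (by simp [h3])

theorem model_exists (Ho : Hough) {G : Type*} [Group G] {k : ℕ} {s : Fin k → G} (C : Core G s) :
    ∃ (R : Type) (_ : Ring R), (1 : R) ≠ 0 ∧ Nonempty (RD Ho C R) := by
  let A := C.D.ringCon.Quotient
  let mk : FA C.X →+* A := RingCon.mk' _
  have hmk : ∀ w, mk w = 0 ↔ w ∈ C.D := fun w => by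
    rw [TwoSidedIdeal.mem_iff, ← map_zero mk]
    exact RingCon.eq _
  let S := Filter.Germ (Filter.atTop : Filter ℕ) A
  let κS : FA C.X →+* S := (Filter.Germ.coeRingHom _).comp
    (Pi.ringHom fun n : ℕ => mk.comp (C.io ^ n))
  have hκ : ∀ w, κS w = ((fun n => mk ((C.io ^ n) w) : ℕ → A) : S) := fun _ => rfl
  have t1 : Filter.Tendsto (fun n : ℕ => n + 1) Filter.atTop Filter.atTop :=
    Filter.tendsto_add_atTop_nat 1
  have t2 : Filter.Tendsto (fun n : ℕ => n - 1) Filter.atTop Filter.atTop :=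
    Filter.tendsto_sub_atTop_nat 1
  let cm : (g : ℕ → ℕ) → Filter.Tendsto g Filter.atTop Filter.atTop → S →+ S := fun g hg =>
    { toFun := fun m => Filter.Germ.compTendsto m g hg
      map_zero' := rfl
      map_add' := fun x y => by
        induction x using Filter.Germ.inductionOn
        induction y using Filter.Germ.inductionOn
        rfl }
  have hio : ∀ n : ℕ, ∀ w ∈ C.D, (C.io ^ n) w ∈ C.D := by
    intro n
    induction n with
    | zero => exact fun w h => h
    | succ n ih =>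
      intro w h
      rw [pow_succ']
      exact TwoSidedIdeal.span_le.2 C.d1 (C.d2 _ (ih w h))
  refine ⟨AddMonoid.End ((Ho.I → ℕ) → S), inferInstance, ?_,
    model_of C κS ?_ (cm _ t1) (cm _ t2) ?_ ?_ ?_⟩
  · intro h
    have h1 : (1 : S) = 0 := congrFun (DFunLike.congr_fun h (fun _ => (1 : S))) (fun _ => 0)
    have h2 : ((fun _ => 1 : ℕ → A) : S) = ((fun _ => 0 : ℕ → A) : S) := h1
    obtain ⟨n, hn⟩ := (Filter.Germ.coe_eq.1 h2).exists
    exact C.d0 ((hmk 1).1 (by rw [map_one]; exact hn))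
  · intro r hr
    rw [hκ]
    have : (fun n => mk ((C.io ^ n) r) : ℕ → A) = 0 :=
      funext fun n => (hmk _).2 (hio n r (C.d1 r hr))
    rw [this]; rfl
  · intro m
    induction m using Filter.Germ.inductionOn
    rfl
  · intro m
    induction m using Filter.Germ.inductionOn with
    | h f =>
      refine Filter.Germ.coe_eq.2 ?_
      filter_upwards [Filter.eventually_ge_atTop 1] with n hn
      simp only [Function.comp_apply, Nat.sub_add_cancel hn]
  · intro w m
    induction m using Filter.Germ.inductionOn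
    rfl

end Vale.Agent.P193
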