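import Vale.Agent.P193.RingC

/-! The finitely presented ring. -/

namespace Vale.Agent.P193

open Classical

/-- Evaluation of the free algebra. -/
noncomputable def fev {X R : Type} [Ring R] (h2 : ∀ r : R, r + r = 0) (f : X → R) : FA X →+* R :=
  MonoidAlgebra.liftNCRingHom (ZMod.castHom (ringChar.dvd (R := R) (x := 2) (by
      rw [Nat.cast_two, ← one_add_one_eq_two]; exact h2 1)) R) (FreeMonoid.lift f) (by
    intro x y
    have : x = 0 ∨ x = 1 := by revert x; decide
    rcases this with rfl | rfl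
    · rw [map_zero]; exact Commute.zero_left _
    · rw [map_one]; exact Commute.one_left _)

theorem fev_wd {X R : Type} [Ring R] (h2 : ∀ r : R, r + r = 0) (f : X → R) (l : List X) :
    fev h2 f (wd l) = (l.map f).prod := by
  unfold fev wd
  rw [MonoidAlgebra.of_apply, MonoidAlgebra.liftNCRingHom_single, map_one, one_mul]
  exact FreeMonoid.lift_ofList _ _

theorem FA.ind' {X : Type} {P : FA X → Prop} (h0 : P 0) (h1 : P 1) (hx : ∀ x, P (wd [x]))
    (ha : ∀ a b, P a → P b → P (a + b)) (hm : ∀ a b, P a → P b → P (a * b)) (b : FA X) : P b := by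
  refine FA.ind h0 (fun l => ?_) ha b
  induction l with
  | nil => rw [wd_nil]; exact h1
  | cons x l ih => rw [wd_cons]; exact hm _ _ (hx x) ih

theorem FA.hom_ext {X R : Type} [Ring R] {f g : FA X →+* R} (h : ∀ x, f (wd [x]) = g (wd [x])) :
    f = g := by
  refine RingHom.ext fun b => ?_
  induction b using FA.ind' with
  | h0 => simp
  | h1 => simp
  | hx x => exact h x
  | ha a b h1 h2 => rw [map_add, map_add, h1, h2]
  | hm a b h1 h2 => rw [map_mul, map_mul, h1, h2]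

theorem unit_lift {m : ℕ} {R : Type} [Ring R] (f : Fin m × Bool → R)
    (h : ∀ i : Fin m × Bool, f i * f (i.1, !i.2) = 1) :
    ∃ φ : FreeGroup (Fin m) →* Rˣ, ∀ l, (φ (FreeGroup.mk l) : R) = (l.map f).prod := by
  refine ⟨FreeGroup.lift fun i => ⟨f (i, true), f (i, false), h (i, true), h (i, false)⟩,
    fun l => ?_⟩
  rw [FreeGroup.lift_mk]
  induction l with
  | nil => simp
  | cons x l ih =>
    rw [List.map_cons, List.prod_cons, Units.val_mul, ih, List.map_cons, List.prod_cons]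
    obtain ⟨i, _ | _⟩ := x <;> rfl

section Univ
variable (Ho : Hough) {G : Type*} [Group G] {k : ℕ} {s : Fin k → G} (C : Core G s)
  {m : ℕ} (ψ : FreeGroup (Fin m) →* Ho.H) (hψ : Function.Surjective ψ)
  (S : Set (FreeGroup (Fin m)))

/-- Generators of the ring. -/
abbrev YY (m : ℕ) : Type := C.X ⊕ (Fin m × Bool) ⊕ Fin 4

/-- Inclusion of the machine algebra. -/
noncomputable def ix (m : ℕ) : FA C.X →+* FA (YY C m) := fev FA.two fun x => wd [Sum.inl x]

/-- Group words. -/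
noncomputable def gwd (l : List (Fin m × Bool)) : FA (YY C m) :=
  (l.map fun i => wd [Sum.inr (Sum.inl i)]).prod

/-- Special letters. -/
noncomputable def sl (m : ℕ) (i : Fin 4) : FA (YY C m) := wd [Sum.inr (Sum.inr i)]

/-- A word for a group element. -/
noncomputable def br (h : Ho.H) : FA (YY C m) := gwd C (Function.surjInv hψ h).toWord

/-- Generators of the group. -/
def gg (i : Fin m × Bool) : Ho.H := ψ (FreeGroup.mk [i])

/-- The defining relations, as pairs. -/
noncomputable def RelP : Set (FA (YY C m) × FA (YY C m)) :=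
  ((fun r => (ix C m r, 0)) '' C.Rel) ∪ ((fun f => (gwd C f.toWord, 1)) '' S) ∪
  (⋃ i : Fin m × Bool, {(gwd C [i] * gwd C [(i.1, !i.2)], 1),
    (sl C m 0 * br Ho C ψ hψ (Ho.φ (gg Ho ψ i)), br Ho C ψ hψ (Ho.φ (gg Ho ψ i)) * sl C m 0),
    (sl C m 1 * br Ho C ψ hψ (Ho.φ (gg Ho ψ i)), br Ho C ψ hψ (Ho.φ (gg Ho ψ i)) * sl C m 1),
    (sl C m 2 * gwd C [i], br Ho C ψ hψ (Ho.φ (gg Ho ψ i)) * sl C m 2)}) ∪
  (⋃ x : C.X, {(ix C m (wd [x]) * sl C m 0, sl C m 0 * ix C m (wd [x])),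
    (ix C m (wd [x]) * sl C m 1, sl C m 1 * ix C m (wd [x])),
    (sl C m 2 * ix C m (wd [x]), ix C m (C.io (wd [x])) * sl C m 2)}) ∪
  (⋃ x : C.X, ⋃ i : Fin m × Bool,
    {(ix C m (wd [x]) * gwd C [i], gwd C [i] * ix C m (wd [x]))}) ∪
  (⋃ i : Fin 2, ⋃ j : Fin 2,
    {(sl C m (i.castLE (by decide)) * (br Ho C ψ hψ Ho.σ * sl C m (j.castLE (by decide)) *
      br Ho C ψ hψ Ho.σ), (br Ho C ψ hψ Ho.σ * sl C m (j.castLE (by decide)) *
      br Ho C ψ hψ Ho.σ) * sl C m (i.castLE (by decide))),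
     (sl C m 2 * sl C m (i.castLE (by decide)), br Ho C ψ hψ Ho.σ * sl C m (i.castLE (by decide)) *
      br Ho C ψ hψ Ho.σ * sl C m 2)}) ∪
  {(sl C m 1 * sl C m 0, 1), (sl C m 3 * sl C m 2, 1),
    (sl C m 2 * sl C m 3 + sl C m 0 * sl C m 1, 1),
    (br Ho C ψ hψ Ho.σ * sl C m 2 * sl C m 2, sl C m 2 * sl C m 2)}

theorem RelP_fin (hS : S.Finite) : (RelP Ho C ψ hψ S).Finite := by
  haveI := C.fin
  unfold RelP
  refine ((((((C.relfin.image _).union (hS.image _)).union ?_).union ?_).union ?_).union ?_).union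
    (Set.toFinite _)
  · exact Set.finite_iUnion fun _ => Set.toFinite _
  · exact Set.finite_iUnion fun _ => Set.toFinite _
  · exact Set.finite_iUnion fun _ => Set.finite_iUnion fun _ => Set.toFinite _
  · exact Set.finite_iUnion fun _ => Set.finite_iUnion fun _ => Set.toFinite _

theorem psi_mk (l : List (Fin m × Bool)) : ψ (FreeGroup.mk l) = (l.map (gg Ho ψ)).prod := by
  induction l with
  | nil => exact map_one ψ
  | cons i l ih =>
    rw [← List.singleton_append, ← FreeGroup.mul_mk, map_mul, ih]; simp [gg]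

include hψ in
theorem H_ind {P : Ho.H → Prop} (h1 : P 1) (h2 : ∀ i h, P h → P (gg Ho ψ i * h)) (h : Ho.H) :
    P h := by
  obtain ⟨f, rfl⟩ := hψ h
  rw [← FreeGroup.mk_toWord (x := f), psi_mk]
  induction f.toWord with
  | nil => exact h1
  | cons i l ih => exact h2 i _ ih

variable {Ho C}

theorem rd_to_hom (hS : Subgroup.normalClosure S = ψ.ker) {R : Type} [Ring R] (D : RD Ho C R) :
    ∃ π : FA (YY C m) →+* R, (∀ p ∈ RelP Ho C ψ hψ S, π p.1 = π p.2) ∧
      (∀ w, π (ix C m w) = D.κ w) ∧ (∀ h, π (br Ho C ψ hψ h) = D.η h) ∧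
      π (sl C m 0) = D.a ∧ π (sl C m 1) = D.a' ∧ π (sl C m 2) = D.b ∧ π (sl C m 3) = D.b' := by
  let π : FA (YY C m) →+* R := fev D.two (Sum.elim (fun x => D.κ (wd [x]))
    (Sum.elim (fun i => D.η (gg Ho ψ i)) ![D.a, D.a', D.b, D.b']))
  have h1 : ∀ w, π (ix C m w) = D.κ w := fun w =>
    DFunLike.congr_fun (FA.hom_ext (f := π.comp (ix C m)) (g := D.κ) fun x => by
      simp [π, ix, fev_wd]) w
  have h2 : ∀ l, π (gwd C l) = D.η (ψ (FreeGroup.mk l)) := fun l => by
    rw [psi_mk, gwd, map_list_prod, map_list_prod, List.map_map, List.map_map]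
    congr 1
    exact List.map_congr_left fun i _ => by simp [π, fev_wd]
  have h3 : ∀ h, π (br Ho C ψ hψ h) = D.η h := fun h => by
    rw [br, h2, FreeGroup.mk_toWord, Function.surjInv_eq hψ]
  have a0 : π (sl C m 0) = D.a := by simp [π, sl, fev_wd]
  have a1 : π (sl C m 1) = D.a' := by simp [π, sl, fev_wd]
  have a2 : π (sl C m 2) = D.b := by simp [π, sl, fev_wd]
  have a3 : π (sl C m 3) = D.b' := by simp [π, sl, fev_wd]
  refine ⟨π, ?_, h1, h3, a0, a1, a2, a3⟩
  rintro p ((((((⟨r, hr, rfl⟩ | ⟨f, hf, rfl⟩) | hp) | hp) | hp) | hp) | hp)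
  · simp [h1, D.rel r hr]
  · have : ψ f = 1 := by rw [← MonoidHom.mem_ker, ← hS]; exact Subgroup.subset_normalClosure hf
    simp [h2, FreeGroup.mk_toWord, this]
  · obtain ⟨i, hi⟩ := Set.mem_iUnion.1 hp
    rcases hi with rfl | rfl | rfl | rfl <;> simp only [map_mul, h2, h3, a0, a1, a2, map_one]
    · rw [← map_mul, ← map_mul, FreeGroup.mul_mk]
      have : FreeGroup.mk ([i] ++ [(i.1, !i.2)]) = (1 : FreeGroup (Fin m)) :=
        Quot.sound (FreeGroup.Red.Step.not (L₁ := []) (L₂ := []) (x := i.1) (b := i.2))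
      rw [this, map_one, map_one]
    · exact (D.a_phi _).eq
    · exact (D.a'_phi _).eq
    · exact D.b_eta _
  · obtain ⟨x, hi⟩ := Set.mem_iUnion.1 hp
    rcases hi with rfl | rfl | rfl <;> simp only [map_mul, h1, a0, a1, a2]
    · exact (D.k_a _).eq
    · exact (D.k_a' _).eq
    · exact D.b_k _
  · simp only [Set.mem_iUnion, Set.mem_singleton_iff] at hp
    obtain ⟨x, i, rfl⟩ := hp
    simp only [map_mul, h1, h2]
    exact (D.k_eta _ _).eq
  · simp only [Set.mem_iUnion] at hp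
    obtain ⟨i, j, hi⟩ := hp
    have e0 : π (sl C m ((0 : Fin 2).castLE (by decide))) = D.a := a0
    have e1 : π (sl C m ((1 : Fin 2).castLE (by decide))) = D.a' := a1
    have hi2 : ∀ i : Fin 2, i = 0 ∨ i = 1 := by decide
    rcases hi2 i with rfl | rfl <;> rcases hi2 j with rfl | rfl <;> rcases hi with rfl | rfl <;>
      simp only [map_mul, h3, e0, e1, a2]
    exacts [D.c1.eq, D.b_a, D.c2.eq, D.b_a, D.c3.eq, D.b_a', D.c4.eq, D.b_a']
  · rcases hp with rfl | rfl | rfl | rfl <;>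
      simp only [map_mul, map_add, h3, a0, a1, a2, a3, map_one]
    exacts [D.aa, D.bb, D.sum, D.sbb]

theorem hom_to_rd (hS : Subgroup.normalClosure S = ψ.ker) {R : Type} [Ring R]
    (π : FA (YY C m) →+* R) (hπ : ∀ p ∈ RelP Ho C ψ hψ S, π p.1 = π p.2) :
    ∃ D : RD Ho C R, (∀ w, π (ix C m w) = D.κ w) ∧ (∀ h, π (br Ho C ψ hψ h) = D.η h) ∧
      (∀ i, π (gwd C [i]) = D.η (gg Ho ψ i)) ∧
      π (sl C m 0) = D.a ∧ π (sl C m 1) = D.a' ∧ π (sl C m 2) = D.b ∧ π (sl C m 3) = D.b' := by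
  have r3 := fun (i : Fin m × Bool) p hp => hπ p
    (Or.inl (Or.inl (Or.inl (Or.inl (Or.inr (Set.mem_iUnion.2 ⟨i, hp⟩))))))
  have r4 := fun (x : C.X) p hp => hπ p
    (Or.inl (Or.inl (Or.inl (Or.inr (Set.mem_iUnion.2 ⟨x, hp⟩)))))
  have r5 := fun (x : C.X) (i : Fin m × Bool) => hπ _
    (Or.inl (Or.inl (Or.inr (Set.mem_iUnion.2 ⟨x, Set.mem_iUnion.2 ⟨i, rfl⟩⟩))))
  have r6 := fun (i j : Fin 2) p hp => hπ p
    (Or.inl (Or.inr (Set.mem_iUnion.2 ⟨i, Set.mem_iUnion.2 ⟨j, hp⟩⟩)))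
  have r7 := fun p hp => hπ p (Or.inr hp)
  obtain ⟨φ, hφ⟩ := unit_lift (fun i => π (gwd C [i])) fun i => by
    simpa using r3 i _ (Or.inl rfl)
  have hφ' : ∀ l, (φ (FreeGroup.mk l) : R) = π (gwd C l) := fun l => by
    rw [hφ, gwd, map_list_prod, List.map_map]
    congr 1
    exact List.map_congr_left fun i _ => by simp [gwd]
  have hker : ψ.ker ≤ φ.ker := by
    rw [← hS]
    refine Subgroup.normalClosure_le_normal fun f hf => ?_
    have := hπ _ (Or.inl (Or.inl (Or.inl (Or.inl (Or.inl (Or.inr ⟨f, hf, rfl⟩))))))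
    simp only [← hφ', FreeGroup.mk_toWord, map_one] at this
    exact Units.ext this
  let η : Ho.H →* R := (Units.coeHom R).comp (ψ.liftOfSurjective hψ ⟨φ, hker⟩)
  have hη : ∀ f, η (ψ f) = φ f := fun f => by
    simp only [η, MonoidHom.comp_apply, MonoidHom.liftOfRightInverse_comp_apply]; rfl
  have h3 : ∀ h, π (br Ho C ψ hψ h) = η h := fun h => by
    rw [br, ← hφ', FreeGroup.mk_toWord, ← hη, Function.surjInv_eq hψ]
  have h4 : ∀ i, π (gwd C [i]) = η (gg Ho ψ i) := fun i => by rw [← hφ', ← hη]; rfl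
  have comm : ∀ t : R, (∀ x, Commute (π (ix C m (wd [x]))) t) → ∀ w, Commute (π (ix C m w)) t := by
    intro t ht w
    induction w using FA.ind' with
    | h0 => simp
    | h1 => simp
    | hx x => exact ht x
    | ha a b h1 h2 => rw [map_add, map_add]; exact h1.add_left h2
    | hm a b h1 h2 => rw [map_mul, map_mul]; exact h1.mul_left h2
  refine ⟨⟨η, π.comp (ix C m), π (sl C m 0), π (sl C m 1), π (sl C m 2), π (sl C m 3), ?_, ?_, ?_,
    ?_, ?_, ?_, ?_, ?_, ?_, ?_, ?_, ?_, ?_, ?_, ?_, ?_, ?_, ?_⟩,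
    fun _ => rfl, h3, h4, rfl, rfl, rfl, rfl⟩
  · intro r hr
    simpa using hπ _ (Or.inl (Or.inl (Or.inl (Or.inl (Or.inl (Or.inl ⟨r, hr, rfl⟩))))))
  · simpa using r7 _ (Or.inl rfl)
  · simpa using r7 _ (Or.inr (Or.inl rfl))
  · simpa using r7 _ (Or.inr (Or.inr (Or.inl rfl)))
  · refine H_ind Ho ψ hψ (by simp) fun i h ih => ?_
    rw [map_mul, map_mul]
    refine Commute.mul_right ?_ ih
    (have h0 := r3 i _ (Or.inr (Or.inl rfl)); simp only [map_mul, h3] at h0; exact h0)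
  · refine H_ind Ho ψ hψ (by simp) fun i h ih => ?_
    rw [map_mul, map_mul]
    refine Commute.mul_right ?_ ih
    (have h0 := r3 i _ (Or.inr (Or.inr (Or.inl rfl))); simp only [map_mul, h3] at h0; exact h0)
  · (have h0 := r6 0 0 _ (Or.inl rfl); simp only [map_mul, h3] at h0; exact h0)
  · (have h0 := r6 0 1 _ (Or.inl rfl); simp only [map_mul, h3] at h0; exact h0)
  · (have h0 := r6 1 0 _ (Or.inl rfl); simp only [map_mul, h3] at h0; exact h0)
  · (have h0 := r6 1 1 _ (Or.inl rfl); simp only [map_mul, h3] at h0; exact h0)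
  · refine H_ind Ho ψ hψ (by simp) fun i h ih => ?_
    have := r3 i _ (Or.inr (Or.inr (Or.inr rfl)))
    simp only [map_mul, h3, h4] at this
    rw [map_mul, map_mul, map_mul, ← mul_assoc, this, mul_assoc, ih, mul_assoc]
  · (have h0 := r6 0 0 _ (Or.inr rfl); simp only [map_mul, h3] at h0; exact h0)
  · (have h0 := r6 1 0 _ (Or.inr rfl); simp only [map_mul, h3] at h0; exact h0)
  · (have h0 := r7 _ (Or.inr (Or.inr (Or.inr rfl))); simp only [map_mul, h3] at h0; exact h0)
  · exact comm _ fun x => by (have h0 := r4 x _ (Or.inl rfl); simp only [map_mul] at h0; exact h0)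
  · exact comm _ fun x => by (have h0 := r4 x _ (Or.inr (Or.inl rfl)); simp only [map_mul] at h0; exact h0)
  · intro w g
    refine comm _ (fun x => ?_) w
    revert g
    refine H_ind Ho ψ hψ (by simp) fun i h ih => ?_
    rw [map_mul]
    refine Commute.mul_right ?_ ih
    (have h0 := r5 x i; simp only [map_mul, h4] at h0; exact h0)
  · intro w
    simp only [RingHom.comp_apply]
    induction w using FA.ind' with
    | h0 => simp
    | h1 => simp
    | hx x => (have h0 := r4 x _ (Or.inr (Or.inr rfl)); simp only [map_mul] at h0; exact h0)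
    | ha a b h1 h2 => simp only [map_add, mul_add, add_mul, h1, h2]
    | hm a b h1 h2 => simp only [map_mul]; rw [← mul_assoc, h1, mul_assoc, h2, mul_assoc]

end Univ

theorem core_to_ring {G : Type*} [Group G] {k : ℕ} (s : Fin k → G)
    (hs : Subgroup.closure (Set.range s) = ⊤) (C : Core G s) (Ho : Hough) :
    ∃ (R : Type) (_ : Ring R), Nonempty (Good R) ∧ FP R ∧
      ∃ f : G →* Rˣ, Function.Injective f := by
  obtain ⟨m, ψ, hψ, S, hSf, hS⟩ := Ho.fp.out
  let Rel : Set (FA (YY C m)) := (fun p => p.1 - p.2) '' RelP Ho C ψ hψ S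
  let I := TwoSidedIdeal.span Rel
  let R := I.ringCon.Quotient
  let π : FA (YY C m) →+* R := RingCon.mk' _
  have hz : ∀ w, π w = 0 ↔ w ∈ I := fun w => by
    rw [TwoSidedIdeal.mem_iff, ← map_zero π]
    exact RingCon.eq _
  have hsurj : Function.Surjective π := fun r => Quot.exists_rep r
  obtain ⟨D, d1, d2, d3, d4, d5, d6, d7⟩ := hom_to_rd ψ hψ S hS π fun p hp => by
    rw [← sub_eq_zero, ← map_sub, hz]
    exact TwoSidedIdeal.subset_span ⟨p, hp, rfl⟩
  have univ : ∀ {R2 : Type} [Ring R2] (D2 : RD Ho C R2), ∃ φ : R →+* R2,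
      (∀ w, φ (D.κ w) = D2.κ w) ∧ (∀ g, φ (D.η g) = D2.η g) ∧ φ D.a = D2.a ∧ φ D.a' = D2.a' ∧
        φ D.b = D2.b ∧ φ D.b' = D2.b' := by
    intro R2 _ D2
    obtain ⟨π2, e0, e1, e2, e3, e4, e5, e6⟩ := rd_to_hom ψ hψ S hS D2
    have hle : I ≤ TwoSidedIdeal.ker π2 := TwoSidedIdeal.span_le.2 (by
      rintro _ ⟨p, hp, rfl⟩
      exact (TwoSidedIdeal.mem_ker π2).2 (by rw [map_sub, e0 p hp, sub_self]))
    have hle2 : I.ringCon ≤ RingCon.ker π2 := by
      intro x y hxy
      have := (TwoSidedIdeal.mem_ker π2).1 (hle ((TwoSidedIdeal.rel_iff I x y).1 hxy))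
      rw [map_sub, sub_eq_zero] at this
      exact this
    have hφ : ∀ w, I.ringCon.lift π2 hle2 (π w) = π2 w := fun w => RingCon.lift_mk' _ _
    exact ⟨I.ringCon.lift π2 hle2, fun w => by rw [← d1, hφ, e1], fun g => by rw [← d2, hφ, e2],
      by rw [← d4, hφ, e3], by rw [← d5, hφ, e4], by rw [← d6, hφ, e5], by rw [← d7, hφ, e6]⟩
  have hg : D.Gen := by
    intro P p0 p1 p2 p3 p4 p5 p6 p7 p8 r
    obtain ⟨w, rfl⟩ := hsurj r
    induction w using FA.ind' with
    | h0 => rwa [map_zero]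
    | h1 => simpa using p3 1
    | hx y =>
      rcases y with x | i | i
      · have := p3 (wd [x])
        rw [← d1] at this
        simpa [ix, fev_wd] using this
      · have := p4 (gg Ho ψ i)
        rw [← d3] at this
        simpa [gwd] using this
      · have h4 : ∀ i : Fin 4, i = 0 ∨ i = 1 ∨ i = 2 ∨ i = 3 := by decide
        rcases h4 i with rfl | rfl | rfl | rfl
        · exact d4 ▸ p5
        · exact d5 ▸ p6
        · exact d6 ▸ p7
        · exact d7 ▸ p8
    | ha a b h1 h2 => rw [map_add]; exact p1 _ _ h1 h2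
    | hm a b h1 h2 => rw [map_mul]; exact p2 _ _ h1 h2
  have h1 : (1 : R) ≠ 0 := by
    obtain ⟨R2, _, h2, ⟨D2⟩⟩ := model_exists Ho C
    obtain ⟨φ, -⟩ := univ D2
    intro h
    exact h2 (by rw [← map_one φ, h, map_zero])
  obtain ⟨φ, f1, f2, f3, f4, f5, f6⟩ := univ D.shift
  haveI := C.fin
  refine ⟨R, inferInstance, ⟨⟨D.two, h1, D.p2 hg, D.b, D.a, D.b', D.a', D.bb, D.aa, D.b'a, D.a'b,
    D.sum, φ, D.hphi hg φ f1 f2 f3 f4 f5 f6, D.center hg h1⟩⟩,
    ⟨YY C m, inferInstance, Rel, π, (RelP_fin Ho C ψ hψ S hSf).image _, hsurj, hz⟩, ?_⟩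
  have hw : ∀ l : List (Fin k × Bool), D.κ (wd (l.map C.gl)) =
      (l.map fun i => D.κ (wd [C.gl i])).prod := by
    intro l
    induction l with
    | nil => simp [wd_nil]
    | cons i l ih => rw [List.map_cons, wd_cons, map_mul, ih]; simp
  have hone : ∀ l : List (Fin k × Bool), FreeGroup.lift s (FreeGroup.mk l) = 1 ↔
      D.κ (wd (l.map C.gl)) = 1 := by
    intro l
    rw [← C.d5]
    constructor
    · intro h
      have := D.kill_D h
      rwa [map_sub, map_one, sub_eq_zero] at this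
    · intro h
      by_contra h2
      obtain ⟨α, β, h3⟩ := D.cj_inv 0 h2
      have : D.cj 0 (wd (l.map C.gl) - 1) = 0 := by
        change D.κ _ = 0
        rw [map_sub, h, map_one, sub_self]
      rw [this] at h3
      exact h1 (by rw [← h3]; simp)
  obtain ⟨φ', hφ'⟩ := unit_lift (fun i => D.κ (wd [C.gl i])) fun i => by
    have := (hone [i, (i.1, !i.2)]).1 (by
      have : FreeGroup.mk [i, (i.1, !i.2)] = (1 : FreeGroup (Fin k)) :=
        Quot.sound (FreeGroup.Red.Step.not (L₁ := []) (L₂ := []) (x := i.1) (b := i.2))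
      rw [this, map_one])
    rw [hw] at this
    simpa using this
  have hsur : Function.Surjective (FreeGroup.lift s) :=
    FreeGroup.lift_surjective_iff_closure_range_eq_top.2 hs
  have hiff : ∀ f, FreeGroup.lift s f = 1 ↔ φ' f = 1 := by
    intro f
    rw [← FreeGroup.mk_toWord (x := f), hone, hw, ← hφ', Units.val_eq_one]
  refine ⟨(FreeGroup.lift s).liftOfSurjective hsur ⟨φ', fun f hf => (hiff f).1 hf⟩, ?_⟩
  rw [injective_iff_map_eq_one]
  intro g hg'
  obtain ⟨f, rfl⟩ := hsur g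
  rw [MonoidHom.liftOfRightInverse_comp_apply] at hg'
  exact (hiff f).2 hg'

end Vale.Agent.P193
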