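import Vale.Agent.P193.Pot

/-! Soundness of the relators in the model. -/

namespace Vale.Agent.P193

open Classical

namespace Setup
variable {k : ℕ} (S : Setup k)

/-- Token list of a polynomial. -/
def tok (p : Pl S.X) : List (Option S.X) := p.flatMap fun m => none :: m.map some

theorem enc_eq (p : Pl S.X) : S.enc p = (S.tok p).flatMap S.bl := by
  induction p with
  | nil => rfl
  | cons m p ih =>
    simp only [enc, tok, List.flatMap_cons, List.flatMap_append] at ih ⊢
    rw [ih]
    simp [encm, List.flatMap_map]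

theorem flat_inj (a b : List (Option S.X)) (h : a.flatMap S.bl = b.flatMap S.bl) : a = b := by
  have hp := S.l_pos
  induction a generalizing b with
  | nil =>
    cases b with
    | nil => rfl
    | cons o b =>
      have := congrArg List.length h
      simp [S.bl_len] at this; omega
  | cons o a ih =>
    cases b with
    | nil =>
      have := congrArg List.length h
      simp [S.bl_len] at this; omega
    | cons o' b =>
      simp only [List.flatMap_cons] at h
      have := List.append_inj h (by rw [S.bl_len, S.bl_len])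
      rw [S.bl_inj this.1, ih b this.2]

/-- Decoder of token lists. -/
def untok : List (Option S.X) → List S.X × Pl S.X
  | [] => ([], [])
  | none :: r => ([], (untok r).1 :: (untok r).2)
  | some y :: r => (y :: (untok r).1, (untok r).2)

theorem untok_tok (p : Pl S.X) : S.untok (S.tok p) = ([], p) := by
  induction p with
  | nil => rfl
  | cons m p ih =>
    have : ∀ m : List S.X, S.untok (m.map some ++ S.tok p) = (m, p) := by
      intro m
      induction m with
      | nil => exact ih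
      | cons y m ihm => simp only [List.map_cons, List.cons_append, untok, ihm]
    have e : S.tok (m :: p) = none :: (m.map some ++ S.tok p) := by simp [tok]
    rw [e, untok, this]

theorem enc_inj {p q : Pl S.X} (h : S.enc p = S.enc q) : p = q := by
  rw [enc_eq, enc_eq] at h
  have := congrArg S.untok (S.flat_inj _ _ h)
  rw [untok_tok, untok_tok] at this
  exact (Prod.ext_iff.1 this).2

theorem deg_iop (p : Pl S.X) : S.l * deg p ≤ deg (S.iop p) := by
  induction p with
  | nil => simp [deg]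
  | cons m p ih =>
    rw [iop, List.map_cons, ← iop, deg_cons, deg_cons, barw_len]
    rcases le_total m.length (deg p) with h | h
    · rw [max_eq_right h]; exact ih.trans (le_max_right _ _)
    · rw [max_eq_left h]; exact le_trans (by nlinarith) (le_max_left _ _)

end Setup

namespace Ctx
variable {k : ℕ} {Z : Ctx k}

theorem V_two (v : Z.V) : v + v = 0 := by
  have : (2 : ZMod 2) • v = 0 := by
    have h : (2 : ZMod 2) = 0 := rfl
    rw [h, zero_smul]
  rwa [two_smul] at this

theorem act_toW_cons (a : List Z.S.X) (p : Pl Z.S.X) (v : Z.V) :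
    Z.act (toW (a :: p)) v = Z.act (wd a) v + Z.act (toW p) v := by
  rw [toW_cons, map_add]; rfl

theorem act_toW_nil (v : Z.V) : Z.act (toW ([] : Pl Z.S.X)) v = 0 := by
  rw [toW_nil, map_zero]; rfl

theorem act_pair {a b : List Z.S.X} {v : Z.V} (h : Z.act (wd a) v = Z.act (wd b) v) :
    Z.act (toW [a, b]) v = 0 := by
  rw [act_toW_cons, act_toW_cons, act_toW_nil, add_zero, h, V_two]

theorem vCl_ids (x : Z.Stt) (ρs : List Z.S.M.Rl) (c : List (Option Z.S.M.Rl)) :
    vCl x (ρs.map some ++ c) = vCl x c := by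
  induction ρs with
  | nil => rfl
  | cons ρ ρs ih => exact ih

theorem cl_eq (w : List Bool) : Z.S.cl w = (w.map Z.S.M.gen).map some := by
  simp [Setup.cl]

theorem vT_word (x : Z.Stt) (m : List Z.S.X) (c : List (Option Z.S.M.Rl)) :
    vT x (Z.S.cl (m.flatMap fun y => Z.S.bl (some y)) ++ c) = Bop (wd m) (vT x c) := by
  induction m with
  | nil => rw [wd_nil, Bop_one]; rfl
  | cons y m ih =>
    rw [List.flatMap_cons, Setup.cl_append, List.append_assoc, vT_blk, ih, Option.elim, Bop_mul,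
      ← wd_cons]

theorem vK_word (x : Z.Stt) (m : List Z.S.X) (c : List (Option Z.S.M.Rl)) :
    vK x (Z.S.cl (m.flatMap fun y => Z.S.bl (some y)) ++ c) = vK x c := by
  induction m with
  | nil => rfl
  | cons y m ih =>
    rw [List.flatMap_cons, Setup.cl_append, List.append_assoc, vK_blk, ih, Option.elim, zero_add]

theorem vT_enc (x : Z.Stt) (p : Pl Z.S.X) (c : List (Option Z.S.M.Rl)) :
    vT x (Z.S.cl (Z.S.enc p) ++ some Z.S.M.go :: c) = vCl x c := by
  cases p with
  | nil => exact vT_go x c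
  | cons m p =>
    rw [Setup.enc, List.flatMap_cons, Setup.encm, List.append_assoc, Setup.cl_append,
      List.append_assoc, vT_blk, Option.elim, cl_eq, vCl_ids]
    rfl

theorem vK_enc (x : Z.Stt) (p : Pl Z.S.X) (c : List (Option Z.S.M.Rl)) :
    vK x (Z.S.cl (Z.S.enc p) ++ some Z.S.M.go :: c) = Bop (toW p) (vCl x c) := by
  induction p with
  | nil => rw [toW_nil, Bop_zero]; exact vK_go x c
  | cons m p ih =>
    rw [Setup.enc, List.flatMap_cons, ← Setup.enc, Setup.encm, List.append_assoc, Setup.cl_append,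
      List.append_assoc, vK_blk, Option.elim, Setup.cl_append, List.append_assoc, vT_word, vK_word,
      vT_enc, ih, toW_cons, Bop_add]

theorem vCl_single (x : Z.Stt) (c : List (Option Z.S.M.Rl)) :
    ∃ y, vCl x c = sg y ∧ (Z.R.mon y.b).length ≤ (Z.R.mon x.b).length := by
  induction c with
  | nil => exact ⟨_, rfl, by simp [Z.R.mon_one]⟩
  | cons o c ih =>
    cases o with
    | none => exact ⟨_, rfl, le_rfl⟩
    | some ρ => exact ih

theorem act_iop (p : Pl Z.S.X) (v : Z.V) : Z.act (toW (Z.S.iop p)) v = Bop (toW p) v := by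
  induction p with
  | nil => rw [toW_nil, Bop_zero]; exact act_toW_nil v
  | cons m p ih =>
    rw [Setup.iop, List.map_cons, ← Setup.iop, act_toW_cons, ih, act_barw, toW_cons, Bop_add]

theorem tape_letter {y : Z.S.X} {b : Z.S.M.κ ⊕ Bool} (h : y.stk = some b) :
    ∃ τ : Tape Z.S.M → Tape Z.S.M, ∀ x : Z.Stt, Z.act1 y x = sg ⟨τ x.t, x.b, x.it⟩ := by
  rcases y with ⟨j, γ⟩ | o | o | h' | i
  · exact ⟨fun t => ⟨fun i => if i = j then γ :: t.m i else t.m i, t.c, t.h⟩, fun _ => rfl⟩
  · exact ⟨fun t => ⟨t.m, o :: t.c, t.h⟩, fun _ => rfl⟩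
  · exact ⟨fun t => ⟨t.m, t.c, o :: t.h⟩, fun _ => rfl⟩
  · simp [Lt.stk] at h
  · simp [Lt.stk] at h

theorem act_blk (o : Option Z.S.X) (x : Z.Stt) :
    Z.act (wd (Z.S.blk o)) (sg x) = sg (setc x (Z.S.cl (Z.S.bl o) ++ x.t.c)) := act_c _ _

theorem vCl_setc (x : Z.Stt) (c c' : List (Option Z.S.M.Rl)) : vCl (setc x c') c = vCl x c := by
  induction c with
  | nil => rfl
  | cons o c ih =>
    cases o with
    | none => rfl
    | some ρ => exact ih

theorem vT_setc (x : Z.Stt) (c c' : List (Option Z.S.M.Rl)) : vT (setc x c') c = vT x c := by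
  induction c using Z.S.clock_ind with
  | h1 o c ih => rw [vT_blk, vT_blk, ih, vCl_setc]
  | h2 c => rw [vT_go, vT_go, vCl_setc]
  | h3 c h1 h2 => rw [vT_else _ h1 h2, vT_else _ h1 h2]; rfl

theorem vK_setc (x : Z.Stt) (c c' : List (Option Z.S.M.Rl)) : vK (setc x c') c = vK x c := by
  induction c using Z.S.clock_ind with
  | h1 o c ih => rw [vK_blk, vK_blk, ih, vT_setc]
  | h2 c => rw [vK_go, vK_go]
  | h3 c h1 h2 => rw [vK_else _ h1 h2, vK_else _ h1 h2]; rfl

theorem act_one (y : Z.S.X) (x : Z.Stt) : Z.act (wd [y]) (sg x) = Z.act1 y x := by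
  rw [act_single, lin_sg]

variable (Z)

/-- Right closure in low degree. -/
def RC (n : ℕ) : Prop :=
  ∀ (i : ℕ) (b : FA Z.S.X) (u : List Z.S.X), b ∈ Wle Z.S.X i → b ∈ Z.L → i + u.length < n →
    b * wd u ∈ Z.L

/-- Accepted inputs of low degree lie in the left ideal. -/
def ACC (n : ℕ) : Prop :=
  ∀ (ρs : List Z.S.M.Rl) (junk rest : Z.S.M.κ → List Z.S.M.Γ),
    Z.S.M.Run ρs (app (Z.S.M.start Z.e) junk) (app Z.S.M.acc rest) →
      ∃ (p : Pl Z.S.X) (ρs' : List Z.S.M.Rl),
        ρs = (Z.S.enc p).map Z.S.M.gen ++ Z.S.M.go :: ρs' ∧ (deg p < n → toW p ∈ Z.L)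

variable {Z}

theorem Bop_kill {n : ℕ} (hR : Z.RC n) {p : Pl Z.S.X} (hp : toW p ∈ Z.L) (x : Z.Stt)
    (h : deg p + (Z.R.mon x.b).length < n) : Bop (toW p) (sg x) = 0 := by
  rw [Bop_sg, (Z.R.red_eq_zero _).2 (hR _ _ _ (toW_mem_Wle le_rfl) hp h), map_zero]

theorem sound_term {n : ℕ} (hR : Z.RC n) (hA : Z.ACC n) (x : Z.Stt) (hx : Th x < Z.S.l * n) :
    Z.act (wd (Lt.hd .Y :: mword Z.S.M.acc)) (sg x) = 0 := by
  rw [act_cons, act_mword, lin_sg]
  simp only [act1]
  obtain ⟨ρs, h1, h2, h3⟩ := root_spec x.t.h (app Z.S.M.acc x.t.m) x.t.c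
  generalize root x.t.h (app Z.S.M.acc x.t.m) x.t.c = r at h1 h2 h3
  unfold vR
  split_ifs with hl h4
  · rw [hl.choose_spec.1] at h3
    obtain ⟨p, ρs', h5, h6⟩ := hA _ _ _ h3
    have e : r.c = Z.S.cl (Z.S.enc p) ++ some Z.S.M.go :: (ρs'.map some ++ x.t.c) := by
      rw [h2, h5, cl_eq]; simp
    rw [e, vK_enc]
    obtain ⟨y, hy, hy2⟩ := vCl_single ⟨⟨hl.choose.1, [], hl.choose.2⟩, x.b, x.it⟩
      (ρs'.map some ++ x.t.c)
    rw [hy]
    have h7 := Z.S.enc_len p
    have h8 := congrArg List.length h1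
    have h9 := congrArg List.length h5
    simp only [List.length_append, List.length_map, List.length_reverse] at h8 h9
    have h10 : deg p + (Z.R.mon y.b).length < n := by
      refine lt_of_mul_lt_mul_left (a := Z.S.l) (lt_of_le_of_lt ?_ hx) (Nat.zero_le _)
      simp only [Th, U] at hy2 ⊢
      nlinarith [Nat.zero_le (Z.S.d * x.t.h.length), Nat.mul_le_mul_left Z.S.l hy2]
    exact Bop_kill hR (h6 (by omega)) y h10
  · rfl
  · exact absurd ⟨ρs, x.t.c, x.t.m, h2, h3⟩ h4

theorem sound_R0 {n : ℕ} (hR : Z.RC n) (hA : Z.ACC n) {r : Pl Z.S.X} (hr : Z.S.R0 r)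
    (x : Z.Stt) (hx : Th x < Z.S.l * n) : Z.act (toW r) (sg x) = 0 := by
  cases hr with
  | commT y z a b ha hb hab =>
    refine act_pair ?_
    simp only [act_cons, act_nil, lin_sg]
    rcases y with ⟨j, γ⟩ | o | o | h' | i <;> rcases z with ⟨j', γ'⟩ | o' | o' | h'' | i' <;>
      simp only [Lt.stk, Option.some.injEq, reduceCtorEq] at ha hb <;>
      simp only [act1, lin_sg] <;> subst ha hb <;> try contradiction
    congr 3
    funext i
    have : j ≠ j' := fun h => hab (by rw [h])
    split_ifs with h1 h2 h2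
    · exact absurd (h1.symm.trans h2) this
    all_goals rfl
  | commB y z b hb =>
    refine act_pair ?_
    obtain ⟨τ, hτ⟩ := tape_letter hb
    rw [act_append, act_bar, act_one, hτ, act_cons, act_bar, Bop_sg, Bop_sg, slot_eq, slot_eq,
      map_sum]
    simp only [map_smul, lin_sg, hτ]
  | commG i y _ =>
    refine act_pair ?_
    have h1 : ∀ v : Z.V, Z.act (wd [Lt.g i]) v = v := act_g [i]
    rw [wd_cons (Lt.g i) [y], map_mul, wd_cons y [Lt.g i], map_mul]
    simp only [Module.End.mul_apply, h1]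
  | back ρ =>
    refine act_pair ?_
    simp only [act_cons, act_mword, lin_sg, act1, root_back]
    rfl
  | term => rw [act_toW_cons, act_toW_nil, add_zero]; exact sound_term hR hA x hx
  | Kopn =>
    rw [act_toW_cons, act_toW_cons, act_toW_cons, act_toW_nil, add_zero, act_cons, act_blk, lin_sg,
      act_one, act_one]
    simp only [act1]
    rw [vK_setc]
    simp only [setc, vK_blk, Option.elim, V_two]
  | Kblk y =>
    refine act_pair ?_
    rw [act_cons, act_blk, lin_sg, act_one]
    simp only [act1]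
    rw [vK_setc]
    simp only [setc, vK_blk, Option.elim, zero_add]
  | Kgo =>
    rw [act_toW_cons, act_toW_nil, add_zero, act_cons, act_one]
    simp only [act1, lin_sg, vK_go]
  | Tblk y =>
    refine act_pair ?_
    rw [act_cons, act_blk, lin_sg, act_append, act_bar, act_one]
    simp only [act1]
    rw [vT_setc]
    simp only [setc, vT_blk, Option.elim]
  | Topn =>
    refine act_pair ?_
    rw [act_cons, act_blk, lin_sg, act_one]
    simp only [act1]
    rw [vT_setc]
    simp only [setc, vT_blk, Option.elim]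
  | Tgo =>
    refine act_pair ?_
    rw [act_cons, act_one, act_one]
    simp only [act1, lin_sg, vT_go]
    exact vCl_setc x _ _
  | Clid ρ =>
    refine act_pair ?_
    rw [act_cons, act_one, act_one]
    simp only [act1, lin_sg, vCl]
    exact vCl_setc x _ _
  | Clend =>
    refine act_pair ?_
    rw [act_cons, act_one, act_nil]
    simp only [act1, lin_sg, vCl]
    rfl

theorem sound_link (x : Z.Stt) : Z.act (toW (Z.S.link Z.e)) (sg x) = 0 := by
  refine act_pair ?_
  simp only [act_cons, act_mword, lin_sg, act1, act_nil, root, vR_link]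
  exact vK_setc x _ _

theorem coeff_one {α : Type*} {f : α →₀ ZMod 2} {a : α} (h : a ∈ f.support) : f a = 1 := by
  have := Finsupp.mem_support_iff.1 h
  revert this; generalize f a = r; revert r; decide

theorem sound_arel {p : Pl Z.S.X} (hp : toW p ∉ Z.L) (x : Z.Stt) :
    Z.act (toW (Z.S.arel p)) (sg x) = 0 := by
  have key : ∀ q : Pl Z.S.X, Z.act (toW (q.map fun m =>
      Lt.hd .A :: Z.S.cw (Z.S.enc p) ++ Z.S.barw m ++ [Lt.hd .a])) (sg x) =
      lin vA (Z.act (wd (Z.S.cw (Z.S.enc p))) (Bop (toW q) (fz .a x))) := by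
    intro q
    induction q with
    | nil => rw [List.map_nil, act_toW_nil, toW_nil, Bop_zero, map_zero, map_zero]
    | cons m q ih =>
      rw [List.map_cons, act_toW_cons, ih, toW_cons, Bop_add, map_add, map_add, List.cons_append,
        List.cons_append, act_cons, act_append, act_append, act_barw, act_one]
      rfl
  rw [Setup.arel, act_toW_cons, key, act_nil, fz, Bop_sg, Z.R.mon_one, wd_nil, mul_one, slot_eq,
    map_sum, map_sum]
  have hpiv := piv_mem hp
  rw [← Finset.add_sum_erase _ _ hpiv, coeff_one hpiv, one_smul, Setup.cw, act_c, lin_sg]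
  have hs : Spec (Z := Z) ⟨⟨fun _ => [], Z.S.cl (Z.S.enc p) ++ [], []⟩, piv (toW p),
      (Hd.a, x.t, x.b) :: x.it⟩ p := ⟨by simp, hp, rfl⟩
  have huniq : ∀ (β : Z.R.B) (q : Pl Z.S.X), Spec (Z := Z) ⟨⟨fun _ => [],
      Z.S.cl (Z.S.enc p) ++ [], []⟩, β, (Hd.a, x.t, x.b) :: x.it⟩ q → q = p := by
    intro β q hq
    have := congrArg Tape.c hq.1
    simp only [List.append_nil] at this
    exact (Z.S.enc_inj (Z.S.cl_inj this)).symm
  have e1 : vA (Z := Z) ⟨⟨fun _ => [], Z.S.cl (Z.S.enc p) ++ [], []⟩, piv (toW p),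
      (Hd.a, x.t, x.b) :: x.it⟩ = sg x + ∑ β ∈ (Z.R.red (toW p)).support.erase (piv (toW p)),
        fz .A ⟨⟨fun _ => [], Z.S.cl (Z.S.enc p) ++ [], []⟩, β, (Hd.a, x.t, x.b) :: x.it⟩ := by
    have h : ∃ q, Spec (Z := Z) ⟨⟨fun _ => [], Z.S.cl (Z.S.enc p) ++ [], []⟩, piv (toW p),
      (Hd.a, x.t, x.b) :: x.it⟩ q := ⟨p, hs⟩
    simp only [vA]
    rw [dif_pos h, huniq _ _ h.choose_spec]
  have e2 : ∀ β ∈ (Z.R.red (toW p)).support.erase (piv (toW p)),
      lin vA (Z.act (wd ((Z.S.cl (Z.S.enc p)).map Lt.c)) ((Z.R.red (toW p)) β •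
        sg ⟨Tape.nil _, β, (Hd.a, x.t, x.b) :: x.it⟩)) =
      fz .A ⟨⟨fun _ => [], Z.S.cl (Z.S.enc p) ++ [], []⟩, β, (Hd.a, x.t, x.b) :: x.it⟩ := by
    intro β hβ
    rw [coeff_one (Finset.mem_of_mem_erase hβ), one_smul, act_c, lin_sg]
    simp only [vA]
    refine dif_neg ?_
    rintro ⟨q, hq⟩
    have := huniq _ _ hq
    subst this
    exact Finset.ne_of_mem_erase hβ hq.2.2
  rw [Finset.sum_congr rfl e2]
  simp only [Tape.nil]
  rw [e1, add_assoc, V_two, add_zero, V_two]

variable {G : Type*} [Group G] (s : Fin k → G)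

variable (Z) in
/-- The relator family attached to the left ideal. -/
def FamL : Pl Z.S.X → Prop := Z.S.Fam s Z.e (fun q => toW q ∈ Z.L) (fun q => toW q ∉ Z.L)

theorem sound0 {n : ℕ} (hR : Z.RC n) (hA : Z.ACC n) {r : Pl Z.S.X} (hr : Z.FamL s r)
    (x : Z.Stt) (hx : Th x + deg r < Z.S.l * n) : Z.act (toW r) (sg x) = 0 := by
  rcases hr with hr | rfl | ⟨p, hp, rfl⟩ | ⟨p, hp, rfl⟩ | ⟨w, w', _, rfl⟩
  · exact sound_R0 hR hA hr x (by omega)
  · exact sound_link x
  · rw [act_iop]
    refine Bop_kill hR hp x ?_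
    refine lt_of_mul_lt_mul_left (a := Z.S.l) (lt_of_le_of_lt ?_ hx) (Nat.zero_le _)
    have := Z.S.deg_iop p
    simp only [Th, U]
    nlinarith [Nat.zero_le (Z.R.mon x.b).length]
  · exact sound_arel hp x
  · exact act_pair (by rw [act_g, act_g])

end Ctx

end Vale.Agent.P193
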